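import Vale.Agent.Lib.P254L.Recursion

/-!
The cone decomposition of the simplex around its centre, in barycentric coordinates.
-/

open MeasureTheory Set Function
open Vale.Agent.Lib.P254

namespace Vale.Agent.Lib.P254L

/-- insertion of a zero coordinate -/
def ins {n : ℕ} (l : Fin (n + 1)) (θ : Fin n → ℝ) : Fin (n + 1) → ℝ :=
  Fin.insertNth (α := fun _ => ℝ) l 0 θ

/-- the centre of the simplex -/
noncomputable def cen (n : ℕ) : Fin (n + 1) → ℝ := fun _ => ((n : ℝ) + 1)⁻¹

/-- the segment from the centre to the point `θ` of the facet `l` -/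
noncomputable def ray {n : ℕ} (l : Fin (n + 2)) (r : ℝ) (θ : Fin (n + 1) → ℝ) : Fin (n + 2) → ℝ :=
  cen (n + 1) + r • (ins l θ - cen (n + 1))

@[simp] theorem ins_same {n : ℕ} (l : Fin (n + 1)) (θ : Fin n → ℝ) : ins l θ l = 0 := by
  simp [ins]

@[simp] theorem ins_succAbove {n : ℕ} (l : Fin (n + 1)) (θ : Fin n → ℝ) (i : Fin n) :
    ins l θ (l.succAbove i) = θ i := by
  simp [ins]

theorem cen_succ_apply (n : ℕ) (j : Fin (n + 2)) : cen (n + 1) j = ((n : ℝ) + 2)⁻¹ := by
  simp only [cen]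
  push_cast
  ring_nf

theorem ray_same {n : ℕ} (l : Fin (n + 2)) (r : ℝ) (θ : Fin (n + 1) → ℝ) :
    ray l r θ l = (1 - r) * ((n : ℝ) + 2)⁻¹ := by
  simp only [ray, Pi.add_apply, Pi.smul_apply, Pi.sub_apply, smul_eq_mul, ins_same, cen_succ_apply]
  ring

theorem ray_succAbove {n : ℕ} (l : Fin (n + 2)) (r : ℝ) (θ : Fin (n + 1) → ℝ) (i : Fin (n + 1)) :
    ray l r θ (l.succAbove i) = (1 - r) * ((n : ℝ) + 2)⁻¹ + r * θ i := by
  simp only [ray, Pi.add_apply, Pi.smul_apply, Pi.sub_apply, smul_eq_mul, ins_succAbove,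
    cen_succ_apply]
  ring

theorem sum_ray {n : ℕ} (l : Fin (n + 2)) (r : ℝ) (θ : Fin (n + 1) → ℝ) :
    ∑ j, ray l r θ j = (1 - r) + r * ∑ i, θ i := by
  rw [Fin.sum_univ_succAbove _ l, ray_same]
  simp_rw [ray_succAbove]
  rw [Finset.sum_add_distrib, Finset.sum_const, Finset.card_univ, Fintype.card_fin, nsmul_eq_mul,
    ← Finset.mul_sum]
  have : ((n : ℝ) + 2) ≠ 0 := by positivity
  push_cast
  field_simp
  ring

theorem ray_nonneg {n : ℕ} (l : Fin (n + 2)) {r : ℝ} (hr0 : 0 ≤ r) (hr1 : r ≤ 1)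
    {θ : Fin (n + 1) → ℝ} (hθ : ∀ i, 0 ≤ θ i) (j : Fin (n + 2)) : 0 ≤ ray l r θ j := by
  have hc : (0 : ℝ) ≤ ((n : ℝ) + 2)⁻¹ := by positivity
  have h1 : 0 ≤ 1 - r := by linarith
  refine Fin.succAboveCases l ?_ (fun i => ?_) j
  · rw [ray_same]
    positivity
  · rw [ray_succAbove]
    have := hθ i
    positivity

theorem continuous_ins {n : ℕ} (l : Fin (n + 1)) : Continuous (ins (n := n) l) := by
  refine continuous_pi (fun j => ?_)
  refine Fin.succAboveCases l ?_ (fun i => ?_) j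
  · simp only [ins_same]
    exact continuous_const
  · simp only [ins_succAbove]
    exact continuous_apply i

theorem continuous_ray {n : ℕ} (l : Fin (n + 2)) :
    Continuous (fun p : ℝ × (Fin (n + 1) → ℝ) => ray l p.1 p.2) := by
  unfold ray
  have := continuous_ins l
  fun_prop

/-- the orthant piece of the simplex where the coordinate `l` is smallest -/
def Cpiece {n : ℕ} (l : Fin (n + 2)) : Set (Fin (n + 2) → ℝ) :=
  {s | s ∈ unitSimplex (Fin (n + 2)) ∧ ∀ j, s l ≤ s j}

theorem measurableSet_Cpiece {n : ℕ} (l : Fin (n + 2)) : MeasurableSet (Cpiece l) := by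
  have h1 : Cpiece l = unitSimplex (Fin (n + 2)) ∩ ⋂ j, {s : Fin (n + 2) → ℝ | s l ≤ s j} := by
    ext s
    simp [Cpiece]
  rw [h1]
  exact isCompact_unitSimplex.isClosed.measurableSet.inter
    (MeasurableSet.iInter (fun j => measurableSet_le (measurable_pi_apply l) (measurable_pi_apply j)))

/-- the parametrisation of the orthant piece -/
def Thet {n : ℕ} (l : Fin (n + 2)) (t : ℝ) (w : Fin (n + 1) → ℝ) : Fin (n + 2) → ℝ :=
  Fin.insertNth (α := fun _ => ℝ) l t (fun j => w j + t)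

@[simp] theorem Thet_same {n : ℕ} (l : Fin (n + 2)) (t : ℝ) (w : Fin (n + 1) → ℝ) :
    Thet l t w l = t := by
  simp [Thet]

@[simp] theorem Thet_succAbove {n : ℕ} (l : Fin (n + 2)) (t : ℝ) (w : Fin (n + 1) → ℝ)
    (i : Fin (n + 1)) : Thet l t w (l.succAbove i) = w i + t := by
  simp [Thet]

theorem sum_Thet {n : ℕ} (l : Fin (n + 2)) (t : ℝ) (w : Fin (n + 1) → ℝ) :
    ∑ j, Thet l t w j = ((n : ℝ) + 2) * t + ∑ i, w i := by
  rw [Fin.sum_univ_succAbove _ l, Thet_same]
  simp_rw [Thet_succAbove]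
  rw [Finset.sum_add_distrib, Finset.sum_const, Finset.card_univ, Fintype.card_fin, nsmul_eq_mul]
  push_cast
  ring

theorem mp_Thet {n : ℕ} (l : Fin (n + 2)) : MeasurePreserving
    (fun p : ℝ × (Fin (n + 1) → ℝ) => Thet l p.1 p.2)
    ((volume : Measure ℝ).prod (volume : Measure (Fin (n + 1) → ℝ))) volume := by
  have h1 : MeasurePreserving (fun p : ℝ × (Fin (n + 1) → ℝ) => (p.1, fun j => p.2 j + p.1))
      ((volume : Measure ℝ).prod (volume : Measure (Fin (n + 1) → ℝ)))
      ((volume : Measure ℝ).prod (volume : Measure (Fin (n + 1) → ℝ))) := by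
    refine (MeasurePreserving.id (volume : Measure ℝ)).skew_product
      (g := fun (t : ℝ) (w : Fin (n + 1) → ℝ) (j : Fin (n + 1)) => w j + t) ?_ (Filter.Eventually.of_forall fun t => ?_)
    · refine measurable_pi_iff.2 (fun j => ?_)
      unfold uncurry
      fun_prop
    · exact (measurePreserving_add_right volume (fun _ : Fin (n + 1) => t)).map_eq
  have h3 := (volume_preserving_piFinSuccAbove (fun _ : Fin (n + 2) => ℝ) l).symm
  have h4 := h3.comp h1
  have heq : (fun p : ℝ × (Fin (n + 1) → ℝ) => Thet l p.1 p.2) =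
      (⇑(MeasurableEquiv.piFinSuccAbove (fun _ : Fin (n + 2) => ℝ) l).symm ∘
        fun p : ℝ × (Fin (n + 1) → ℝ) => (p.1, fun j => p.2 j + p.1)) := by
    funext p
    rfl
  rw [heq]
  exact h4

theorem Thet_mem_iff {n : ℕ} (l : Fin (n + 2)) (t : ℝ) (w : Fin (n + 1) → ℝ) :
    Thet l t w ∈ Cpiece l ↔ 0 ≤ t ∧ w ∈ Orth (n + 1) ∧ ((n : ℝ) + 2) * t + ∑ i, w i ≤ 1 := by
  constructor
  · rintro ⟨⟨h1, h2⟩, h3⟩
    refine ⟨by simpa using h1 l, fun i => ?_, by rwa [sum_Thet] at h2⟩
    have := h3 (l.succAbove i)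
    simp only [Thet_same, Thet_succAbove] at this
    linarith
  · rintro ⟨h1, h2, h3⟩
    refine ⟨⟨fun j => ?_, by rwa [sum_Thet]⟩, fun j => ?_⟩
    · refine Fin.succAboveCases l ?_ (fun i => ?_) j
      · simpa using h1
      · simp only [Thet_succAbove]
        have := h2 i
        linarith
    · refine Fin.succAboveCases l ?_ (fun i => ?_) j
      · simp
      · simp only [Thet_same, Thet_succAbove]
        have := h2 i
        linarith

theorem Thet_normalized {n : ℕ} (l : Fin (n + 2)) {t : ℝ} (ht : 0 ≤ t) {w : Fin (n + 1) → ℝ}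
    (hw : 0 < ∑ i, w i) :
    (∑ j, Thet l t w j)⁻¹ • Thet l t w =
      ray l ((∑ i, w i) / (((n : ℝ) + 2) * t + ∑ i, w i)) ((∑ i, w i)⁻¹ • w) := by
  have hn : ((n : ℝ) + 2) ≠ 0 := by positivity
  have hS : 0 < ((n : ℝ) + 2) * t + ∑ i, w i := by positivity
  rw [sum_Thet]
  set ρ := ∑ i, w i with hρ
  have hρ0 := hw.ne'
  funext j
  refine Fin.succAboveCases l ?_ (fun i => ?_) j
  · rw [ray_same]
    simp only [Pi.smul_apply, Thet_same, smul_eq_mul]
    field_simp
    ring
  · rw [ray_succAbove]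
    simp only [Pi.smul_apply, Thet_succAbove, smul_eq_mul]
    field_simp
    ring

theorem bound_Bm {n : ℕ} {g : (Fin (n + 1) → ℝ) → ℝ} {M : ℝ} (hb : ∀ θ, |g θ| ≤ M) :
    |Bm n g| ≤ M * vol (unitSimplex (Fin n)) := by
  have h := norm_setIntegral_le_of_norm_le_const (μ := volume)
    (s := unitSimplex (Fin n)) (f := fun x => g (bary x)) (C := M)
    isCompact_unitSimplex.measure_lt_top (fun x _ => by simpa using hb (bary x))
  simpa [Bm, vol, Measure.real] using h

theorem measurable_Bm_param {n : ℕ} {F : ℝ → (Fin (n + 1) → ℝ) → ℝ} (hF : Measurable (uncurry F)) :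
    Measurable (fun r => Bm n (F r)) := by
  have h1 : StronglyMeasurable (fun p : ℝ × (Fin n → ℝ) => F p.1 (bary p.2)) := by
    refine Measurable.stronglyMeasurable ?_
    have : Measurable (fun p : ℝ × (Fin n → ℝ) => (p.1, bary p.2)) :=
      measurable_fst.prodMk (measurable_bary.comp measurable_snd)
    exact hF.comp this
  exact (h1.integral_prod_right (ν := volume.restrict (unitSimplex (Fin n)))).measurable

/-- the integral over one piece of the orthant decomposition -/
theorem cone_piece {n : ℕ} {f : (Fin (n + 2) → ℝ) → ℝ} (hf : Measurable f) {M : ℝ}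
    (hb : ∀ σ, |f σ| ≤ M) (l : Fin (n + 2)) :
    ∫ s in Cpiece l, f ((∑ j, s j)⁻¹ • s) =
      (1 / ((n : ℝ) + 2)) * (1 / ((n : ℝ) + 2)) *
        ∫ r in Ioc (0 : ℝ) 1, r ^ n * Bm n (fun θ => f (ray l r θ)) := by
  classical
  have hM : 0 ≤ M := (abs_nonneg _).trans (hb 0)
  have hN : (0 : ℝ) < (n : ℝ) + 2 := by positivity
  set g : (Fin (n + 2) → ℝ) → ℝ := fun s => f ((∑ j, s j)⁻¹ • s) with hg
  have hgm : Measurable g := by
    have h0 : Measurable (fun v : Fin (n + 2) → ℝ => (∑ j, v j)⁻¹) :=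
      Measurable.inv (by fun_prop)
    refine hf.comp (measurable_pi_iff.2 (fun j => ?_))
    simp only [Pi.smul_apply, smul_eq_mul]
    exact h0.mul (measurable_pi_apply j)
  set G : (Fin (n + 2) → ℝ) → ℝ := (Cpiece l).indicator g with hG
  have hGm : Measurable G := hgm.indicator (measurableSet_Cpiece l)
  have hGi : Integrable G := by
    refine integrable_of_bdd_support hGm (M := M) (C := 1) (fun v => ?_) (fun v hv j => ?_)
    · by_cases h : v ∈ Cpiece l
      · rw [hG, indicator_of_mem h]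
        exact hb _
      · rw [hG, indicator_of_notMem h]
        simpa using hM
    · have h : v ∈ Cpiece l := by
        by_contra h
        exact hv (by rw [hG, indicator_of_notMem h])
      refine ⟨h.1.1 j, ?_⟩
      exact (Finset.single_le_sum (fun i _ => h.1.1 i) (Finset.mem_univ j)).trans h.1.2
  rw [← integral_indicator (measurableSet_Cpiece l)]
  have hmp := mp_Thet l
  have hcomp : ∫ s, G s = ∫ p : ℝ × (Fin (n + 1) → ℝ), G (Thet l p.1 p.2)
      ∂((volume : Measure ℝ).prod (volume : Measure (Fin (n + 1) → ℝ))) := by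
    conv_lhs => rw [← hmp.map_eq]
    exact integral_map hmp.aemeasurable (by rw [hmp.map_eq]; exact hGi.aestronglyMeasurable)
  have hcompi : Integrable (fun p : ℝ × (Fin (n + 1) → ℝ) => G (Thet l p.1 p.2))
      ((volume : Measure ℝ).prod (volume : Measure (Fin (n + 1) → ℝ))) :=
    (hmp.integrable_comp hGi.aestronglyMeasurable).2 hGi
  rw [hcomp, integral_prod _ hcompi]
  set Ξ : ℝ → ℝ := fun r => Bm n (fun θ => f (ray l r θ)) with hΞ
  -- the inner integral
  have hinner : ∀ t : ℝ, 0 ≤ t → ∫ w : Fin (n + 1) → ℝ, G (Thet l t w) =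
      ∫ ρ in Ioi (0 : ℝ), (if ((n : ℝ) + 2) * t + ρ ≤ 1
        then ρ ^ n * Ξ (ρ / (((n : ℝ) + 2) * t + ρ)) else 0) := by
    intro t ht
    set h : ℝ → (Fin (n + 1) → ℝ) → ℝ := fun ρ θ =>
      if ((n : ℝ) + 2) * t + ρ ≤ 1 then f (ray l (ρ / (((n : ℝ) + 2) * t + ρ)) θ) else 0 with hh
    have hhm : Measurable (uncurry h) := by
      have hset : MeasurableSet {p : ℝ × (Fin (n + 1) → ℝ) | ((n : ℝ) + 2) * t + p.1 ≤ 1} :=
        measurableSet_le (f := fun p : ℝ × (Fin (n + 1) → ℝ) => ((n : ℝ) + 2) * t + p.1)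
          (by fun_prop) measurable_const
      refine Measurable.ite hset ?_ measurable_const
      refine hf.comp ?_
      have h1 : Measurable (fun p : ℝ × (Fin (n + 1) → ℝ) =>
          (p.1 / (((n : ℝ) + 2) * t + p.1), p.2)) := by fun_prop
      exact (continuous_ray l).measurable.comp h1
    have hhb : ∀ ρ θ, |h ρ θ| ≤ M := by
      intro ρ θ
      simp only [hh]
      split_ifs
      · exact hb _
      · simpa using hM
    have hhs : ∀ ρ θ, 1 < ρ → h ρ θ = 0 := by
      intro ρ θ hρ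
      simp only [hh]
      rw [if_neg]
      have := mul_nonneg hN.le ht
      linarith
    have hpol := polar hhm hhb hhs
    have h1 : ∫ w : Fin (n + 1) → ℝ, G (Thet l t w) =
        ∫ v in Orth (n + 1), h (∑ j, v j) ((∑ j, v j)⁻¹ • v) := by
      rw [← integral_indicator (measurableSet_orth _)]
      refine integral_congr_ae ?_
      have hne : ∀ᵐ w : Fin (n + 1) → ℝ, w ≠ 0 := by
        simp [ae_iff]
      filter_upwards [hne] with w hw
      by_cases hmem : w ∈ Orth (n + 1)
      · rw [indicator_of_mem hmem]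
        have hpos : 0 < ∑ i, w i := by
          refine lt_of_le_of_ne (Finset.sum_nonneg (fun i _ => hmem i)) (fun h0 => hw ?_)
          have := (Finset.sum_eq_zero_iff_of_nonneg (fun i _ => hmem i)).1 h0.symm
          funext i
          exact this i (Finset.mem_univ i)
        simp only [hh]
        by_cases hcond : ((n : ℝ) + 2) * t + ∑ i, w i ≤ 1
        · rw [if_pos hcond, hG, indicator_of_mem ((Thet_mem_iff l t w).2 ⟨ht, hmem, hcond⟩), hg]
          simp only
          rw [Thet_normalized l ht hpos]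
        · rw [if_neg hcond, hG, indicator_of_notMem]
          intro hc
          exact hcond ((Thet_mem_iff l t w).1 hc).2.2
      · rw [indicator_of_notMem hmem, hG, indicator_of_notMem]
        intro hc
        exact hmem ((Thet_mem_iff l t w).1 hc).2.1
    rw [h1, hpol]
    refine setIntegral_congr_fun measurableSet_Ioi (fun ρ _ => ?_)
    simp only [hh]
    by_cases hcond : ((n : ℝ) + 2) * t + ρ ≤ 1
    · simp only [hcond, if_true]
      rfl
    · simp only [hcond, if_false]
      simp [Bm]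
  -- negative `t`
  have hnegt : ∀ t : ℝ, ¬ 0 ≤ t → ∫ w : Fin (n + 1) → ℝ, G (Thet l t w) = 0 := by
    intro t ht
    have : (fun w : Fin (n + 1) → ℝ => G (Thet l t w)) = fun _ => 0 := by
      funext w
      rw [hG, indicator_of_notMem]
      intro hc
      exact ht ((Thet_mem_iff l t w).1 hc).1
    rw [this, integral_zero]
  have hΞm : Measurable Ξ := by
    refine measurable_Bm_param (F := fun r θ => f (ray l r θ)) ?_
    exact hf.comp (continuous_ray l).measurable
  have hΞb : ∀ r, |Ξ r| ≤ M * vol (unitSimplex (Fin n)) := fun r => bound_Bm (fun θ => hb _)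
  have hmain := two_var n hΞm hΞb hN
  rw [← setIntegral_eq_integral_of_forall_compl_eq_zero
    (s := Ici (0 : ℝ)) (fun t ht => hnegt t ht), setIntegral_congr_fun measurableSet_Ici
    (fun t ht => hinner t ht), hmain]

theorem orth_inter_eq (n : ℕ) : unitSimplex (Fin n) = Orth n ∩ {v | ∑ j, v j ≤ 1} := by
  ext v
  simp [unitSimplex, Orth]

/-- the solid integral of a `0`-homogeneous function -/
theorem solid {n : ℕ} {f : (Fin (n + 1) → ℝ) → ℝ} (hf : Measurable f) {M : ℝ}
    (hb : ∀ σ, |f σ| ≤ M) :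
    ∫ s in unitSimplex (Fin (n + 1)), f ((∑ j, s j)⁻¹ • s) = (1 / ((n : ℝ) + 1)) * Bm n f := by
  classical
  have hM : 0 ≤ M := (abs_nonneg _).trans (hb 0)
  set h : ℝ → (Fin (n + 1) → ℝ) → ℝ := fun ρ θ => if ρ ≤ 1 then f θ else 0 with hh
  have hhm : Measurable (uncurry h) := by
    have hset : MeasurableSet {p : ℝ × (Fin (n + 1) → ℝ) | p.1 ≤ 1} :=
      measurableSet_le measurable_fst measurable_const
    exact Measurable.ite hset (hf.comp measurable_snd) measurable_const
  have hhb : ∀ ρ θ, |h ρ θ| ≤ M := by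
    intro ρ θ
    simp only [hh]
    split_ifs
    · exact hb _
    · simpa using hM
  have hhs : ∀ ρ θ, 1 < ρ → h ρ θ = 0 := by
    intro ρ θ hρ
    simp only [hh]
    rw [if_neg (not_le.2 hρ)]
  have hpol := polar hhm hhb hhs
  have h1 : ∫ s in unitSimplex (Fin (n + 1)), f ((∑ j, s j)⁻¹ • s) =
      ∫ v in Orth (n + 1), h (∑ j, v j) ((∑ j, v j)⁻¹ • v) := by
    rw [← integral_indicator (measurableSet_orth _),
      ← integral_indicator isCompact_unitSimplex.isClosed.measurableSet]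
    congr 1
    funext v
    by_cases hv : v ∈ unitSimplex (Fin (n + 1))
    · rw [indicator_of_mem hv, indicator_of_mem (show v ∈ Orth (n + 1) from hv.1)]
      simp only [hh]
      rw [if_pos hv.2]
    · rw [indicator_of_notMem hv]
      by_cases hv2 : v ∈ Orth (n + 1)
      · rw [indicator_of_mem hv2]
        simp only [hh]
        rw [if_neg (fun h3 => hv ⟨hv2, h3⟩)]
      · rw [indicator_of_notMem hv2]
  rw [h1, hpol]
  have h2 : ∫ ρ in Ioi (0 : ℝ), ρ ^ n * Bm n (h ρ) =
      ∫ ρ in Ioc (0 : ℝ) 1, ρ ^ n * Bm n f := by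
    rw [← integral_indicator measurableSet_Ioi, ← integral_indicator measurableSet_Ioc]
    congr 1
    funext ρ
    by_cases hρ : ρ ∈ Ioc (0 : ℝ) 1
    · rw [indicator_of_mem hρ, indicator_of_mem (show ρ ∈ Ioi (0 : ℝ) from hρ.1)]
      simp only [hh, if_pos hρ.2]
    · rw [indicator_of_notMem hρ]
      by_cases h0 : ρ ∈ Ioi (0 : ℝ)
      · rw [indicator_of_mem h0]
        have h3 : ¬ ρ ≤ 1 := fun h3 => hρ ⟨h0, h3⟩
        simp [hh, h3, Bm]
      · rw [indicator_of_notMem h0]
  rw [h2, integral_mul_const, ← intervalIntegral.integral_of_le zero_le_one, integral_pow]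
  simp

theorem volume_coord_eq {k : ℕ} {l m : Fin k} (hlm : l ≠ m) :
    (volume : Measure (Fin k → ℝ)) {v | v l = v m} = 0 := by
  classical
  set L : (Fin k → ℝ) →ₗ[ℝ] ℝ :=
    (LinearMap.proj l : (Fin k → ℝ) →ₗ[ℝ] ℝ) - (LinearMap.proj m : (Fin k → ℝ) →ₗ[ℝ] ℝ) with hL
  have hset : {v : Fin k → ℝ | v l = v m} = (LinearMap.ker L : Set (Fin k → ℝ)) := by
    ext v
    simp [hL, sub_eq_zero]
  rw [hset]
  refine Measure.addHaar_submodule volume _ (fun htop => ?_)
  have h1 : (Pi.single l (1 : ℝ) : Fin k → ℝ) ∈ LinearMap.ker L := by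
    rw [htop]
    exact Submodule.mem_top
  have h2 := LinearMap.mem_ker.1 h1
  simp [hL, Pi.single_apply, hlm.symm] at h2

theorem iUnion_Cpiece (n : ℕ) : (⋃ l : Fin (n + 2), Cpiece l) = unitSimplex (Fin (n + 2)) := by
  ext s
  simp only [mem_iUnion]
  constructor
  · rintro ⟨l, hl⟩
    exact hl.1
  · intro hs
    obtain ⟨l, hl⟩ := Finite.exists_min s
    exact ⟨l, hs, hl⟩

/-- **Cone decomposition of the simplex**, for globally bounded functions. -/
theorem recursion_bdd {n : ℕ} {f : (Fin (n + 2) → ℝ) → ℝ} (hf : Measurable f) {M : ℝ}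
    (hb : ∀ σ, |f σ| ≤ M) :
    Bm (n + 1) f = (1 / ((n : ℝ) + 2)) *
      ∑ l : Fin (n + 2), ∫ r in Ioc (0 : ℝ) 1, r ^ n * Bm n (fun θ => f (ray l r θ)) := by
  classical
  have hN : (0 : ℝ) < (n : ℝ) + 2 := by positivity
  have hs := solid (n := n + 1) hf hb
  set g : (Fin (n + 2) → ℝ) → ℝ := fun s => f ((∑ j, s j)⁻¹ • s) with hg
  have hgm : Measurable g := by
    have h0 : Measurable (fun v : Fin (n + 2) → ℝ => (∑ j, v j)⁻¹) :=
      Measurable.inv (by fun_prop)
    refine hf.comp (measurable_pi_iff.2 (fun j => ?_))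
    simp only [Pi.smul_apply, smul_eq_mul]
    exact h0.mul (measurable_pi_apply j)
  have hU : IntegrableOn g (⋃ l : Fin (n + 2), Cpiece l) := by
    rw [iUnion_Cpiece]
    exact Measure.integrableOn_of_bounded isCompact_unitSimplex.measure_lt_top.ne
      hgm.aestronglyMeasurable (M := M) (Filter.Eventually.of_forall fun s => by simpa using hb _)
  have hsplit := integral_iUnion_ae (μ := volume) (f := g) (s := fun l : Fin (n + 2) => Cpiece l)
    (fun l => (measurableSet_Cpiece l).nullMeasurableSet)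
    (fun l m hlm => by
      refine measure_mono_null ?_ (volume_coord_eq hlm)
      rintro s ⟨h1, h2⟩
      exact le_antisymm (h1.2 m) (h2.2 l)) hU
  rw [iUnion_Cpiece, tsum_fintype] at hsplit
  have hpieces : ∀ l : Fin (n + 2), ∫ s in Cpiece l, g s =
      (1 / ((n : ℝ) + 2)) * (1 / ((n : ℝ) + 2)) *
        ∫ r in Ioc (0 : ℝ) 1, r ^ n * Bm n (fun θ => f (ray l r θ)) :=
    fun l => cone_piece hf hb l
  simp_rw [hpieces] at hsplit
  rw [← Finset.mul_sum] at hsplit
  have hs' : ∫ s in unitSimplex (Fin (n + 2)), g s = (1 / ((n : ℝ) + 2)) * Bm (n + 1) f := by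
    rw [hg]
    convert hs using 2
    push_cast
    ring
  rw [hs'] at hsplit
  field_simp at hsplit ⊢
  linarith

/-- the simplex in barycentric coordinates -/
def Sg (k : ℕ) : Set (Fin k → ℝ) := {σ | (∀ j, 0 ≤ σ j) ∧ ∑ j, σ j = 1}

theorem measurableSet_Sg (k : ℕ) : MeasurableSet (Sg k) := by
  have : Sg k = (⋂ j, {σ : Fin k → ℝ | 0 ≤ σ j}) ∩ {σ | ∑ j, σ j = 1} := by
    ext σ
    simp [Sg]
  rw [this]
  refine (MeasurableSet.iInter (fun j => measurableSet_le measurable_const (measurable_pi_apply j))).inter ?_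
  exact measurableSet_eq_fun (by fun_prop) measurable_const

theorem bary_mem_Sg {n : ℕ} {x : Fin n → ℝ} (hx : x ∈ unitSimplex (Fin n)) : bary x ∈ Sg (n + 1) := by
  refine ⟨fun j => ?_, sum_bary x⟩
  refine Fin.cases ?_ (fun i => ?_) j
  · simp only [bary, Fin.cons_zero]
    linarith [hx.2]
  · simp only [bary, Fin.cons_succ]
    exact hx.1 i

theorem ray_mem_Sg {n : ℕ} (l : Fin (n + 2)) {r : ℝ} (hr0 : 0 ≤ r) (hr1 : r ≤ 1)
    {θ : Fin (n + 1) → ℝ} (hθ : θ ∈ Sg (n + 1)) : ray l r θ ∈ Sg (n + 2) := by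
  refine ⟨ray_nonneg l hr0 hr1 hθ.1, ?_⟩
  rw [sum_ray, hθ.2]
  ring

theorem Bm_congr {n : ℕ} {f g : (Fin (n + 1) → ℝ) → ℝ} (h : ∀ σ ∈ Sg (n + 1), f σ = g σ) :
    Bm n f = Bm n g :=
  setIntegral_congr_fun isCompact_unitSimplex.isClosed.measurableSet
    (fun _ hx => h _ (bary_mem_Sg hx))

/-- **Cone decomposition of the simplex.** -/
theorem recursion {n : ℕ} {f : (Fin (n + 2) → ℝ) → ℝ} (hf : Measurable f) {M : ℝ}
    (hb : ∀ σ ∈ Sg (n + 2), |f σ| ≤ M) :
    Bm (n + 1) f = (1 / ((n : ℝ) + 2)) *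
      ∑ l : Fin (n + 2), ∫ r in Ioc (0 : ℝ) 1, r ^ n * Bm n (fun θ => f (ray l r θ)) := by
  classical
  have hσ : (Fin.cons (1 : ℝ) 0 : Fin (n + 2) → ℝ) ∈ Sg (n + 2) := by
    have := bary_mem_Sg (n := n + 1) (x := 0) (by simp [unitSimplex])
    simpa [bary] using this
  have hM : 0 ≤ M := (abs_nonneg _).trans (hb _ hσ)
  set F := (Sg (n + 2)).indicator f with hF
  have hFm : Measurable F := hf.indicator (measurableSet_Sg _)
  have hFb : ∀ σ, |F σ| ≤ M := by
    intro σ
    by_cases h : σ ∈ Sg (n + 2)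
    · rw [hF, indicator_of_mem h]
      exact hb σ h
    · rw [hF, indicator_of_notMem h]
      simpa using hM
  have h1 := recursion_bdd hFm hFb
  have h2 : Bm (n + 1) F = Bm (n + 1) f :=
    Bm_congr (fun σ hσ => by rw [hF, indicator_of_mem hσ])
  rw [h2] at h1
  rw [h1]
  congr 1
  refine Finset.sum_congr rfl (fun l _ => ?_)
  refine setIntegral_congr_fun measurableSet_Ioc (fun r hr => ?_)
  congr 1
  refine Bm_congr (fun θ hθ => ?_)
  rw [hF, indicator_of_mem (ray_mem_Sg l hr.1.le hr.2 hθ)]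

end Vale.Agent.Lib.P254L
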