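import Vale.Agent.Lib.P254L.KL

/-!
The core inequality: a convex body which is close to the standard simplex, lies inside it and
contains all facet centres has nonnegative excess integral of the quadratic kernel.
-/

open MeasureTheory Set Function Filter Topology
open Vale.Agent.Lib.P254

namespace Vale.Agent.Lib.P254L

variable {m : ℕ}

/-- the centroid of the standard simplex -/
noncomputable def ctr (m : ℕ) : Fin (m + 1) → ℝ := fun _ => ((m : ℝ) + 2)⁻¹

theorem tail_cen (m : ℕ) : Fin.tail (cen (m + 1)) = ctr m := by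
  funext i
  simp [Fin.tail, cen_succ_apply, ctr]

theorem tail_ray (l : Fin (m + 2)) (r : ℝ) (θ : Fin (m + 1) → ℝ) :
    Fin.tail (ray l r θ) = ctr m + r • (Fin.tail (ins l θ) - ctr m) := by
  funext i
  simp [Fin.tail, ray, cen_succ_apply, ctr]

theorem bary_tail {σ : Fin (m + 2) → ℝ} (h : ∑ j, σ j = 1) : bary (Fin.tail σ) = σ := by
  have e : 1 - ∑ i, Fin.tail σ i = σ 0 := by
    rw [Fin.sum_univ_succ] at h
    simp only [Fin.tail]
    linarith
  unfold bary
  rw [e, Fin.cons_self_tail]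

theorem tail_bary (x : Fin (m + 1) → ℝ) : Fin.tail (bary x) = x := by
  simp [bary]

theorem tail_mem_iff {σ : Fin (m + 2) → ℝ} (h : ∑ j, σ j = 1) :
    Fin.tail σ ∈ unitSimplex (Fin (m + 1)) ↔ σ ∈ Sg (m + 2) := by
  constructor
  · intro hx
    have := bary_mem_Sg hx
    rwa [bary_tail h] at this
  · intro hσ
    refine ⟨fun i => hσ.1 i.succ, ?_⟩
    rw [Fin.sum_univ_succ] at h
    have := hσ.1 0
    simp only [Fin.tail]
    linarith

theorem ins_mem_Sg (l : Fin (m + 2)) {θ : Fin (m + 1) → ℝ} (hθ : θ ∈ Sg (m + 1)) :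
    ins l θ ∈ Sg (m + 2) := by
  constructor
  · intro j
    refine Fin.succAboveCases l ?_ (fun i => ?_) j
    · simp
    · simpa using hθ.1 i
  · rw [Fin.sum_univ_succAbove _ l]
    simp [hθ.2]

theorem sum_ins (l : Fin (m + 2)) (θ : Fin (m + 1) → ℝ) : ∑ j, ins l θ j = ∑ i, θ i := by
  rw [Fin.sum_univ_succAbove _ l]
  simp

theorem cen_mem_Sg (m : ℕ) : cen m ∈ Sg (m + 1) := by
  refine ⟨fun j => by simp only [cen]; positivity, ?_⟩
  simp only [cen, Finset.sum_const, Finset.card_univ, Fintype.card_fin, nsmul_eq_mul]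
  push_cast
  have : ((m : ℝ) + 1) ≠ 0 := by positivity
  field_simp

theorem ctr_nhds : unitSimplex (Fin (m + 1)) ∈ 𝓝 (ctr m) := by
  have h1 : ∀ᶠ x : Fin (m + 1) → ℝ in 𝓝 (ctr m), ∀ i, 0 < x i := by
    refine eventually_all.2 (fun i => ?_)
    refine (continuous_apply i).continuousAt.eventually (lt_mem_nhds ?_)
    simp only [ctr]
    positivity
  have h2 : ∀ᶠ x : Fin (m + 1) → ℝ in 𝓝 (ctr m), ∑ i, x i < 1 := by
    have hc : Continuous (fun x : Fin (m + 1) → ℝ => ∑ i, x i) := by fun_prop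
    refine hc.continuousAt.eventually (gt_mem_nhds ?_)
    simp only [ctr, Finset.sum_const, Finset.card_univ, Fintype.card_fin, nsmul_eq_mul]
    push_cast
    have hp : (0 : ℝ) < (m : ℝ) + 2 := by positivity
    rw [← div_eq_mul_inv, div_lt_one hp]
    linarith
  filter_upwards [h1, h2] with x hx1 hx2
  exact ⟨fun i => (hx1 i).le, hx2.le⟩

/-- the body centred at the centroid -/
def K0 (K : Set (Fin (m + 1) → ℝ)) : Set (Fin (m + 1) → ℝ) := {v | ctr m + v ∈ K}

/-- the standing assumptions -/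
structure Good (K : Set (Fin (m + 1) → ℝ)) (ε : ℝ) : Prop where
  closed : IsClosed K
  convex : Convex ℝ K
  sub : K ⊆ unitSimplex (Fin (m + 1))
  eps : 0 < ε
  shrink : ∀ x ∈ unitSimplex (Fin (m + 1)), ctr m + (1 + ε)⁻¹ • (x - ctr m) ∈ K
  centre : ∀ l : Fin (m + 2), Fin.tail (ins l (cen m)) ∈ K

namespace Good

variable {K : Set (Fin (m + 1) → ℝ)} {ε : ℝ}

theorem convex0 (h : Good K ε) : Convex ℝ (K0 K) :=
  h.convex.translate_preimage_right (ctr m)

theorem closed0 (h : Good K ε) : IsClosed (K0 K) :=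
  h.closed.preimage (continuous_const.add continuous_id)

theorem nhds0 (h : Good K ε) : K0 K ∈ 𝓝 (0 : Fin (m + 1) → ℝ) := by
  have hε := h.eps
  have hg : Continuous (fun v : Fin (m + 1) → ℝ => ctr m + (1 + ε) • v) := by fun_prop
  have h0 : ctr m + (1 + ε) • (0 : Fin (m + 1) → ℝ) = ctr m := by simp
  have h1 : (fun v : Fin (m + 1) → ℝ => ctr m + (1 + ε) • v) ⁻¹' unitSimplex (Fin (m + 1)) ∈
      𝓝 (0 : Fin (m + 1) → ℝ) := by
    refine hg.continuousAt ?_
    rw [h0]
    exact ctr_nhds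
  refine mem_of_superset h1 (fun v hv => ?_)
  have := h.shrink _ hv
  have hne : (1 + ε) ≠ 0 := by positivity
  have e : ctr m + (1 + ε)⁻¹ • (ctr m + (1 + ε) • v - ctr m) = ctr m + v := by
    rw [add_sub_cancel_left, smul_smul, inv_mul_cancel₀ hne, one_smul]
  rw [e] at this
  exact this

theorem mem_iff (h : Good K ε) (v : Fin (m + 1) → ℝ) : ctr m + v ∈ K ↔ gauge (K0 K) v ≤ 1 := by
  rw [gauge_le_one_iff_mem_closure h.convex0 h.nhds0, h.closed0.closure_eq]
  rfl

theorem gauge_smul (r : ℝ) (hr : 0 ≤ r) (v : Fin (m + 1) → ℝ) :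
    gauge (K0 K) (r • v) = r * gauge (K0 K) v := by
  rw [gauge_smul_of_nonneg hr, smul_eq_mul]

theorem continuous_g (h : Good K ε) : Continuous (gauge (K0 K)) :=
  continuous_gauge h.convex0 h.nhds0

end Good

/-- the height of the boundary of `K` above the facet of the simplex -/
noncomputable def al (K : Set (Fin (m + 1) → ℝ)) (l : Fin (m + 2)) (θ : Fin (m + 1) → ℝ) : ℝ :=
  gauge (K0 K) (Fin.tail (ins l θ) - ctr m) - 1

theorem continuous_ins_tail (l : Fin (m + 2)) :
    Continuous (fun θ : Fin (m + 1) → ℝ => Fin.tail (ins l θ) - ctr m) := by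
  have h := continuous_ins l
  refine continuous_pi (fun i => ?_)
  have : Continuous (fun θ : Fin (m + 1) → ℝ => ins l θ i.succ) :=
    (continuous_apply i.succ).comp h
  simp only [Pi.sub_apply, Fin.tail]
  exact this.sub continuous_const

namespace Good

variable {K : Set (Fin (m + 1) → ℝ)} {ε : ℝ}

theorem continuous_al (h : Good K ε) (l : Fin (m + 2)) : Continuous (al K l) := by
  unfold al
  exact (h.continuous_g.comp (continuous_ins_tail l)).sub continuous_const

theorem convexOn_al (h : Good K ε) (l : Fin (m + 2)) : ConvexOn ℝ univ (al K l) := by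
  refine ⟨convex_univ, fun x _ y _ a b ha hb hab => ?_⟩
  simp only [smul_eq_mul, al]
  have e : Fin.tail (ins l (a • x + b • y)) - ctr m =
      a • (Fin.tail (ins l x) - ctr m) + b • (Fin.tail (ins l y) - ctr m) := by
    rw [ins_affine]
    funext i
    simp only [Pi.sub_apply, Pi.add_apply, Pi.smul_apply, smul_eq_mul, Fin.tail]
    have : a = 1 - b := by linarith
    subst this
    ring
  rw [e]
  have h1 := gauge_add_le h.convex0 (absorbent_nhds_zero h.nhds0)
    (a • (Fin.tail (ins l x) - ctr m)) (b • (Fin.tail (ins l y) - ctr m))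
  rw [gauge_smul a ha, gauge_smul b hb] at h1
  have : a = 1 - b := by linarith
  subst this
  nlinarith

theorem tail_ray_mem_iff (h : Good K ε) (l : Fin (m + 2)) {r : ℝ} (hr : 0 ≤ r)
    (θ : Fin (m + 1) → ℝ) : Fin.tail (ray l r θ) ∈ K ↔ r * (1 + al K l θ) ≤ 1 := by
  rw [tail_ray, h.mem_iff, gauge_smul r hr, al]
  have e : (1 + (gauge (K0 K) (Fin.tail (ins l θ) - ctr m) - 1)) =
      gauge (K0 K) (Fin.tail (ins l θ) - ctr m) := by ring
  rw [e]

theorem al_nonneg (h : Good K ε) (l : Fin (m + 2)) {θ : Fin (m + 1) → ℝ} (hθ : θ ∈ Sg (m + 1)) :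
    0 ≤ al K l θ := by
  by_contra hneg
  push Not at hneg
  have hγ0 : 0 ≤ 1 + al K l θ := by
    have := gauge_nonneg (s := K0 K) (Fin.tail (ins l θ) - ctr m)
    simp only [al]
    linarith
  set s : ℝ := 2 / (2 + al K l θ) with hs
  have hpos : 0 < 2 + al K l θ := by linarith
  have hs1 : 1 < s := by
    rw [hs, lt_div_iff₀ hpos]
    linarith
  have hs2 : s * (1 + al K l θ) ≤ 1 := by
    rw [hs, div_mul_eq_mul_div, div_le_one hpos]
    linarith
  have hmem := (h.tail_ray_mem_iff l (by linarith : (0 : ℝ) ≤ s) θ).2 hs2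
  have hsub := h.sub hmem
  have hsum : ∑ j, ray l s θ j = 1 := by
    rw [sum_ray, hθ.2]
    ring
  have hSg := (tail_mem_iff hsum).1 hsub
  have := hSg.1 l
  rw [ray_same] at this
  have hp : (0 : ℝ) < ((m : ℝ) + 2)⁻¹ := by positivity
  nlinarith

theorem al_le (h : Good K ε) (l : Fin (m + 2)) {θ : Fin (m + 1) → ℝ} (hθ : θ ∈ Sg (m + 1)) :
    al K l θ ≤ ε := by
  have hε := h.eps
  have hsum : ∑ j, ins l θ j = 1 := by rw [sum_ins, hθ.2]
  have hx := (tail_mem_iff hsum).2 (ins_mem_Sg l hθ)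
  have hmem := h.shrink _ hx
  rw [h.mem_iff, gauge_smul _ (by positivity)] at hmem
  have hne : (0 : ℝ) < 1 + ε := by positivity
  rw [inv_mul_le_iff₀ hne, mul_one] at hmem
  simp only [al]
  linarith

theorem al_cen (h : Good K ε) (l : Fin (m + 2)) : al K l (cen m) = 0 := by
  refine le_antisymm ?_ (h.al_nonneg l (cen_mem_Sg m))
  have h1 := h.centre l
  have h2 : ctr m + (Fin.tail (ins l (cen m)) - ctr m) = Fin.tail (ins l (cen m)) := by
    rw [add_sub_cancel]
  rw [← h2, h.mem_iff] at h1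
  simp only [al]
  linarith

end Good

/-- the excess integrand -/
noncomputable def Hf (K : Set (Fin (m + 1) → ℝ)) (σ : Fin (m + 2) → ℝ) : ℝ :=
  open Classical in if Fin.tail σ ∈ K then 0 else ((m : ℝ) + 2) * ∑ j, σ j ^ 2 - 2

/-- the radial integral of the excess integrand -/
noncomputable def Tf (m : ℕ) (a Q : ℝ) : ℝ :=
  ∫ r in Ioc (0 : ℝ) 1, r ^ m * (if r * (1 + a) ≤ 1 then 0 else r ^ 2 * (Q + 1) - 1)

theorem Tf_lb (m : ℕ) {a Q : ℝ} (ha : 0 ≤ a) (hQ : Q ≤ m) :
    Q * a - (((m : ℝ) * ((m : ℝ) + 4) / 2 + 1) * a ^ 2) ≤ Tf m a Q := by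
  have ha1 : 0 < 1 + a := by linarith
  set r0 : ℝ := (1 + a)⁻¹ with hr0
  have hr0pos : 0 < r0 := inv_pos.2 ha1
  have hr0le : r0 ≤ 1 := inv_le_one_of_one_le₀ (by linarith)
  set h : ℝ → ℝ := fun r => r ^ m * (r ^ 2 * (Q + 1) - 1) with hh
  have hhc : Continuous h := by
    rw [hh]
    fun_prop
  have e1 : Tf m a Q = ∫ r in Ioc r0 1, h r := by
    unfold Tf
    have e2 : ∀ r ∈ Ioc (0 : ℝ) 1, r ^ m * (if r * (1 + a) ≤ 1 then 0 else r ^ 2 * (Q + 1) - 1) =
        (Ioi r0).indicator h r := by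
      intro r hr
      by_cases hc : r * (1 + a) ≤ 1
      · have : r ≤ r0 := by
          rw [hr0, le_inv_comm₀ hr.1 ha1, ← one_div, le_div_iff₀ hr.1]
          linarith
        rw [if_pos hc, indicator_of_notMem (by simpa using this)]
        simp
      · have : r0 < r := by
          by_contra hle
          push Not at hle
          apply hc
          have := mul_le_mul_of_nonneg_right hle ha1.le
          rwa [hr0, inv_mul_cancel₀ ha1.ne'] at this
        rw [if_neg hc, indicator_of_mem (by simpa using this)]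
    rw [setIntegral_congr_fun measurableSet_Ioc e2, setIntegral_indicator measurableSet_Ioi]
    congr 2
    ext r
    simp only [mem_inter_iff, mem_Ioc, mem_Ioi]
    constructor
    · rintro ⟨⟨_, h2⟩, h3⟩
      exact ⟨h3, h2⟩
    · rintro ⟨h1, h2⟩
      exact ⟨⟨hr0pos.trans h1, h2⟩, h1⟩
  -- integral of the affine lower bound
  have hint : ∀ α β : ℝ, ∫ r in Ioc r0 1, (α - β * (1 - r)) = α * (1 - r0) - β * (1 - r0) ^ 2 / 2 := by
    intro α β
    rw [← intervalIntegral.integral_of_le hr0le]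
    have hd : ∀ r ∈ uIcc r0 1, HasDerivAt (fun r : ℝ => α * r - β * (r - r ^ 2 / 2))
        (α - β * (1 - r)) r := by
      intro r _
      have h1 : HasDerivAt (fun r : ℝ => r ^ 2 / 2) r r := by
        have := (hasDerivAt_pow 2 r).div_const 2
        simpa using this
      have h3 : HasDerivAt (fun r : ℝ => α * r - β * (r - r ^ 2 / 2)) (α * 1 - β * (1 - r)) r :=
        ((hasDerivAt_id' r).const_mul α).sub (((hasDerivAt_id' r).sub h1).const_mul β)
      simpa using h3
    rw [intervalIntegral.integral_eq_sub_of_hasDerivAt hd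
      (Continuous.intervalIntegrable (by fun_prop) _ _)]
    ring
  have hmono : ∀ α β : ℝ, (∀ r ∈ Ioc r0 1, α - β * (1 - r) ≤ h r) →
      α * (1 - r0) - β * (1 - r0) ^ 2 / 2 ≤ Tf m a Q := by
    intro α β hle
    rw [e1, ← hint]
    refine setIntegral_mono_on ?_ ?_ measurableSet_Ioc hle
    · exact (Continuous.continuousOn (by fun_prop)).integrableOn_compact isCompact_Icc
        |>.mono_set Ioc_subset_Icc_self
    · exact (hhc.continuousOn.integrableOn_compact isCompact_Icc).mono_set Ioc_subset_Icc_self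
  -- pointwise facts
  have hpt1 : ∀ r ∈ Ioc r0 1, -(2 * (1 - r)) ≤ r ^ m * (r ^ 2 - 1) := by
    intro r hr
    have hr0' : 0 < r := hr0pos.trans hr.1
    have hp1 : r ^ m ≤ 1 := pow_le_one₀ hr0'.le hr.2
    have hp0 : 0 ≤ r ^ m := by positivity
    have hq : r ^ 2 - 1 ≤ 0 := by nlinarith [hr.2]
    have h5 : r ^ 2 - 1 ≤ r ^ m * (r ^ 2 - 1) := by nlinarith
    nlinarith [hr.2]
  have hu1 : (1 - r0) ≤ a := by
    have : r0 * (1 + a) = 1 := inv_mul_cancel₀ ha1.ne'
    nlinarith
  have hu0 : 0 ≤ 1 - r0 := by linarith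
  have hu2 : a - a ^ 2 ≤ 1 - r0 := by
    have h6 : r0 * (1 + a) = 1 := inv_mul_cancel₀ ha1.ne'
    have h7 : (1 - r0 - (a - a ^ 2)) * (1 + a) = a ^ 3 := by
      have : (1 - r0 - (a - a ^ 2)) * (1 + a) = (1 + a) - r0 * (1 + a) - (a - a ^ 2) * (1 + a) := by
        ring
      rw [this, h6]
      ring
    by_contra hlt
    push Not at hlt
    have h8 : (1 - r0 - (a - a ^ 2)) * (1 + a) < 0 :=
      mul_neg_of_neg_of_pos (by linarith) ha1
    rw [h7] at h8
    have : 0 ≤ a ^ 3 := by positivity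
    linarith
  have huu : (1 - r0) ^ 2 ≤ a ^ 2 := by nlinarith
  have hm0 : (0 : ℝ) ≤ m := Nat.cast_nonneg m
  rcases le_or_gt 0 Q with hQ0 | hQ0
  · -- nonnegative `Q`
    have hb := hmono Q (Q * ((m : ℝ) + 2) + 2) (by
      intro r hr
      have hr0' : 0 < r := hr0pos.trans hr.1
      have hber : 1 + ((m + 2 : ℕ) : ℝ) * (r - 1) ≤ (1 + (r - 1)) ^ (m + 2) :=
        one_add_mul_le_pow (by linarith) _
      have e3 : (1 + (r - 1)) = r := by ring
      rw [e3] at hber
      push_cast at hber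
      have h5 := hpt1 r hr
      have e4 : h r = Q * r ^ (m + 2) + r ^ m * (r ^ 2 - 1) := by
        simp only [hh]
        ring
      rw [e4]
      have h6 := mul_le_mul_of_nonneg_left hber hQ0
      nlinarith)
    refine le_trans ?_ hb
    have h9 : Q * (a - a ^ 2) ≤ Q * (1 - r0) := mul_le_mul_of_nonneg_left hu2 hQ0
    have h10 : (Q * ((m : ℝ) + 2) + 2) * (1 - r0) ^ 2 ≤ (Q * ((m : ℝ) + 2) + 2) * a ^ 2 :=
      mul_le_mul_of_nonneg_left huu (by positivity)
    have h11 : Q * a ^ 2 ≤ (m : ℝ) * a ^ 2 := mul_le_mul_of_nonneg_right hQ (by positivity)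
    have h12 : Q * ((m : ℝ) + 2) * a ^ 2 ≤ (m : ℝ) * ((m : ℝ) + 2) * a ^ 2 := by
      apply mul_le_mul_of_nonneg_right _ (by positivity)
      exact mul_le_mul_of_nonneg_right hQ (by positivity)
    nlinarith
  · -- negative `Q`
    have hb := hmono Q 2 (by
      intro r hr
      have hr0' : 0 < r := hr0pos.trans hr.1
      have hp1 : r ^ (m + 2) ≤ 1 := pow_le_one₀ hr0'.le hr.2
      have h5 := hpt1 r hr
      have e4 : h r = Q * r ^ (m + 2) + r ^ m * (r ^ 2 - 1) := by
        simp only [hh]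
        ring
      rw [e4]
      nlinarith)
    refine le_trans ?_ hb
    have h9 : Q * a ≤ Q * (1 - r0) := mul_le_mul_of_nonpos_left hu1 hQ0.le
    have h13 : 0 ≤ ((m : ℝ) * ((m : ℝ) + 4) / 2) * a ^ 2 := by positivity
    nlinarith

theorem Qf_le {θ : Fin (m + 1) → ℝ} (hθ : θ ∈ Sg (m + 1)) : Qf m θ ≤ m := by
  have h1 : ∑ j, θ j ^ 2 ≤ 1 := by
    have : ∑ j, θ j ^ 2 ≤ ∑ j, θ j := by
      refine Finset.sum_le_sum (fun j _ => ?_)
      have h0 := hθ.1 j
      have h1 : θ j ≤ 1 := by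
        have h := Finset.single_le_sum (f := θ) (fun i _ => hθ.1 i) (Finset.mem_univ j)
        rwa [hθ.2] at h
      nlinarith
    rwa [hθ.2] at this
  simp only [Qf]
  have hp : (0 : ℝ) ≤ (m : ℝ) + 2 := by positivity
  nlinarith

theorem Hf_ray {K : Set (Fin (m + 1) → ℝ)} {ε : ℝ} (h : Good K ε) (l : Fin (m + 2)) {r : ℝ}
    (hr : 0 ≤ r) {θ : Fin (m + 1) → ℝ} (hθ : θ ∈ Sg (m + 1)) :
    Hf K (ray l r θ) =
      if r * (1 + al K l θ) ≤ 1 then 0 else r ^ 2 * (Qf m θ + 1) - 1 := by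
  unfold Hf
  have e1 : (Fin.tail (ray l r θ) ∈ K) ↔ r * (1 + al K l θ) ≤ 1 := h.tail_ray_mem_iff l hr θ
  by_cases hc : r * (1 + al K l θ) ≤ 1
  · rw [if_pos hc, if_pos (e1.2 hc)]
  · rw [if_neg hc, if_neg (fun hh => hc (e1.1 hh)), sum_sq_ray l r hθ.2]
    have hN : ((m : ℝ) + 2) ≠ 0 := by positivity
    simp only [Qf]
    field_simp
    ring

/-- the constant comparison -/
theorem const_le (m : ℕ) {ε : ℝ} (hε : ε ≤ 1 / (2 * ((m : ℝ) + 1) ^ 4)) :
    ((m : ℝ) * ((m : ℝ) + 4) / 2 + 1) * ε ≤ 2 / (((m : ℝ) + 1) * ((m : ℝ) + 3)) := by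
  have hm : (0 : ℝ) ≤ m := Nat.cast_nonneg m
  have hC : 0 ≤ ((m : ℝ) * ((m : ℝ) + 4) / 2 + 1) := by positivity
  refine (mul_le_mul_of_nonneg_left hε hC).trans ?_
  rw [mul_one_div, div_le_div_iff₀ (by positivity) (by positivity)]
  have h1 : ((m : ℝ) * ((m : ℝ) + 4) + 2) * ((m : ℝ) + 3) ≤ 8 * ((m : ℝ) + 1) ^ 3 := by
    nlinarith [mul_nonneg hm hm, mul_nonneg (mul_nonneg hm hm) hm]
  have h2 : 0 ≤ ((m : ℝ) + 1) := by positivity
  have e1 : ((m : ℝ) * ((m : ℝ) + 4) / 2 + 1) * (((m : ℝ) + 1) * ((m : ℝ) + 3)) =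
      (((m : ℝ) * ((m : ℝ) + 4) + 2) * ((m : ℝ) + 3)) * (((m : ℝ) + 1) / 2) := by ring
  have e2 : 2 * (2 * ((m : ℝ) + 1) ^ 4) = (8 * ((m : ℝ) + 1) ^ 3) * (((m : ℝ) + 1) / 2) := by ring
  rw [e1, e2]
  exact mul_le_mul_of_nonneg_right h1 (by positivity)

section fubini

variable {K : Set (Fin (m + 1) → ℝ)} {ε : ℝ}

/-- the integrand on the product -/
noncomputable def PhiF (K : Set (Fin (m + 1) → ℝ)) (l : Fin (m + 2)) (r : ℝ) (x : Fin m → ℝ) : ℝ :=
  r ^ m * (if r * (1 + al K l (bary x)) ≤ 1 then 0 else r ^ 2 * (Qf m (bary x) + 1) - 1)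

theorem integrable_PhiF (h : Good K ε) (l : Fin (m + 2)) :
    Integrable (uncurry (PhiF K l)) ((volume.restrict (Ioc (0 : ℝ) 1)).prod
      (volume.restrict (unitSimplex (Fin m)))) := by
  have : IsFiniteMeasure ((volume : Measure ℝ).restrict (Ioc (0 : ℝ) 1)) := ⟨by simp⟩
  have : IsFiniteMeasure ((volume : Measure (Fin m → ℝ)).restrict (unitSimplex (Fin m))) :=
    ⟨by simpa using isCompact_unitSimplex.measure_lt_top⟩
  obtain ⟨M, hM⟩ := exists_bound_Sg (continuous_Qf m)
  have hal : Continuous (fun p : ℝ × (Fin m → ℝ) => p.1 * (1 + al K l (bary p.2))) :=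
    continuous_fst.mul (continuous_const.add
      ((h.continuous_al l).comp (continuous_bary.comp continuous_snd)))
  have hQ : Continuous (fun p : ℝ × (Fin m → ℝ) => p.1 ^ 2 * (Qf m (bary p.2) + 1) - 1) :=
    ((continuous_fst.pow 2).mul (((continuous_Qf m).comp
      (continuous_bary.comp continuous_snd)).add continuous_const)).sub continuous_const
  have hmeas : Measurable (uncurry (PhiF K l)) := by
    have : uncurry (PhiF K l) = fun p : ℝ × (Fin m → ℝ) => p.1 ^ m *
        (if p.1 * (1 + al K l (bary p.2)) ≤ 1 then 0 else p.1 ^ 2 * (Qf m (bary p.2) + 1) - 1) := by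
      funext p
      rfl
    rw [this]
    refine (continuous_fst.pow m).measurable.mul ?_
    exact Measurable.ite (measurableSet_le hal.measurable measurable_const) measurable_const
      hQ.measurable
  refine Integrable.of_bound hmeas.aestronglyMeasurable (|M| + 2) ?_
  rw [Measure.prod_restrict]
  refine ae_restrict_of_forall_mem (measurableSet_Ioc.prod
    isCompact_unitSimplex.isClosed.measurableSet) (fun p hp => ?_)
  obtain ⟨hr, hx⟩ := hp
  have hr0 : 0 ≤ p.1 := hr.1.le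
  have hr1 : p.1 ≤ 1 := hr.2
  have hpow : |p.1 ^ m| ≤ 1 := by
    rw [abs_of_nonneg (by positivity)]
    exact pow_le_one₀ hr0 hr1
  have hQb : |Qf m (bary p.2)| ≤ |M| := (hM _ (bary_mem_Sg hx)).trans (le_abs_self M)
  have hsq : |p.1 ^ 2| ≤ 1 := by
    rw [abs_of_nonneg (by positivity)]
    exact pow_le_one₀ hr0 hr1
  have hinner : |p.1 ^ 2 * (Qf m (bary p.2) + 1) - 1| ≤ |M| + 2 := by
    have h1 : |p.1 ^ 2 * (Qf m (bary p.2) + 1)| ≤ 1 * (|M| + 1) := by
      rw [abs_mul]
      refine mul_le_mul hsq ?_ (abs_nonneg _) zero_le_one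
      refine (abs_add_le _ _).trans ?_
      simpa using hQb
    have h2 := abs_sub (p.1 ^ 2 * (Qf m (bary p.2) + 1)) 1
    simp only [abs_one] at h2
    linarith
  have h3 : |PhiF K l p.1 p.2| ≤ |M| + 2 := by
    unfold PhiF
    rw [abs_mul]
    have h4 : |(if p.1 * (1 + al K l (bary p.2)) ≤ 1 then (0 : ℝ) else
        p.1 ^ 2 * (Qf m (bary p.2) + 1) - 1)| ≤ |M| + 2 := by
      split_ifs
      · simp only [abs_zero]
        positivity
      · exact hinner
    calc |p.1 ^ m| * _ ≤ 1 * (|M| + 2) :=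
          mul_le_mul hpow h4 (abs_nonneg _) zero_le_one
      _ = |M| + 2 := one_mul _
  simpa [uncurry] using h3

theorem piece_swap (h : Good K ε) (l : Fin (m + 2)) :
    ∫ r in Ioc (0 : ℝ) 1, r ^ m * Bm m (fun θ => Hf K (ray l r θ)) =
      ∫ x in unitSimplex (Fin m), Tf m (al K l (bary x)) (Qf m (bary x)) := by
  have e1 : ∀ r ∈ Ioc (0 : ℝ) 1, r ^ m * Bm m (fun θ => Hf K (ray l r θ)) =
      ∫ x in unitSimplex (Fin m), PhiF K l r x := by
    intro r hr
    unfold Bm
    rw [← integral_const_mul]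
    refine setIntegral_congr_fun isCompact_unitSimplex.isClosed.measurableSet (fun x hx => ?_)
    simp only [PhiF]
    rw [Hf_ray h l hr.1.le (bary_mem_Sg hx)]
  rw [setIntegral_congr_fun measurableSet_Ioc e1]
  exact integral_integral_swap (integrable_PhiF h l)

theorem piece_nonneg (h : Good K ε) (hε : ε ≤ 1 / (2 * ((m : ℝ) + 1) ^ 4)) (l : Fin (m + 2)) :
    0 ≤ ∫ r in Ioc (0 : ℝ) 1, r ^ m * Bm m (fun θ => Hf K (ray l r θ)) := by
  rw [piece_swap h l]
  set C : ℝ := (m : ℝ) * ((m : ℝ) + 4) / 2 + 1 with hC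
  have hC0 : 0 ≤ C := by positivity
  have hcal := h.continuous_al l
  have hcQ := continuous_Qf m
  have hint1 : IntegrableOn (fun x => Tf m (al K l (bary x)) (Qf m (bary x)))
      (unitSimplex (Fin m)) := (integrable_PhiF h l).integral_prod_right
  -- pointwise bound
  have hpt : ∀ x ∈ unitSimplex (Fin m),
      al K l (bary x) * Qf m (bary x) - (C * ε) * al K l (bary x) ≤
        Tf m (al K l (bary x)) (Qf m (bary x)) := by
    intro x hx
    have hS := bary_mem_Sg hx
    have ha0 := h.al_nonneg l hS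
    have ha1 := h.al_le l hS
    have hb := Tf_lb m ha0 (Qf_le hS)
    rw [← hC] at hb
    refine le_trans ?_ hb
    have : C * al K l (bary x) ^ 2 ≤ C * ε * al K l (bary x) := by
      have : al K l (bary x) ^ 2 ≤ ε * al K l (bary x) := by nlinarith
      calc C * al K l (bary x) ^ 2 ≤ C * (ε * al K l (bary x)) :=
            mul_le_mul_of_nonneg_left this hC0
        _ = _ := by ring
    linarith
  have hA : Continuous (fun θ => al K l θ * Qf m θ) := hcal.mul hcQ
  have hB : Continuous (fun θ => (C * ε) * al K l θ) := continuous_const.mul hcal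
  have hlb : Bm m (fun θ => al K l θ * Qf m θ) - (C * ε) * Bm m (al K l) ≤
      ∫ x in unitSimplex (Fin m), Tf m (al K l (bary x)) (Qf m (bary x)) := by
    have e : Bm m (fun θ => al K l θ * Qf m θ) - (C * ε) * Bm m (al K l) =
        ∫ x in unitSimplex (Fin m), (al K l (bary x) * Qf m (bary x) -
          (C * ε) * al K l (bary x)) := by
      rw [integral_sub (integrableOn_bary hA) (integrableOn_bary hB), integral_const_mul]
      rfl
    rw [e]
    refine setIntegral_mono_on (((integrableOn_bary hA).sub (integrableOn_bary hB))) hint1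
      isCompact_unitSimplex.isClosed.measurableSet hpt
  refine le_trans ?_ hlb
  obtain ⟨_, hK⟩ := KL m (al K l) hcal (h.convexOn_al l)
  rw [h.al_cen l, zero_mul, sub_zero] at hK
  have hBa : 0 ≤ Bm m (al K l) :=
    setIntegral_nonneg isCompact_unitSimplex.isClosed.measurableSet
      (fun x hx => h.al_nonneg l (bary_mem_Sg hx))
  have hc := const_le m hε
  rw [← hC] at hc
  have := mul_le_mul_of_nonneg_right hc hBa
  linarith

/-- **The core inequality.** -/
theorem core_ineq (h : Good K ε) (hε : ε ≤ 1 / (2 * ((m : ℝ) + 1) ^ 4)) :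
    0 ≤ Bm (m + 1) (Hf K) := by
  have hmeas : Measurable (Hf K) := by
    unfold Hf
    refine Measurable.ite ?_ measurable_const (by fun_prop)
    have hct : Measurable (fun σ : Fin (m + 2) → ℝ => (Fin.tail σ : Fin (m + 1) → ℝ)) := by
      refine measurable_pi_iff.2 (fun i => ?_)
      exact measurable_pi_apply i.succ
    exact hct h.closed.measurableSet
  have hc : Continuous (fun σ : Fin (m + 2) → ℝ => ((m : ℝ) + 2) * ∑ j, σ j ^ 2 - 2) := by fun_prop
  obtain ⟨M, hM⟩ := exists_bound_Sg hc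
  have hM0 : ∀ σ ∈ Sg (m + 2), |Hf K σ| ≤ M := by
    intro σ hσ
    have h0 : 0 ≤ M := (abs_nonneg _).trans (hM σ hσ)
    unfold Hf
    split_ifs
    · simpa using h0
    · exact hM σ hσ
  rw [recursion hmeas hM0]
  refine mul_nonneg (by positivity) (Finset.sum_nonneg (fun l _ => piece_nonneg h hε l))

end fubini

end Vale.Agent.Lib.P254L
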