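import Vale.Agent.Lib.P254L.Core

/-!
From the core inequality to the isotropic constant, by concavity of the logarithm of the
determinant.
-/

open MeasureTheory Set Function Filter Topology Matrix
open Vale.Agent.Lib.P254

namespace Vale.Agent.Lib.P254L

open scoped MatrixOrder Matrix.Norms.L2Operator in
theorem exists_factor {ι : Type*} [Fintype ι] [DecidableEq ι] {A : Matrix ι ι ℝ}
    (hA : A.PosSemidef) : ∃ C : Matrix ι ι ℝ, A = Cᴴ * C := by
  obtain ⟨B, rfl⟩ := CStarAlgebra.nonneg_iff_eq_star_mul_self.mp hA.nonneg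
  exact ⟨B, rfl⟩

/-- `det B * det A ≤ exp (tr (B * A) - n)` for positive semidefinite matrices. -/
theorem det_mul_det_le_exp_trace {ι : Type*} [Fintype ι] [DecidableEq ι] {A B : Matrix ι ι ℝ}
    (hA : A.PosSemidef) (hB : B.PosSemidef) :
    B.det * A.det ≤ Real.exp ((B * A).trace - Fintype.card ι) := by
  obtain ⟨C, rfl⟩ := exists_factor hB
  have hM : (C * A * Cᴴ).PosSemidef := hA.mul_mul_conjTranspose_same C
  have hdet : (Cᴴ * C).det * A.det = (C * A * Cᴴ).det := by
    simp only [det_mul]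
    ring
  have htr : (Cᴴ * C * A).trace = (C * A * Cᴴ).trace := by
    rw [Matrix.mul_assoc, Matrix.trace_mul_comm, Matrix.mul_assoc]
  rw [hdet, htr, hM.1.det_eq_prod_eigenvalues, hM.1.trace_eq_sum_eigenvalues]
  simp only [RCLike.ofReal_real_eq_id, id]
  have hcard : (Fintype.card ι : ℝ) = ∑ _i : ι, (1 : ℝ) := by simp
  rw [hcard, ← Finset.sum_sub_distrib, Real.exp_sum]
  refine Finset.prod_le_prod (fun i _ => hM.eigenvalues_nonneg i) (fun i _ => ?_)
  have := Real.add_one_le_exp (hM.1.eigenvalues i - 1)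
  linarith

variable {ι : Type*} [Fintype ι]

/-- the variance is the smallest second moment -/
theorem var_le {K : Set (ι → ℝ)} (hK : IsCompact K) (hv : 0 < vol K) (θ : ι → ℝ) (t : ℝ) :
    θ ⬝ᵥ (covMatrix K *ᵥ θ) * vol K ≤ ∫ x in K, (θ ⬝ᵥ x - t) ^ 2 := by
  have hc : Continuous (fun x : ι → ℝ => θ ⬝ᵥ x) := by
    simp only [dotProduct]
    fun_prop
  have h1 : ∀ x : ι → ℝ, (θ ⬝ᵥ x - t) ^ 2 = (θ ⬝ᵥ x) ^ 2 - (2 * t) * (θ ⬝ᵥ x) + t ^ 2 := by
    intro x
    ring
  simp_rw [h1]
  have i1 : IntegrableOn (fun x : ι → ℝ => (θ ⬝ᵥ x) ^ 2) K :=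
    integrableOn_cont hK (hc.pow 2)
  have i2 : IntegrableOn (fun x : ι → ℝ => (2 * t) * (θ ⬝ᵥ x)) K :=
    integrableOn_cont hK (continuous_const.mul hc)
  have i3 : IntegrableOn (fun x : ι → ℝ => (θ ⬝ᵥ x) ^ 2 - (2 * t) * (θ ⬝ᵥ x)) K :=
    integrableOn_cont hK ((hc.pow 2).sub (continuous_const.mul hc))
  rw [integral_add i3 (integrableOn_const hK.measure_lt_top.ne), integral_sub i1 i2,
    integral_const_mul]
  have h3 : ∫ x in K, θ ⬝ᵥ x = (θ ⬝ᵥ centroid K) * vol K := by
    rw [dot_centroid hK]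
    field_simp
  have h4 := dot_cov_dot hK hv.ne' θ
  rw [h3, h4]
  simp only [setIntegral_const, smul_eq_mul]
  have : (volume.real K) = vol K := rfl
  rw [this]
  have h5 : ((∫ x in K, (θ ⬝ᵥ x) ^ 2) / vol K - (θ ⬝ᵥ centroid K) ^ 2) * vol K =
      (∫ x in K, (θ ⬝ᵥ x) ^ 2) - (θ ⬝ᵥ centroid K) ^ 2 * vol K := by
    field_simp
  rw [h5]
  nlinarith [mul_nonneg hv.le (sq_nonneg (θ ⬝ᵥ centroid K - t))]

/-- the trace in terms of the coordinate directions -/
theorem trace_covInv [DecidableEq ι] (S : Matrix ι ι ℝ) :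
    (covInv ι * S).trace = ((Fintype.card ι : ℝ) + 1) * ((Fintype.card ι : ℝ) + 2) *
      (∑ i, (Pi.single i 1 : ι → ℝ) ⬝ᵥ (S *ᵥ (Pi.single i 1)) +
        (fun _ => (1 : ℝ)) ⬝ᵥ (S *ᵥ (fun _ => (1 : ℝ)))) := by
  simp only [Matrix.trace, Matrix.diag_apply, Matrix.mul_apply, covInv, Matrix.of_apply]
  simp only [single_one_dotProduct, mulVec_single_one, col_apply]
  have e : (fun _ => (1 : ℝ)) ⬝ᵥ (S *ᵥ (fun _ => (1 : ℝ))) = ∑ i, ∑ j, S j i := by
    simp only [dotProduct, mulVec, mul_one, one_mul]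
    rw [Finset.sum_comm]
  rw [e, ← Finset.sum_add_distrib, Finset.mul_sum]
  refine Finset.sum_congr rfl (fun i _ => ?_)
  have e2 : ∀ j, ((Fintype.card ι : ℝ) + 1) * ((Fintype.card ι : ℝ) + 2) *
      ((if i = j then 1 else 0) + 1) * S j i =
      ((Fintype.card ι : ℝ) + 1) * ((Fintype.card ι : ℝ) + 2) *
        ((if i = j then S j i else 0) + S j i) := by
    intro j
    split_ifs <;> ring
  simp_rw [e2]
  rw [← Finset.mul_sum, Finset.sum_add_distrib]
  simp

/-- the second moment around `c` -/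
noncomputable def sfun (c : ι → ℝ) (x : ι → ℝ) : ℝ :=
  ∑ i, (x i - c i) ^ 2 + (∑ i, x i - ∑ i, c i) ^ 2

theorem continuous_sfun (c : ι → ℝ) : Continuous (sfun c) := by
  unfold sfun
  fun_prop

theorem dot_single [DecidableEq ι] (i : ι) (x : ι → ℝ) : (Pi.single i 1 : ι → ℝ) ⬝ᵥ x = x i := by simp

theorem dot_ones (x : ι → ℝ) : (fun _ => (1 : ℝ)) ⬝ᵥ x = ∑ i, x i := by
  simp [dotProduct]

theorem integral_sfun [DecidableEq ι] {K : Set (ι → ℝ)} (hK : IsCompact K) (c : ι → ℝ) :
    ∫ x in K, sfun c x =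
      ∑ i, (∫ x in K, ((Pi.single i 1 : ι → ℝ) ⬝ᵥ x - c i) ^ 2) +
        ∫ x in K, ((fun _ => (1 : ℝ)) ⬝ᵥ x - ∑ i, c i) ^ 2 := by
  simp only [dot_single, dot_ones, sfun]
  rw [integral_add (integrableOn_cont hK (by fun_prop)) (integrableOn_cont hK (by fun_prop)),
    integral_finsetSum _ (fun i _ => integrableOn_cont hK (by fun_prop))]

/-- lower bound for the second moment -/
theorem trace_mul_vol_le [DecidableEq ι] {K : Set (ι → ℝ)} (hK : IsCompact K) (hv : 0 < vol K) (c : ι → ℝ) :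
    (covInv ι * covMatrix K).trace * vol K ≤
      ((Fintype.card ι : ℝ) + 1) * ((Fintype.card ι : ℝ) + 2) * ∫ x in K, sfun c x := by
  rw [trace_covInv, integral_sfun hK, mul_assoc]
  refine mul_le_mul_of_nonneg_left ?_ (by positivity)
  rw [add_mul, Finset.sum_mul]
  refine add_le_add (Finset.sum_le_sum (fun i _ => var_le hK hv _ _)) (var_le hK hv _ _)

/-- the second moment of the simplex -/
theorem card_mul_vol_simplex [DecidableEq ι] [Nonempty ι] :
    (Fintype.card ι : ℝ) * vol (unitSimplex ι) =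
      ((Fintype.card ι : ℝ) + 1) * ((Fintype.card ι : ℝ) + 2) *
        ∫ x in unitSimplex ι, sfun (fun _ => 1 / ((Fintype.card ι : ℝ) + 1)) x := by
  have hK := isCompact_unitSimplex (ι := ι)
  have hv := vol_unitSimplex_pos (ι := ι)
  have htr : (covInv ι * covMatrix (unitSimplex ι)).trace = (Fintype.card ι : ℝ) := by
    rw [Matrix.trace_mul_comm, covInv_spec]
    simp
  have h1 := trace_covInv (covMatrix (unitSimplex ι))
  rw [htr] at h1
  rw [integral_sfun hK]
  conv_lhs => rw [h1]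
  rw [mul_assoc]
  congr 1
  rw [add_mul, Finset.sum_mul]
  congr 1
  · refine Finset.sum_congr rfl (fun i _ => ?_)
    rw [dot_cov_dot' hK hv.ne']
    rw [div_mul_cancel₀ _ hv.ne']
    congr 1
    funext x
    rw [dot_single, dot_single, centroid_unitSimplex]
  · rw [dot_cov_dot' hK hv.ne', div_mul_cancel₀ _ hv.ne']
    congr 1
    funext x
    rw [dot_ones (centroid _)]
    simp_rw [centroid_unitSimplex]

section simplex

variable {m : ℕ}

/-- the centre of the simplex as used by the moment formulas -/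
noncomputable def c0 (m : ℕ) : Fin (m + 1) → ℝ :=
  fun _ => 1 / ((Fintype.card (Fin (m + 1)) : ℝ) + 1)

theorem pf_eq (x : Fin (m + 1) → ℝ) :
    ((m : ℝ) + 2) * ∑ j, bary x j ^ 2 - 2 = ((m : ℝ) + 2) * sfun (c0 m) x - 1 := by
  have hp : ((m : ℝ) + 2) ≠ 0 := by positivity
  set β : ℝ := ((m : ℝ) + 2)⁻¹ with hβ
  have hβ' : ((m : ℝ) + 2) * β = 1 := mul_inv_cancel₀ hp
  have hc : ∀ i, c0 m i = β := by
    intro i
    simp only [c0, Fintype.card_fin, hβ, one_div]
    push_cast
    ring_nf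
  set S : ℝ := ∑ i, x i with hS
  set T : ℝ := ∑ i, x i ^ 2 with hT
  have e1 : ∑ j, bary x j ^ 2 = (1 - S) ^ 2 + T := by
    rw [Fin.sum_univ_succ]
    simp [bary, hS, hT]
  have e2 : sfun (c0 m) x = T - 2 * β * S + ((m : ℝ) + 1) * β ^ 2 +
      (S - ((m : ℝ) + 1) * β) ^ 2 := by
    unfold sfun
    simp_rw [hc]
    have h1 : ∀ i, (x i - β) ^ 2 = x i ^ 2 - 2 * β * x i + β ^ 2 := by
      intro i
      ring
    simp_rw [h1]
    rw [Finset.sum_add_distrib, Finset.sum_sub_distrib, ← Finset.mul_sum]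
    simp only [Finset.sum_const, Finset.card_univ, Fintype.card_fin, nsmul_eq_mul]
    push_cast
    ring
  rw [e1, e2]
  have h3 : ((m : ℝ) + 1) * β = 1 - β := by linarith
  have h4 : (S - ((m : ℝ) + 1) * β) ^ 2 = (S - 1 + β) ^ 2 := by
    rw [h3]
    ring
  rw [h4]
  have h5 : ((m : ℝ) + 2) * (T - 2 * β * S + ((m : ℝ) + 1) * β ^ 2 + (S - 1 + β) ^ 2) =
      ((m : ℝ) + 2) * T - 2 * (((m : ℝ) + 2) * β) * S + (((m : ℝ) + 2) * β) * (((m : ℝ) + 1) * β) +
        ((m : ℝ) + 2) * (S - 1) ^ 2 + 2 * (((m : ℝ) + 2) * β) * (S - 1) +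
        (((m : ℝ) + 2) * β) * β := by
    ring
  rw [h5, hβ', h3]
  ring

theorem Hf_bary (K : Set (Fin (m + 1) → ℝ)) (x : Fin (m + 1) → ℝ) :
    Hf K (bary x) = ((m : ℝ) + 2) * sfun (c0 m) x - 1 -
      K.indicator (fun x => ((m : ℝ) + 2) * sfun (c0 m) x - 1) x := by
  unfold Hf
  rw [tail_bary, pf_eq]
  by_cases h : x ∈ K
  · rw [if_pos h, indicator_of_mem h]
    ring
  · rw [if_neg h, indicator_of_notMem h]
    ring

theorem Bm_Hf_eq {K : Set (Fin (m + 1) → ℝ)} (hc : IsClosed K)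
    (hsub : K ⊆ unitSimplex (Fin (m + 1))) :
    Bm (m + 1) (Hf K) = ((m : ℝ) + 2) * ((∫ x in unitSimplex (Fin (m + 1)), sfun (c0 m) x) -
        ∫ x in K, sfun (c0 m) x) - (vol (unitSimplex (Fin (m + 1))) - vol K) := by
  have hKc : IsCompact K := isCompact_unitSimplex.of_isClosed_subset hc hsub
  have hU := isCompact_unitSimplex (ι := Fin (m + 1))
  have hpf : Continuous (fun x : Fin (m + 1) → ℝ => ((m : ℝ) + 2) * sfun (c0 m) x - 1) :=
    (continuous_const.mul (continuous_sfun _)).sub continuous_const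
  unfold Bm
  simp_rw [Hf_bary]
  have hi1 : IntegrableOn (fun x : Fin (m + 1) → ℝ => ((m : ℝ) + 2) * sfun (c0 m) x - 1)
      (unitSimplex (Fin (m + 1))) := integrableOn_cont hU hpf
  have hi2 : IntegrableOn (K.indicator (fun x => ((m : ℝ) + 2) * sfun (c0 m) x - 1))
      (unitSimplex (Fin (m + 1))) :=
    hi1.indicator hc.measurableSet
  rw [integral_sub hi1 hi2, setIntegral_indicator hc.measurableSet, inter_eq_right.2 hsub]
  have hsf : ∀ L : Set (Fin (m + 1) → ℝ), IsCompact L →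
      ∫ x in L, (((m : ℝ) + 2) * sfun (c0 m) x - 1) =
        ((m : ℝ) + 2) * (∫ x in L, sfun (c0 m) x) - vol L := by
    intro L hL
    have hi3 : IntegrableOn (fun x : Fin (m + 1) → ℝ => ((m : ℝ) + 2) * sfun (c0 m) x) L :=
      integrableOn_cont hL (continuous_const.mul (continuous_sfun _))
    have hi4 : IntegrableOn (fun _ : Fin (m + 1) → ℝ => (1 : ℝ)) L :=
      integrableOn_const hL.measure_lt_top.ne
    rw [integral_sub hi3 hi4, integral_const_mul, vol_eq_integral]
  rw [hsf _ hU, hsf _ hKc]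
  ring

theorem trace_bound {K : Set (Fin (m + 1) → ℝ)} (hc : IsClosed K)
    (hsub : K ⊆ unitSimplex (Fin (m + 1))) (hv : 0 < vol K)
    (hcore : 0 ≤ Bm (m + 1) (Hf K)) :
    (covInv (Fin (m + 1)) * covMatrix K).trace * vol K ≤
      ((m : ℝ) + 1) * vol K - 2 * (vol (unitSimplex (Fin (m + 1))) - vol K) := by
  have hKc : IsCompact K := isCompact_unitSimplex.of_isClosed_subset hc hsub
  rw [Bm_Hf_eq hc hsub] at hcore
  have h1 := trace_mul_vol_le hKc hv (c0 m)
  have h2 := card_mul_vol_simplex (ι := Fin (m + 1))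
  simp only [Fintype.card_fin] at h1 h2
  push_cast at h1 h2
  have e : (fun _ : Fin (m + 1) => 1 / ((m : ℝ) + 1 + 1)) = c0 m := by
    funext i
    simp [c0]
  rw [e] at h2
  have e1 : ((m : ℝ) + 1 + 1) = (m : ℝ) + 2 := by ring
  have e2 : ((m : ℝ) + 1 + 2) = (m : ℝ) + 3 := by ring
  rw [e1, e2] at h1 h2
  set IU := ∫ x in unitSimplex (Fin (m + 1)), sfun (c0 m) x
  set IK := ∫ x in K, sfun (c0 m) x
  set V := vol (unitSimplex (Fin (m + 1)))
  set W := vol K
  have h3 : 0 ≤ ((m : ℝ) + 3) * (((m : ℝ) + 2) * (IU - IK) - (V - W)) :=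
    mul_nonneg (by positivity) hcore
  nlinarith

theorem vol_lt_of_ne {K : Set (Fin (m + 1) → ℝ)} (hc : IsClosed K)
    (hsub : K ⊆ unitSimplex (Fin (m + 1))) (hne : K ≠ unitSimplex (Fin (m + 1))) :
    vol K < vol (unitSimplex (Fin (m + 1))) := by
  have hU := isCompact_unitSimplex (ι := Fin (m + 1))
  obtain ⟨x, hxU, hxK⟩ : ∃ x ∈ unitSimplex (Fin (m + 1)), x ∉ K := by
    by_contra hcon
    push Not at hcon
    exact hne (Subset.antisymm hsub hcon)
  have hcl : x ∈ closure (interior (unitSimplex (Fin (m + 1)))) := by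
    rw [convex_unitSimplex.closure_interior_eq_closure_of_nonempty_interior
      interior_unitSimplex_nonempty]
    exact subset_closure hxU
  have hopen : IsOpen (Kᶜ : Set (Fin (m + 1) → ℝ)) := hc.isOpen_compl
  obtain ⟨y, hy1, hy2⟩ := mem_closure_iff.1 hcl _ hopen hxK
  set O : Set (Fin (m + 1) → ℝ) := Kᶜ ∩ interior (unitSimplex (Fin (m + 1))) with hO
  have hOo : IsOpen O := hopen.inter isOpen_interior
  have hOpos : 0 < volume O := hOo.measure_pos _ ⟨y, hy1, hy2⟩
  have hdisj : Disjoint K O := by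
    rw [Set.disjoint_left]
    intro z hz hz'
    exact hz'.1 hz
  have hKfin : volume K < ⊤ := (hU.of_isClosed_subset hc hsub).measure_lt_top
  have h1 : volume K + volume O ≤ volume (unitSimplex (Fin (m + 1))) := by
    rw [← measure_union hdisj hOo.measurableSet]
    refine measure_mono (union_subset hsub ?_)
    exact fun z hz => interior_subset hz.2
  have h2 : volume K < volume (unitSimplex (Fin (m + 1))) :=
    lt_of_lt_of_le (ENNReal.lt_add_right hKfin.ne hOpos.ne') h1
  exact (ENNReal.toReal_lt_toReal hKfin.ne hU.measure_lt_top.ne).2 h2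

/-- **From the excess inequality to the isotropic constant.** -/
theorem isoPower_core {K : Set (Fin (m + 1) → ℝ)} (hc : IsClosed K)
    (hsub : K ⊆ unitSimplex (Fin (m + 1))) (hi : (interior K).Nonempty)
    (hcore : 0 ≤ Bm (m + 1) (Hf K)) :
    isoPower K ≤ isoPower (unitSimplex (Fin (m + 1))) ∧
      (K ≠ unitSimplex (Fin (m + 1)) → isoPower K < isoPower (unitSimplex (Fin (m + 1)))) := by
  have hKc : IsCompact K := isCompact_unitSimplex.of_isClosed_subset hc hsub
  have hU := isCompact_unitSimplex (ι := Fin (m + 1))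
  have hW : 0 < vol K := vol_pos hKc hi
  have hV : 0 < vol (unitSimplex (Fin (m + 1))) := vol_unitSimplex_pos
  have hmono : vol K ≤ vol (unitSimplex (Fin (m + 1))) :=
    ENNReal.toReal_mono hU.measure_lt_top.ne (measure_mono hsub)
  have hPK := covMatrix_posDef hKc hi
  have hPU := covMatrix_posDef hU interior_unitSimplex_nonempty
  have hPI : (covInv (Fin (m + 1))).PosDef := by
    rw [← covInv_eq]
    exact hPU.inv
  have h1 := det_mul_det_le_exp_trace hPK.posSemidef hPI.posSemidef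
  have h2 : (covMatrix (unitSimplex (Fin (m + 1)))).det * (covInv (Fin (m + 1))).det = 1 := by
    rw [← det_mul, covInv_spec, det_one]
  have hdU : 0 < (covMatrix (unitSimplex (Fin (m + 1)))).det := hPU.det_pos
  have htr := trace_bound hc hsub hW hcore
  set V := vol (unitSimplex (Fin (m + 1))) with hVdef
  set W := vol K with hWdef
  set t : ℝ := (V - W) / W with ht
  have ht0 : 0 ≤ t := div_nonneg (by linarith) hW.le
  have hVt : V = W * (1 + t) := by
    rw [ht]
    field_simp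
    ring
  have htrace : (covInv (Fin (m + 1)) * covMatrix K).trace -
      (Fintype.card (Fin (m + 1)) : ℝ) ≤ -(2 * t) := by
    simp only [Fintype.card_fin]
    push_cast
    have : (covInv (Fin (m + 1)) * covMatrix K).trace ≤ ((m : ℝ) + 1) - 2 * t := by
      rw [ht]
      have e : ((m : ℝ) + 1) - 2 * ((V - W) / W) = (((m : ℝ) + 1) * W - 2 * (V - W)) / W := by
        field_simp
      rw [e, le_div_iff₀ hW]
      exact htr
    linarith
  have h3 : (covMatrix K).det ≤
      (covMatrix (unitSimplex (Fin (m + 1)))).det * Real.exp (-(2 * t)) := by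
    have h4 : (covInv (Fin (m + 1))).det * (covMatrix K).det ≤ Real.exp (-(2 * t)) :=
      h1.trans (Real.exp_le_exp.2 htrace)
    have h5 := mul_le_mul_of_nonneg_left h4 hdU.le
    rw [← mul_assoc, h2, one_mul] at h5
    exact h5
  have h6 : isoPower K ≤ (covMatrix (unitSimplex (Fin (m + 1)))).det *
      Real.exp (-(2 * t)) / W ^ 2 := by
    unfold isoPower
    exact div_le_div_of_nonneg_right h3 (by positivity)
  have h7 : isoPower (unitSimplex (Fin (m + 1))) =
      (covMatrix (unitSimplex (Fin (m + 1)))).det / (W * (1 + t)) ^ 2 := by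
    unfold isoPower
    rw [← hVt]
  have hexp : Real.exp (-(2 * t)) = (Real.exp (-t)) ^ 2 := by
    rw [← Real.exp_nat_mul]
    congr 1
    push_cast
    ring
  have hA : 0 < (covMatrix (unitSimplex (Fin (m + 1)))).det / W ^ 2 := by positivity
  have h8 : isoPower (unitSimplex (Fin (m + 1))) =
      (covMatrix (unitSimplex (Fin (m + 1)))).det / W ^ 2 * (((1 + t) ^ 2)⁻¹) := by
    rw [h7]
    have : (1 + t) ≠ 0 := by positivity
    field_simp
  have h9 : (covMatrix (unitSimplex (Fin (m + 1)))).det * Real.exp (-(2 * t)) / W ^ 2 =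
      (covMatrix (unitSimplex (Fin (m + 1)))).det / W ^ 2 * Real.exp (-(2 * t)) := by
    ring
  rw [h9] at h6
  have hpos1 : 0 < 1 + t := by positivity
  have hkey : ∀ s : ℝ, 1 + s ≤ Real.exp s := fun s => by
    have := Real.add_one_le_exp s
    linarith
  have h10 : Real.exp (-(2 * t)) ≤ ((1 + t) ^ 2)⁻¹ := by
    rw [hexp, Real.exp_neg, inv_pow]
    refine inv_anti₀ (by positivity) ?_
    exact pow_le_pow_left₀ hpos1.le (hkey t) 2
  constructor
  · rw [h8]
    exact h6.trans (mul_le_mul_of_nonneg_left h10 hA.le)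
  · intro hne
    have hlt : W < V := vol_lt_of_ne hc hsub hne
    have htpos : 0 < t := div_pos (by linarith) hW
    have h11 : Real.exp (-(2 * t)) < ((1 + t) ^ 2)⁻¹ := by
      rw [hexp, Real.exp_neg, inv_pow]
      refine inv_strictAnti₀ (by positivity) ?_
      have : 1 + t < Real.exp t := by
        have := Real.add_one_lt_exp htpos.ne'
        linarith
      exact pow_lt_pow_left₀ this hpos1.le (by norm_num)
    rw [h8]
    exact h6.trans_lt (mul_lt_mul_of_pos_left h11 hA)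

end simplex

end Vale.Agent.Lib.P254L
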