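import Vale.Agent.Lib.P254L.Cone

/-!
The Jensen-gap inequality on the simplex.
-/

open MeasureTheory Set Function
open Vale.Agent.Lib.P254

namespace Vale.Agent.Lib.P254L

theorem continuous_bary {n : ℕ} : Continuous (bary (n := n)) := by
  unfold bary
  refine continuous_pi (fun j => ?_)
  refine Fin.cases ?_ (fun i => ?_) j
  · simp only [Fin.cons_zero]
    fun_prop
  · simp only [Fin.cons_succ]
    fun_prop

theorem integrableOn_bary {n : ℕ} {g : (Fin (n + 1) → ℝ) → ℝ} (hg : Continuous g) :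
    IntegrableOn (fun x => g (bary x)) (unitSimplex (Fin n)) :=
  (hg.comp continuous_bary).continuousOn.integrableOn_compact isCompact_unitSimplex

theorem Bm_add {n : ℕ} {g h : (Fin (n + 1) → ℝ) → ℝ} (hg : Continuous g) (hh : Continuous h) :
    Bm n (fun θ => g θ + h θ) = Bm n g + Bm n h :=
  integral_add (integrableOn_bary hg) (integrableOn_bary hh)

theorem Bm_const_mul {n : ℕ} (c : ℝ) (g : (Fin (n + 1) → ℝ) → ℝ) :
    Bm n (fun θ => c * g θ) = c * Bm n g :=
  integral_const_mul _ _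

theorem Bm_mono {n : ℕ} {g h : (Fin (n + 1) → ℝ) → ℝ} (hg : Continuous g) (hh : Continuous h)
    (hle : ∀ θ ∈ Sg (n + 1), g θ ≤ h θ) : Bm n g ≤ Bm n h :=
  setIntegral_mono_on (integrableOn_bary hg) (integrableOn_bary hh)
    isCompact_unitSimplex.isClosed.measurableSet (fun _ hx => hle _ (bary_mem_Sg hx))

theorem Bm_one_nonneg (n : ℕ) : 0 ≤ Bm n (fun _ => 1) :=
  setIntegral_nonneg isCompact_unitSimplex.isClosed.measurableSet (fun _ _ => zero_le_one)

theorem Bm_const (n : ℕ) (c : ℝ) : Bm n (fun _ => c) = c * Bm n (fun _ => 1) := by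
  have := Bm_const_mul (n := n) c (fun _ => 1)
  simpa using this

theorem continuous_Bm_param {n : ℕ} {F : ℝ → (Fin (n + 1) → ℝ) → ℝ}
    (hF : Continuous (uncurry F)) : Continuous (fun r => Bm n (F r)) := by
  have h1 : Continuous (uncurry fun (r : ℝ) (x : Fin n → ℝ) => F r (bary x)) := by
    have : Continuous (fun p : ℝ × (Fin n → ℝ) => (p.1, bary p.2)) :=
      continuous_fst.prodMk (continuous_bary.comp continuous_snd)
    exact hF.comp this
  exact continuous_parametric_integral_of_continuous h1 isCompact_unitSimplex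

/-- the recursion for the total mass -/
theorem Bm_one_succ (n : ℕ) : Bm (n + 1) (fun _ => 1) = Bm n (fun _ => 1) / ((n : ℝ) + 1) := by
  have h := recursion (n := n) (f := fun _ => (1 : ℝ)) measurable_const (M := 1)
    (fun _ _ => by simp)
  rw [h]
  simp only [Finset.sum_const, Finset.card_univ, Fintype.card_fin, nsmul_eq_mul]
  rw [integral_mul_const, ← intervalIntegral.integral_of_le zero_le_one, integral_pow]
  have h2 : ((n : ℝ) + 2) ≠ 0 := by positivity
  have h1 : ((n : ℝ) + 1) ≠ 0 := by positivity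
  push_cast
  simp
  field_simp

/-- the quadratic kernel -/
noncomputable def Qf (n : ℕ) (θ : Fin (n + 1) → ℝ) : ℝ := ((n : ℝ) + 2) * ∑ j, θ j ^ 2 - 2

theorem continuous_Qf (n : ℕ) : Continuous (Qf n) := by
  unfold Qf
  fun_prop

theorem sum_sq_ray {n : ℕ} (l : Fin (n + 2)) (r : ℝ) {θ : Fin (n + 1) → ℝ} (hθ : ∑ i, θ i = 1) :
    ∑ j, ray l r θ j ^ 2 = (1 - r ^ 2) / ((n : ℝ) + 2) + r ^ 2 * ∑ i, θ i ^ 2 := by
  have hN : ((n : ℝ) + 2) ≠ 0 := by positivity
  rw [Fin.sum_univ_succAbove _ l, ray_same]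
  simp_rw [ray_succAbove]
  have hexp : ∀ i, ((1 - r) * ((n : ℝ) + 2)⁻¹ + r * θ i) ^ 2 =
      ((1 - r) * ((n : ℝ) + 2)⁻¹) ^ 2 + (2 * r * ((1 - r) * ((n : ℝ) + 2)⁻¹)) * θ i +
        r ^ 2 * θ i ^ 2 := by
    intro i
    ring
  simp_rw [hexp]
  rw [Finset.sum_add_distrib, Finset.sum_add_distrib, Finset.sum_const, ← Finset.mul_sum,
    ← Finset.mul_sum, hθ, Finset.card_univ, Fintype.card_fin, nsmul_eq_mul]
  push_cast
  field_simp
  ring

theorem Qf_ray {n : ℕ} (l : Fin (n + 2)) (r : ℝ) {θ : Fin (n + 1) → ℝ} (hθ : ∑ i, θ i = 1) :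
    Qf (n + 1) (ray l r θ) = ((((n : ℝ) + 3) * r ^ 2 - ((n : ℝ) + 1)) / ((n : ℝ) + 2)) +
      (((n : ℝ) + 3) * r ^ 2 / ((n : ℝ) + 2)) * Qf n θ := by
  have hN : ((n : ℝ) + 2) ≠ 0 := by positivity
  simp only [Qf]
  rw [sum_sq_ray l r hθ]
  push_cast
  field_simp
  ring

/-- the one-dimensional inequality -/
theorem oneD (n : ℕ) {S : ℝ → ℝ} (hS : ConvexOn ℝ (Icc (0 : ℝ) 1) S) (h0 : S 0 = 0)
    (hc : ContinuousOn S (Icc (0 : ℝ) 1)) :
    0 ≤ ∫ r in Ioc (0 : ℝ) 1, r ^ n * (r ^ 2 - ((n : ℝ) + 2) / ((n : ℝ) + 4)) * S r := by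
  set r0 : ℝ := Real.sqrt (((n : ℝ) + 2) / ((n : ℝ) + 4)) with hr0
  have hq : (0 : ℝ) < ((n : ℝ) + 2) / ((n : ℝ) + 4) := by positivity
  have hq1 : ((n : ℝ) + 2) / ((n : ℝ) + 4) < 1 := by
    rw [div_lt_one (by positivity)]
    linarith
  have hr0sq : r0 ^ 2 = ((n : ℝ) + 2) / ((n : ℝ) + 4) := Real.sq_sqrt hq.le
  have hr0pos : 0 < r0 := Real.sqrt_pos.2 hq
  have hr01 : r0 < 1 := by
    rw [hr0, Real.sqrt_lt' one_pos]
    simpa using hq1
  set κ : ℝ := S r0 / r0 with hκ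
  -- the pointwise inequality
  have hpt : ∀ r ∈ Icc (0 : ℝ) 1, 0 ≤ (r ^ 2 - r0 ^ 2) * (S r - κ * r) := by
    intro r hr
    have hmem0 : (0 : ℝ) ∈ Icc (0 : ℝ) 1 := ⟨le_refl _, zero_le_one⟩
    have hmemr0 : r0 ∈ Icc (0 : ℝ) 1 := ⟨hr0pos.le, hr01.le⟩
    rcases le_total r r0 with hle | hle
    · -- `S r ≤ κ r`
      have ht0 : 0 ≤ r / r0 := div_nonneg hr.1 hr0pos.le
      have ht1 : r / r0 ≤ 1 := (div_le_one hr0pos).2 hle
      have hcv := hS.2 hmem0 hmemr0 (sub_nonneg.2 ht1) ht0 (by ring)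
      simp only [smul_eq_mul, mul_zero, zero_add, h0] at hcv
      have e1 : r / r0 * r0 = r := by field_simp
      rw [e1] at hcv
      have h1 : S r - κ * r ≤ 0 := by
        have : κ * r = r / r0 * S r0 := by
          rw [hκ]
          field_simp
        linarith
      have h2 : r ^ 2 - r0 ^ 2 ≤ 0 := by nlinarith [hr.1]
      exact mul_nonneg_of_nonpos_of_nonpos h2 h1
    · -- `S r ≥ κ r`
      have hrpos : 0 < r := lt_of_lt_of_le hr0pos hle
      have ht0 : 0 ≤ r0 / r := div_nonneg hr0pos.le hrpos.le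
      have ht1 : r0 / r ≤ 1 := (div_le_one hrpos).2 hle
      have hcv := hS.2 hmem0 hr (sub_nonneg.2 ht1) ht0 (by ring)
      simp only [smul_eq_mul, mul_zero, zero_add, h0] at hcv
      have e1 : r0 / r * r = r0 := by field_simp
      rw [e1] at hcv
      have h1 : 0 ≤ S r - κ * r := by
        have h3 : r0 / r * S r = r0 * (S r / r) := by ring
        rw [h3] at hcv
        have h4 : S r0 / r0 ≤ S r / r := by
          rw [div_le_iff₀ hr0pos]
          linarith
        have h5 : κ * r ≤ S r / r * r := mul_le_mul_of_nonneg_right h4 hrpos.le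
        have h6 : S r / r * r = S r := by field_simp
        linarith
      have h2 : 0 ≤ r ^ 2 - r0 ^ 2 := by nlinarith
      exact mul_nonneg h2 h1
  -- integrability
  have hi0 : IntegrableOn (fun r => r ^ n * (r ^ 2 - r0 ^ 2) * S r) (Ioc (0 : ℝ) 1) := by
    have : ContinuousOn (fun r => r ^ n * (r ^ 2 - r0 ^ 2) * S r) (Icc (0 : ℝ) 1) :=
      (by fun_prop : ContinuousOn (fun r : ℝ => r ^ n * (r ^ 2 - r0 ^ 2)) (Icc (0 : ℝ) 1)).mul hc
    exact (this.integrableOn_compact isCompact_Icc).mono_set Ioc_subset_Icc_self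
  have hi1 : IntegrableOn (fun r => r ^ n * (r ^ 2 - r0 ^ 2) * (κ * r)) (Ioc (0 : ℝ) 1) := by
    have : Continuous (fun r : ℝ => r ^ n * (r ^ 2 - r0 ^ 2) * (κ * r)) := by fun_prop
    exact (this.continuousOn.integrableOn_compact isCompact_Icc).mono_set Ioc_subset_Icc_self
  have hsplit : ∫ r in Ioc (0 : ℝ) 1, r ^ n * (r ^ 2 - r0 ^ 2) * S r =
      (∫ r in Ioc (0 : ℝ) 1, r ^ n * (r ^ 2 - r0 ^ 2) * (S r - κ * r)) +
        ∫ r in Ioc (0 : ℝ) 1, r ^ n * (r ^ 2 - r0 ^ 2) * (κ * r) := by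
    have hi2 : IntegrableOn (fun r => r ^ n * (r ^ 2 - r0 ^ 2) * (S r - κ * r)) (Ioc (0 : ℝ) 1) := by
      refine (hi0.sub hi1).congr (Filter.Eventually.of_forall (fun r => ?_))
      simp only [Pi.sub_apply]
      ring
    rw [← integral_add hi2 hi1]
    refine setIntegral_congr_fun measurableSet_Ioc (fun r _ => ?_)
    ring
  have hzero : ∫ r in Ioc (0 : ℝ) 1, r ^ n * (r ^ 2 - r0 ^ 2) * (κ * r) = 0 := by
    rw [← intervalIntegral.integral_of_le zero_le_one]
    have h2 : ∀ r : ℝ, r ^ n * (r ^ 2 - r0 ^ 2) * (κ * r) =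
        κ * r ^ (n + 3) - κ * r0 ^ 2 * r ^ (n + 1) := by
      intro r
      ring
    simp_rw [h2]
    rw [intervalIntegral.integral_sub (Continuous.intervalIntegrable (by fun_prop) _ _)
      (Continuous.intervalIntegrable (by fun_prop) _ _), intervalIntegral.integral_const_mul,
      intervalIntegral.integral_const_mul, integral_pow, integral_pow, hr0sq]
    have h3 : ((n : ℝ) + 2) ≠ 0 := by positivity
    have h4 : ((n : ℝ) + 4) ≠ 0 := by positivity
    push_cast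
    simp
    field_simp
    ring
  simp_rw [← hr0sq]
  rw [hsplit, hzero, add_zero]
  refine setIntegral_nonneg measurableSet_Ioc (fun r hr => ?_)
  have := hpt r (Ioc_subset_Icc_self hr)
  have h5 : 0 ≤ r ^ n := pow_nonneg hr.1.le n
  calc 0 ≤ r ^ n * ((r ^ 2 - r0 ^ 2) * (S r - κ * r)) := mul_nonneg h5 this
    _ = _ := by ring

end Vale.Agent.Lib.P254L
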