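import Vale.Agent.Lib.P254L.Jensen

/-!
The Jensen-gap inequality on the simplex: for a convex function `f` on barycentric coordinates,
the integral of `f` against the quadratic kernel controls the Jensen gap of `f`.
-/

open MeasureTheory Set Function
open Vale.Agent.Lib.P254

namespace Vale.Agent.Lib.P254L

theorem ins_affine {n : ℕ} (l : Fin (n + 1)) (a b : ℝ) (θ θ' : Fin n → ℝ) :
    ins l (a • θ + b • θ') = a • ins l θ + b • ins l θ' := by
  funext j
  refine Fin.succAboveCases l ?_ (fun i => ?_) j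
  · simp
  · simp

theorem ray_affine_θ {n : ℕ} (l : Fin (n + 2)) (r : ℝ) {a b : ℝ} (hab : a + b = 1)
    (θ θ' : Fin (n + 1) → ℝ) :
    ray l r (a • θ + b • θ') = a • ray l r θ + b • ray l r θ' := by
  unfold ray
  rw [ins_affine]
  funext j
  simp only [Pi.add_apply, Pi.smul_apply, Pi.sub_apply, smul_eq_mul]
  have : a = 1 - b := by linarith
  subst this
  ring

theorem ray_affine_r {n : ℕ} (l : Fin (n + 2)) (θ : Fin (n + 1) → ℝ) {a b : ℝ} (hab : a + b = 1)
    (r r' : ℝ) :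
    ray l (a * r + b * r') θ = a • ray l r θ + b • ray l r' θ := by
  unfold ray
  funext j
  simp only [Pi.add_apply, Pi.smul_apply, Pi.sub_apply, smul_eq_mul]
  have : a = 1 - b := by linarith
  subst this
  ring

theorem ray_zero {n : ℕ} (l : Fin (n + 2)) (θ : Fin (n + 1) → ℝ) : ray l 0 θ = cen (n + 1) := by
  simp [ray]

theorem ins_cen_apply {n : ℕ} (l j : Fin (n + 2)) :
    ins l (cen n) j = if l = j then 0 else ((n : ℝ) + 1)⁻¹ := by
  by_cases h : l = j
  · subst h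
    simp
  · rw [if_neg h]
    obtain ⟨i, rfl⟩ := Fin.exists_succAbove_eq (Ne.symm h)
    simp [cen]

theorem sum_ins_cen {n : ℕ} (j : Fin (n + 2)) : ∑ l, ins l (cen n) j = 1 := by
  simp_rw [ins_cen_apply]
  rw [Fin.sum_univ_succAbove _ j]
  have : ((n : ℝ) + 1) ≠ 0 := by positivity
  simp [Fin.succAbove_ne]
  field_simp

theorem avg_ray {n : ℕ} (r : ℝ) :
    ∑ l : Fin (n + 2), ((n : ℝ) + 2)⁻¹ • ray l r (cen n) = cen (n + 1) := by
  have h2 : ((n : ℝ) + 2) ≠ 0 := by positivity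
  funext j
  simp only [Finset.sum_apply, Pi.smul_apply, smul_eq_mul, ray, Pi.add_apply, Pi.sub_apply,
    cen_succ_apply]
  have e : ∀ l : Fin (n + 2), ((n : ℝ) + 2)⁻¹ * (((n : ℝ) + 2)⁻¹ +
      r * (ins l (cen n) j - ((n : ℝ) + 2)⁻¹)) =
      ((n : ℝ) + 2)⁻¹ * (((1 - r) * ((n : ℝ) + 2)⁻¹) + r * ins l (cen n) j) := by
    intro l
    ring
  simp_rw [e]
  rw [← Finset.mul_sum, Finset.sum_add_distrib, Finset.sum_const, ← Finset.mul_sum, sum_ins_cen,
    Finset.card_univ, Fintype.card_fin, nsmul_eq_mul]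
  push_cast
  field_simp
  ring

theorem convexOn_ray_θ {n : ℕ} {f : (Fin (n + 2) → ℝ) → ℝ} (hf : ConvexOn ℝ univ f)
    (l : Fin (n + 2)) (r : ℝ) : ConvexOn ℝ univ (fun θ => f (ray l r θ)) := by
  refine ⟨convex_univ, fun x _ y _ a b ha hb hab => ?_⟩
  simp only
  rw [ray_affine_θ l r hab]
  exact hf.2 (mem_univ _) (mem_univ _) ha hb hab

theorem continuous_ray_θ {n : ℕ} {f : (Fin (n + 2) → ℝ) → ℝ} (hc : Continuous f)
    (l : Fin (n + 2)) (r : ℝ) : Continuous (fun θ => f (ray l r θ)) :=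
  (hc.comp (continuous_ray l)).comp (Continuous.prodMk_right r)

theorem continuous_ray_r {n : ℕ} {f : (Fin (n + 2) → ℝ) → ℝ} (hc : Continuous f)
    (l : Fin (n + 2)) (θ : Fin (n + 1) → ℝ) : Continuous (fun r => f (ray l r θ)) :=
  (hc.comp (continuous_ray l)).comp (Continuous.prodMk_left θ)

theorem convexOn_G {n : ℕ} {f : (Fin (n + 2) → ℝ) → ℝ} (hc : Continuous f)
    (hf : ConvexOn ℝ univ f) (l : Fin (n + 2)) :
    ConvexOn ℝ univ (fun r => Bm n (fun θ => f (ray l r θ))) := by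
  refine ⟨convex_univ, fun x _ y _ a b ha hb hab => ?_⟩
  simp only [smul_eq_mul]
  have h1 := continuous_ray_θ hc l x
  have h2 := continuous_ray_θ hc l y
  calc Bm n (fun θ => f (ray l (a * x + b * y) θ))
      ≤ Bm n (fun θ => a * f (ray l x θ) + b * f (ray l y θ)) := by
        refine Bm_mono (continuous_ray_θ hc l _) ((continuous_const.mul h1).add
          (continuous_const.mul h2)) (fun θ _ => ?_)
        rw [ray_affine_r l θ hab]
        exact hf.2 (mem_univ _) (mem_univ _) ha hb hab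
    _ = a * Bm n (fun θ => f (ray l x θ)) + b * Bm n (fun θ => f (ray l y θ)) := by
        have hA : Continuous (fun θ => a * f (ray l x θ)) := continuous_const.mul h1
        have hB : Continuous (fun θ => b * f (ray l y θ)) := continuous_const.mul h2
        rw [Bm_add hA hB, Bm_const_mul, Bm_const_mul]

theorem continuous_G {n : ℕ} {f : (Fin (n + 2) → ℝ) → ℝ} (hc : Continuous f) (l : Fin (n + 2)) :
    Continuous (fun r => Bm n (fun θ => f (ray l r θ))) :=
  continuous_Bm_param (F := fun r θ => f (ray l r θ)) (hc.comp (continuous_ray l))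

theorem G_zero {n : ℕ} (f : (Fin (n + 2) → ℝ) → ℝ) (l : Fin (n + 2)) :
    Bm n (fun θ => f (ray l 0 θ)) = f (cen (n + 1)) * Bm n (fun _ => 1) := by
  simp_rw [ray_zero]
  exact Bm_const n _

theorem isCompact_Sg (k : ℕ) : IsCompact (Sg k) := by
  refine (isCompact_Icc (a := (0 : Fin k → ℝ)) (b := 1)).of_isClosed_subset ?_ ?_
  · have : Sg k = (⋂ j, {σ : Fin k → ℝ | 0 ≤ σ j}) ∩ {σ | ∑ j, σ j = 1} := by
      ext σ
      simp [Sg]
    rw [this]
    refine (isClosed_iInter (fun j => isClosed_le continuous_const (continuous_apply j))).inter ?_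
    exact isClosed_eq (by fun_prop) continuous_const
  · intro σ hσ
    refine ⟨hσ.1, fun j => ?_⟩
    have h := Finset.single_le_sum (f := σ) (fun i _ => hσ.1 i) (Finset.mem_univ j)
    rw [hσ.2] at h
    exact h

theorem exists_bound_Sg {k : ℕ} {f : (Fin k → ℝ) → ℝ} (hc : Continuous f) :
    ∃ M, ∀ σ ∈ Sg k, |f σ| ≤ M := by
  obtain ⟨M, hM⟩ := (isCompact_Sg k).exists_bound_of_continuousOn hc.continuousOn
  exact ⟨M, fun σ hσ => hM σ hσ⟩

/-- the radial integral -/
noncomputable def Jn (n : ℕ) (g : ℝ → ℝ) : ℝ := ∫ r in Ioc (0 : ℝ) 1, r ^ n * g r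

theorem integrable_Jn {n : ℕ} {g : ℝ → ℝ} (hg : Continuous g) :
    IntegrableOn (fun r => r ^ n * g r) (Ioc (0 : ℝ) 1) :=
  ((by fun_prop : Continuous fun r => r ^ n * g r).continuousOn.integrableOn_compact
    isCompact_Icc).mono_set Ioc_subset_Icc_self

theorem Jn_mono {n : ℕ} {g h : ℝ → ℝ} (hg : Continuous g) (hh : Continuous h)
    (hle : ∀ r ∈ Ioc (0 : ℝ) 1, g r ≤ h r) : Jn n g ≤ Jn n h :=
  setIntegral_mono_on (integrable_Jn hg) (integrable_Jn hh) measurableSet_Ioc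
    (fun r hr => mul_le_mul_of_nonneg_left (hle r hr) (pow_nonneg hr.1.le n))

theorem Jn_const (n : ℕ) (c : ℝ) : Jn n (fun _ => c) = c / ((n : ℝ) + 1) := by
  unfold Jn
  rw [integral_mul_const, ← intervalIntegral.integral_of_le zero_le_one, integral_pow]
  simp
  ring

theorem Jn_const_mul (n : ℕ) (c : ℝ) (g : ℝ → ℝ) : Jn n (fun r => c * g r) = c * Jn n g := by
  unfold Jn
  rw [← integral_const_mul]
  congr 1
  funext r
  ring

theorem Jn_sum {n : ℕ} {ι : Type*} (s : Finset ι) {g : ι → ℝ → ℝ} (hg : ∀ i, Continuous (g i)) :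
    Jn n (fun r => ∑ i ∈ s, g i r) = ∑ i ∈ s, Jn n (g i) := by
  unfold Jn
  rw [← integral_finsetSum _ (fun i _ => integrable_Jn (hg i))]
  congr 1
  funext r
  rw [Finset.mul_sum]

theorem Jn_add {n : ℕ} {g h : ℝ → ℝ} (hg : Continuous g) (hh : Continuous h) :
    Jn n (fun r => g r + h r) = Jn n g + Jn n h := by
  unfold Jn
  rw [← integral_add (integrable_Jn hg) (integrable_Jn hh)]
  congr 1
  funext r
  ring

theorem Jn_sub {n : ℕ} {g h : ℝ → ℝ} (hg : Continuous g) (hh : Continuous h) :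
    Jn n (fun r => g r - h r) = Jn n g - Jn n h := by
  unfold Jn
  rw [← integral_sub (integrable_Jn hg) (integrable_Jn hh)]
  congr 1
  funext r
  ring

theorem Jn_shift (n k : ℕ) (g : ℝ → ℝ) : Jn (n + k) g = Jn n (fun r => r ^ k * g r) := by
  unfold Jn
  congr 1
  funext r
  ring

/-- the radial weight -/
noncomputable def omg (n : ℕ) (r : ℝ) : ℝ := (((n : ℝ) + 3) * r ^ 2 - ((n : ℝ) + 1)) / ((n : ℝ) + 2)

theorem continuous_omg (n : ℕ) : Continuous (omg n) := by
  unfold omg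
  fun_prop

theorem oneD_omega (n : ℕ) {F : ℝ → ℝ} (hF : Continuous F) (hcv : ConvexOn ℝ univ F) :
    (2 / (((n : ℝ) + 2) * ((n : ℝ) + 4))) * (Jn n F - F 0 / ((n : ℝ) + 1)) ≤
      Jn n (fun r => omg n r * F r) := by
  have hS : ConvexOn ℝ (Icc (0 : ℝ) 1) (fun r => F r - F 0) := by
    refine ⟨convex_Icc _ _, fun x _ y _ a b ha hb hab => ?_⟩
    have := hcv.2 (mem_univ x) (mem_univ y) ha hb hab
    simp only [smul_eq_mul] at this ⊢
    have e : a * (F x - F 0) + b * (F y - F 0) = a * F x + b * F y - (a + b) * F 0 := by ring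
    rw [e, hab]
    linarith
  have h := oneD n hS (by simp) (by fun_prop)
  set κ : ℝ := ((n : ℝ) + 2) / ((n : ℝ) + 4) with hκ
  -- rewrite `h` by means of `Jn`
  have h1 : ∫ r in Ioc (0 : ℝ) 1, r ^ n * (r ^ 2 - κ) * (F r - F 0) =
      Jn n (fun r => r ^ 2 * F r) - κ * Jn n F - F 0 * (1 / ((n : ℝ) + 3) - κ / ((n : ℝ) + 1)) := by
    have e1 : Jn n (fun r => (r ^ 2 - κ) * (F r - F 0)) =
        ∫ r in Ioc (0 : ℝ) 1, r ^ n * (r ^ 2 - κ) * (F r - F 0) := by
      unfold Jn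
      congr 1
      funext r
      ring
    rw [← e1]
    have e2 : (fun r : ℝ => (r ^ 2 - κ) * (F r - F 0)) =
        fun r => r ^ 2 * F r - (κ * F r + F 0 * (r ^ 2 - κ)) := by
      funext r
      ring
    rw [e2, Jn_sub (by fun_prop) (by fun_prop), Jn_add (by fun_prop) (by fun_prop), Jn_const_mul,
      Jn_const_mul]
    have e3 : Jn n (fun r : ℝ => r ^ 2 - κ) = 1 / ((n : ℝ) + 3) - κ / ((n : ℝ) + 1) := by
      have e4 : (fun r : ℝ => r ^ 2 - κ) = fun r => r ^ 2 * 1 - κ := by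
        funext r
        ring
      rw [e4, Jn_sub (by fun_prop) (by fun_prop), ← Jn_shift, Jn_const, Jn_const]
      push_cast
      have : ((n : ℝ) + 2 + 1) = (n : ℝ) + 3 := by ring
      rw [this]
    rw [e3]
    ring
  rw [h1] at h
  have h2 : Jn n (fun r => omg n r * F r) =
      (((n : ℝ) + 3) * Jn n (fun r => r ^ 2 * F r) - ((n : ℝ) + 1) * Jn n F) / ((n : ℝ) + 2) := by
    have e : (fun r => omg n r * F r) = fun r => ((n : ℝ) + 2)⁻¹ *
        (((n : ℝ) + 3) * (r ^ 2 * F r) - ((n : ℝ) + 1) * F r) := by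
      funext r
      simp only [omg]
      ring
    rw [e, Jn_const_mul, Jn_sub (by fun_prop) (by fun_prop), Jn_const_mul, Jn_const_mul]
    ring
  rw [h2]
  have hn1 : (0 : ℝ) < (n : ℝ) + 1 := by positivity
  have hn2 : (0 : ℝ) < (n : ℝ) + 2 := by positivity
  have hn3 : (0 : ℝ) < (n : ℝ) + 3 := by positivity
  have hn4 : (0 : ℝ) < (n : ℝ) + 4 := by positivity
  have hkey : (((n : ℝ) + 3) * Jn n (fun r => r ^ 2 * F r) - ((n : ℝ) + 1) * Jn n F) / ((n : ℝ) + 2) -
      (2 / (((n : ℝ) + 2) * ((n : ℝ) + 4))) * (Jn n F - F 0 / ((n : ℝ) + 1)) =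
      (((n : ℝ) + 3) / ((n : ℝ) + 2)) * (Jn n (fun r => r ^ 2 * F r) - κ * Jn n F -
        F 0 * (1 / ((n : ℝ) + 3) - κ / ((n : ℝ) + 1))) := by
    rw [hκ]
    field_simp
    ring
  have hpos : 0 ≤ ((n : ℝ) + 3) / ((n : ℝ) + 2) := by positivity
  have := mul_nonneg hpos h
  linarith

theorem Bm_zero (g : (Fin 1 → ℝ) → ℝ) : Bm 0 g = g (cen 0) := by
  unfold Bm
  have h1 : unitSimplex (Fin 0) = univ := by
    ext x
    simp [unitSimplex]
  rw [h1, Measure.restrict_univ]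
  have h2 : ∀ x : Fin 0 → ℝ, bary x = cen 0 := by
    intro x
    funext j
    fin_cases j
    simp [bary, cen]
  simp_rw [h2]
  have h3 : (volume : Measure (Fin 0 → ℝ)).real univ = 1 := by
    simp [Measure.real, volume_pi]
  rw [integral_const, smul_eq_mul, h3, one_mul]

theorem Qf_cen_zero : Qf 0 (cen 0) = 0 := by
  simp [Qf, cen]

theorem step_J (n : ℕ) (ih : ∀ g : (Fin (n + 1) → ℝ) → ℝ, Continuous g → ConvexOn ℝ univ g →
      g (cen n) * Bm n (fun _ => 1) ≤ Bm n g)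
    {f : (Fin (n + 2) → ℝ) → ℝ} (hc : Continuous f) (hv : ConvexOn ℝ univ f) :
    f (cen (n + 1)) * Bm (n + 1) (fun _ => 1) ≤ Bm (n + 1) f := by
  obtain ⟨M, hM⟩ := exists_bound_Sg hc
  rw [recursion hc.measurable hM, Bm_one_succ]
  have hn2 : (0 : ℝ) < (n : ℝ) + 2 := by positivity
  have hnn := Bm_one_nonneg n
  -- pointwise lower bound
  have h1 : ∀ l : Fin (n + 2), Jn n (fun r => f (ray l r (cen n)) * Bm n (fun _ => 1)) ≤
      Jn n (fun r => Bm n (fun θ => f (ray l r θ))) := by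
    intro l
    refine Jn_mono ?_ (continuous_G hc l) (fun r _ => ?_)
    · exact (continuous_ray_r hc l (cen n)).mul continuous_const
    · exact ih _ (continuous_ray_θ hc l r) (convexOn_ray_θ hv l r)
  -- Jensen for the average
  have h2 : ∀ r, f (cen (n + 1)) ≤ ∑ l : Fin (n + 2), ((n : ℝ) + 2)⁻¹ * f (ray l r (cen n)) := by
    intro r
    rw [← avg_ray (n := n) r]
    have hsum : ∑ l : Fin (n + 2), ((n : ℝ) + 2)⁻¹ = 1 := by
      simp only [Finset.sum_const, Finset.card_univ, Fintype.card_fin, nsmul_eq_mul]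
      push_cast
      field_simp
    have := hv.map_sum_le (t := Finset.univ) (w := fun _ : Fin (n + 2) => ((n : ℝ) + 2)⁻¹)
      (p := fun l => ray l r (cen n)) (fun _ _ => by positivity) hsum (fun _ _ => mem_univ _)
    simpa [smul_eq_mul] using this
  have h3 : Jn n (fun _ => f (cen (n + 1)) * Bm n (fun _ => 1)) ≤
      Jn n (fun r => ∑ l : Fin (n + 2), ((n : ℝ) + 2)⁻¹ *
        (f (ray l r (cen n)) * Bm n (fun _ => 1))) := by
    refine Jn_mono continuous_const ?_ (fun r _ => ?_)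
    · refine continuous_finsetSum _ (fun l _ => ?_)
      exact continuous_const.mul ((continuous_ray_r hc l (cen n)).mul continuous_const)
    · have e : ∑ l : Fin (n + 2), ((n : ℝ) + 2)⁻¹ * (f (ray l r (cen n)) * Bm n (fun _ => 1)) =
          (∑ l : Fin (n + 2), ((n : ℝ) + 2)⁻¹ * f (ray l r (cen n))) * Bm n (fun _ => 1) := by
        rw [Finset.sum_mul]
        refine Finset.sum_congr rfl (fun l _ => ?_)
        ring
      rw [e]
      exact mul_le_mul_of_nonneg_right (h2 r) hnn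
  have hcs : ∀ l : Fin (n + 2), Continuous (fun r => ((n : ℝ) + 2)⁻¹ *
      (f (ray l r (cen n)) * Bm n (fun _ => 1))) := fun l =>
    continuous_const.mul ((continuous_ray_r hc l (cen n)).mul continuous_const)
  rw [Jn_const, Jn_sum _ hcs] at h3
  simp_rw [Jn_const_mul] at h3
  have h4 : ∑ l : Fin (n + 2), ((n : ℝ) + 2)⁻¹ *
      Jn n (fun r => f (ray l r (cen n)) * Bm n (fun _ => 1)) ≤
      (1 / ((n : ℝ) + 2)) * ∑ l : Fin (n + 2), ∫ r in Ioc (0 : ℝ) 1,
        r ^ n * Bm n (fun θ => f (ray l r θ)) := by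
    rw [Finset.mul_sum]
    refine Finset.sum_le_sum (fun l _ => ?_)
    rw [one_div]
    exact mul_le_mul_of_nonneg_left (h1 l) (by positivity)
  calc f (cen (n + 1)) * (Bm n (fun _ => 1) / ((n : ℝ) + 1))
      = f (cen (n + 1)) * Bm n (fun _ => 1) / ((n : ℝ) + 1) := by ring
    _ ≤ _ := h3.trans h4

/-- the pointwise bound used in the radial integral -/
theorem H_ge (n : ℕ) (ih : ∀ g : (Fin (n + 1) → ℝ) → ℝ, Continuous g → ConvexOn ℝ univ g →
      g (cen n) * Bm n (fun _ => 1) ≤ Bm n g ∧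
      (2 / (((n : ℝ) + 1) * ((n : ℝ) + 3))) * (Bm n g - g (cen n) * Bm n (fun _ => 1)) ≤
        Bm n (fun θ => g θ * Qf n θ))
    {f : (Fin (n + 2) → ℝ) → ℝ} (hc : Continuous f) (hv : ConvexOn ℝ univ f) (l : Fin (n + 2))
    (r : ℝ) :
    omg n r * Bm n (fun θ => f (ray l r θ)) ≤
      Bm n (fun θ => (fun σ => f σ * Qf (n + 1) σ) (ray l r θ)) := by
  have hg := continuous_ray_θ hc l r
  obtain ⟨h1, h2⟩ := ih _ hg (convexOn_ray_θ hv l r)
  have hQ := continuous_Qf n
  have e : Bm n (fun θ => (fun σ => f σ * Qf (n + 1) σ) (ray l r θ)) =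
      Bm n (fun θ => omg n r * f (ray l r θ) +
        (((n : ℝ) + 3) * r ^ 2 / ((n : ℝ) + 2)) * (f (ray l r θ) * Qf n θ)) := by
    refine Bm_congr (fun θ hθ => ?_)
    simp only
    rw [Qf_ray l r hθ.2, omg]
    ring
  have hA : Continuous (fun θ => omg n r * f (ray l r θ)) := continuous_const.mul hg
  have hB : Continuous (fun θ => (((n : ℝ) + 3) * r ^ 2 / ((n : ℝ) + 2)) *
      (f (ray l r θ) * Qf n θ)) := continuous_const.mul (hg.mul hQ)
  rw [e, Bm_add hA hB, Bm_const_mul, Bm_const_mul]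
  have h3 : 0 ≤ Bm n (fun θ => f (ray l r θ) * Qf n θ) := by
    refine le_trans ?_ h2
    exact mul_nonneg (by positivity) (sub_nonneg.2 h1)
  have h4 : 0 ≤ (((n : ℝ) + 3) * r ^ 2 / ((n : ℝ) + 2)) := by positivity
  have := mul_nonneg h4 h3
  linarith

theorem step_K (n : ℕ) (ih : ∀ g : (Fin (n + 1) → ℝ) → ℝ, Continuous g → ConvexOn ℝ univ g →
      g (cen n) * Bm n (fun _ => 1) ≤ Bm n g ∧
      (2 / (((n : ℝ) + 1) * ((n : ℝ) + 3))) * (Bm n g - g (cen n) * Bm n (fun _ => 1)) ≤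
        Bm n (fun θ => g θ * Qf n θ))
    {f : (Fin (n + 2) → ℝ) → ℝ} (hc : Continuous f) (hv : ConvexOn ℝ univ f) :
    (2 / (((n : ℝ) + 2) * ((n : ℝ) + 4))) *
        (Bm (n + 1) f - f (cen (n + 1)) * Bm (n + 1) (fun _ => 1)) ≤
      Bm (n + 1) (fun θ => f θ * Qf (n + 1) θ) := by
  have hcQ : Continuous (fun σ => f σ * Qf (n + 1) σ) := hc.mul (continuous_Qf _)
  obtain ⟨M, hM⟩ := exists_bound_Sg hc
  obtain ⟨M', hM'⟩ := exists_bound_Sg hcQ
  rw [recursion hc.measurable hM, recursion hcQ.measurable hM', Bm_one_succ]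
  set c : ℝ := 2 / (((n : ℝ) + 2) * ((n : ℝ) + 4)) with hc'
  have hn2 : (0 : ℝ) < (n : ℝ) + 2 := by positivity
  have hl : ∀ l : Fin (n + 2),
      c * (Jn n (fun r => Bm n (fun θ => f (ray l r θ))) -
        (f (cen (n + 1)) * Bm n (fun _ => 1)) / ((n : ℝ) + 1)) ≤
      Jn n (fun r => Bm n (fun θ => (fun σ => f σ * Qf (n + 1) σ) (ray l r θ))) := by
    intro l
    have h1 := oneD_omega n (continuous_G hc l) (convexOn_G hc hv l)
    rw [G_zero] at h1
    refine h1.trans ?_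
    refine Jn_mono ((continuous_omg n).mul (continuous_G hc l)) (continuous_G hcQ l) (fun r _ => ?_)
    exact H_ge n ih hc hv l r
  have hsum := Finset.sum_le_sum (s := Finset.univ) (fun l _ => hl l)
  have hcard : ∑ l : Fin (n + 2), c * (Jn n (fun r => Bm n (fun θ => f (ray l r θ))) -
        (f (cen (n + 1)) * Bm n (fun _ => 1)) / ((n : ℝ) + 1)) =
      c * (∑ l : Fin (n + 2), Jn n (fun r => Bm n (fun θ => f (ray l r θ))) -
        ((n : ℝ) + 2) * ((f (cen (n + 1)) * Bm n (fun _ => 1)) / ((n : ℝ) + 1))) := by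
    rw [← Finset.mul_sum, Finset.sum_sub_distrib, Finset.sum_const, Finset.card_univ,
      Fintype.card_fin, nsmul_eq_mul]
    push_cast
    ring_nf
  rw [hcard] at hsum
  have hdiv := mul_le_mul_of_nonneg_left hsum (by positivity : 0 ≤ 1 / ((n : ℝ) + 2))
  refine le_trans (le_of_eq ?_) hdiv
  unfold Jn
  field_simp

/-- **The Jensen-gap inequality.** -/
theorem KL (n : ℕ) : ∀ f : (Fin (n + 1) → ℝ) → ℝ, Continuous f → ConvexOn ℝ univ f →
    f (cen n) * Bm n (fun _ => 1) ≤ Bm n f ∧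
    (2 / (((n : ℝ) + 1) * ((n : ℝ) + 3))) * (Bm n f - f (cen n) * Bm n (fun _ => 1)) ≤
      Bm n (fun θ => f θ * Qf n θ) := by
  induction n with
  | zero =>
    intro f _ _
    simp only [Bm_zero, Qf_cen_zero]
    constructor
    · simp
    · simp
  | succ n ih =>
    intro f hc hv
    refine ⟨step_J n (fun g h1 h2 => (ih g h1 h2).1) hc hv, ?_⟩
    have := step_K n ih hc hv
    push_cast
    have e1 : ((n : ℝ) + 1 + 1) = (n : ℝ) + 2 := by ring
    have e2 : ((n : ℝ) + 1 + 3) = (n : ℝ) + 4 := by ring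
    rw [e1, e2]
    exact this

end Vale.Agent.Lib.P254L
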