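import Vale.Agent.Lib.P254L.Det

/-!
Normal form: the minimal volume simplex around a body touches it at the facet centres, and a body
of almost full volume in a simplex contains a slightly shrunk copy of the simplex.
-/

open MeasureTheory Set Function Filter Topology Matrix
open Vale.Agent.Lib.P254

namespace Vale.Agent.Lib.P254L

variable {m : ℕ}

theorem ctr_mem : ctr m ∈ unitSimplex (Fin (m + 1)) :=
  interior_subset (interior_mem_nhds.2 ctr_nhds |> mem_of_mem_nhds)

/-- the small copy stays in the simplex -/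
theorem small_pos_mem {y : Fin (m + 1) → ℝ} (hy : y ∈ unitSimplex (Fin (m + 1))) :
    ctr m + ((m : ℝ) + 1)⁻¹ • (y - ctr m) ∈ unitSimplex (Fin (m + 1)) := by
  have hp : (0 : ℝ) < (m : ℝ) + 1 := by positivity
  have ht : ((m : ℝ) + 1)⁻¹ ≤ 1 := inv_le_one_of_one_le₀ (by
    have : (0 : ℝ) ≤ m := Nat.cast_nonneg m
    linarith)
  have := convex_unitSimplex (ι := Fin (m + 1)) ctr_mem hy (sub_nonneg.2 ht)
    (inv_pos.2 hp).le (by ring)
  convert this using 1
  funext j
  simp only [Pi.add_apply, Pi.smul_apply, Pi.sub_apply, smul_eq_mul]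
  ring

theorem small_neg_mem {y : Fin (m + 1) → ℝ} (hy : y ∈ unitSimplex (Fin (m + 1))) :
    ctr m - ((m : ℝ) + 1)⁻¹ • (y - ctr m) ∈ unitSimplex (Fin (m + 1)) := by
  have hp : (m : ℝ) + 1 ≠ 0 := by positivity
  have hp2 : (m : ℝ) + 2 ≠ 0 := by positivity
  have hco : ∀ j, (ctr m - ((m : ℝ) + 1)⁻¹ • (y - ctr m)) j = (1 - y j) * ((m : ℝ) + 1)⁻¹ := by
    intro j
    simp only [ctr, Pi.sub_apply, Pi.smul_apply, smul_eq_mul]
    field_simp
    ring
  have hle : ∀ j, y j ≤ 1 := by
    intro j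
    have h1 := Finset.single_le_sum (f := y) (fun i _ => hy.1 i) (Finset.mem_univ j)
    linarith [hy.2]
  refine ⟨fun j => ?_, ?_⟩
  · rw [hco]
    exact mul_nonneg (sub_nonneg.2 (hle j)) (by positivity)
  · simp_rw [hco]
    rw [← Finset.sum_mul, Finset.sum_sub_distrib]
    simp only [Finset.sum_const, Finset.card_univ, Fintype.card_fin, nsmul_eq_mul, mul_one]
    push_cast
    have hs : 0 ≤ ∑ i, y i := Finset.sum_nonneg (fun i _ => hy.1 i)
    have hpos : (0 : ℝ) < (m : ℝ) + 1 := by positivity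
    rw [← div_eq_mul_inv, div_le_one hpos]
    linarith

/-- volume bound from a point outside -/
theorem vol_bound {K : Set (Fin (m + 1) → ℝ)} (hc : IsClosed K) (hcv : Convex ℝ K)
    (hsub : K ⊆ unitSimplex (Fin (m + 1))) {ρ η : ℝ} (hη0 : 0 < η) (hη1 : η ≤ 1)
    (hρ : ρ = η * ((m : ℝ) + 1)⁻¹) {x : Fin (m + 1) → ℝ} (hx : x ∈ unitSimplex (Fin (m + 1)))
    (hout : ctr m + (1 - η) • (x - ctr m) ∉ K) :
    ρ ^ (m + 1) * vol (unitSimplex (Fin (m + 1))) ≤
      2 * (vol (unitSimplex (Fin (m + 1))) - vol K) := by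
  classical
  have hU := isCompact_unitSimplex (ι := Fin (m + 1))
  have hKc : IsCompact K := hU.of_isClosed_subset hc hsub
  have hp : (0 : ℝ) < (m : ℝ) + 1 := by positivity
  have hρ0 : 0 < ρ := by
    rw [hρ]
    positivity
  set xt : Fin (m + 1) → ℝ := ctr m + (1 - η) • (x - ctr m) with hxt
  obtain ⟨f, u, hf1, hf2⟩ := geometric_hahn_banach_closed_point hcv hc hout
  -- the two small copies
  have hconv : ∀ z ∈ unitSimplex (Fin (m + 1)), (1 - η) • x + η • z ∈ unitSimplex (Fin (m + 1)) :=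
    fun z hz => convex_unitSimplex hx hz (by linarith) hη0.le (by ring)
  have hpos : ∀ y ∈ unitSimplex (Fin (m + 1)), xt + ρ • (y - ctr m) ∈ unitSimplex (Fin (m + 1)) := by
    intro y hy
    have := hconv _ (small_pos_mem hy)
    convert this using 1
    funext j
    simp only [hxt, hρ, Pi.add_apply, Pi.smul_apply, Pi.sub_apply, smul_eq_mul]
    ring
  have hneg : ∀ y ∈ unitSimplex (Fin (m + 1)), xt - ρ • (y - ctr m) ∈ unitSimplex (Fin (m + 1)) := by
    intro y hy
    have := hconv _ (small_neg_mem hy)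
    convert this using 1
    funext j
    simp only [hxt, hρ, Pi.add_apply, Pi.smul_apply, Pi.sub_apply, smul_eq_mul]
    ring
  -- the affine maps
  set M : Matrix (Fin (m + 1)) (Fin (m + 1)) ℝ := ρ • (1 : Matrix (Fin (m + 1)) (Fin (m + 1)) ℝ)
    with hM
  have hMdet : M.det = ρ ^ (m + 1) := by
    rw [hM, det_smul, det_one, mul_one, Fintype.card_fin]
  have hMne : M.det ≠ 0 := by
    rw [hMdet]
    positivity
  set g := affMap M (xt - ρ • ctr m) with hg
  have hgapp : ∀ y, g y = xt + ρ • (y - ctr m) := by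
    intro y
    simp only [hg, affMap, hM, smul_mulVec, one_mulVec]
    funext j
    simp only [Pi.add_apply, Pi.smul_apply, Pi.sub_apply, smul_eq_mul]
    ring
  set R := affMap (-1 : Matrix (Fin (m + 1)) (Fin (m + 1)) ℝ) (xt + xt) with hR
  have hRdet : |(-1 : Matrix (Fin (m + 1)) (Fin (m + 1)) ℝ).det| = 1 := by
    rw [det_neg, det_one, mul_one, abs_pow, abs_neg, abs_one, one_pow]
  have hRne : (-1 : Matrix (Fin (m + 1)) (Fin (m + 1)) ℝ).det ≠ 0 := by
    intro h
    rw [h] at hRdet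
    simp at hRdet
  have hRapp : ∀ y, R y = xt + xt - y := by
    intro y
    simp only [hR, affMap, neg_mulVec, one_mulVec]
    abel
  set G := g '' unitSimplex (Fin (m + 1)) with hG
  have hGcomp : IsCompact G := hU.image (continuous_affMap _ _)
  have hGvol : vol G = ρ ^ (m + 1) * vol (unitSimplex (Fin (m + 1))) := by
    rw [hG, hg, vol_image_aff hMne _ hU.measurableSet, hMdet, abs_of_pos (by positivity)]
  set A : Set (Fin (m + 1) → ℝ) := {y | y ∈ G ∧ f xt ≤ f y} with hA
  set C : Set (Fin (m + 1) → ℝ) := {y | y ∈ G ∧ f y < f xt} with hC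
  have hCm : MeasurableSet C := by
    have : C = G ∩ {y | f y < f xt} := rfl
    rw [this]
    exact hGcomp.measurableSet.inter (measurableSet_lt f.continuous.measurable measurable_const)
  have hGsplit : G ⊆ A ∪ C := by
    intro y hy
    rcases le_or_gt (f xt) (f y) with h | h
    · exact Or.inl ⟨hy, h⟩
    · exact Or.inr ⟨hy, h⟩
  set D : Set (Fin (m + 1) → ℝ) := unitSimplex (Fin (m + 1)) \ K with hD
  have hDfin : volume D ≠ ⊤ :=
    ((measure_mono sdiff_subset).trans_lt hU.measure_lt_top).ne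
  have hAD : A ⊆ D := by
    rintro y ⟨⟨z, hz, rfl⟩, hy2⟩
    refine ⟨?_, fun hK => ?_⟩
    · rw [hgapp]
      exact hpos z hz
    · have := hf1 _ hK
      linarith
  have hCD : R '' C ⊆ D := by
    rintro _ ⟨y, ⟨⟨z, hz, rfl⟩, hy2⟩, rfl⟩
    refine ⟨?_, fun hK => ?_⟩
    · rw [hRapp, hgapp]
      have := hneg z hz
      convert this using 1
      funext j
      simp only [Pi.add_apply, Pi.smul_apply, Pi.sub_apply, smul_eq_mul]
      ring
    · have h1 := hf1 _ hK
      rw [hRapp, map_sub, map_add] at h1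
      linarith
  have hvolC : vol (R '' C) = vol C := by
    rw [hR, vol_image_aff hRne _ hCm, hRdet, one_mul]
  have hv1 : vol G ≤ vol (A ∪ C) :=
    ENNReal.toReal_mono ((measure_union_le _ _).trans_lt (ENNReal.add_lt_top.2
      ⟨(measure_mono hAD).trans_lt hDfin.lt_top,
       (measure_mono (fun y (hy : y ∈ C) => hGcomp.isClosed.closure_subset_iff.2 subset_rfl
         (subset_closure hy.1))).trans_lt hGcomp.measure_lt_top⟩)).ne (measure_mono hGsplit)
  have hv2 : vol (A ∪ C) ≤ vol A + vol C := measureReal_union_le A C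
  have hv3 : vol A ≤ vol D := ENNReal.toReal_mono hDfin (measure_mono hAD)
  have hv4 : vol C ≤ vol D := by
    rw [← hvolC]
    exact ENNReal.toReal_mono hDfin (measure_mono hCD)
  have hv5 : vol D = vol (unitSimplex (Fin (m + 1))) - vol K := by
    have := measureReal_sdiff (s₁ := unitSimplex (Fin (m + 1))) (s₂ := K) (μ := volume)
      hsub hKc.measurableSet hU.measure_lt_top.ne
    exact this
  rw [← hGvol, ← hv5]
  linarith

theorem shrink_of_vol {K : Set (Fin (m + 1) → ℝ)} (hc : IsClosed K) (hcv : Convex ℝ K)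
    (hsub : K ⊆ unitSimplex (Fin (m + 1))) {ε δ : ℝ} (hε : 0 < ε)
    (hδ : 2 * δ ≤ ((ε / (1 + ε)) * ((m : ℝ) + 1)⁻¹) ^ (m + 1))
    (hvol : vol (unitSimplex (Fin (m + 1))) ≤ (1 + δ) * vol K)
    {x : Fin (m + 1) → ℝ} (hx : x ∈ unitSimplex (Fin (m + 1))) :
    ctr m + (1 + ε)⁻¹ • (x - ctr m) ∈ K := by
  by_contra hout
  have h1ε : (0 : ℝ) < 1 + ε := by positivity
  set η : ℝ := ε / (1 + ε) with hη
  have hη0 : 0 < η := by positivity
  have hη1 : η ≤ 1 := by
    rw [hη, div_le_one h1ε]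
    linarith
  have e : (1 + ε)⁻¹ = 1 - η := by
    rw [hη]
    field_simp
    ring
  rw [e] at hout
  have hb := vol_bound hc hcv hsub hη0 hη1 rfl hx hout
  have hV := vol_unitSimplex_pos (ι := Fin (m + 1))
  set ρ : ℝ := η * ((m : ℝ) + 1)⁻¹ with hρ
  have hρ0 : 0 < ρ ^ (m + 1) := by
    have : 0 < ρ := by
      rw [hρ]
      positivity
    positivity
  have hW : 0 ≤ vol K := ENNReal.toReal_nonneg
  set V := vol (unitSimplex (Fin (m + 1)))
  set W := vol K
  have h2 : ρ ^ (m + 1) * V ≤ ρ ^ (m + 1) * W := by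
    have h3 : 2 * (V - W) ≤ 2 * δ * W := by nlinarith
    have h4 : 2 * δ * W ≤ ρ ^ (m + 1) * W := mul_le_mul_of_nonneg_right hδ hW
    linarith
  have h5 : V ≤ W := le_of_mul_le_mul_left h2 hρ0
  have h6 : 0 < ρ ^ (m + 1) * V := by positivity
  linarith

/-- affine maps respect affine combinations -/
theorem affMap_comb {ι : Type*} [Fintype ι] [DecidableEq ι] (M : Matrix ι ι ℝ) (q : ι → ℝ)
    {a b : ℝ} (hab : a + b = 1) (x y : ι → ℝ) :
    affMap M q (a • x + b • y) = a • affMap M q x + b • affMap M q y := by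
  unfold affMap
  rw [mulVec_add, mulVec_smul, mulVec_smul]
  have : a = 1 - b := by linarith
  subst this
  funext j
  simp only [Pi.add_apply, Pi.smul_apply, smul_eq_mul]
  ring

theorem affMap_comp {ι : Type*} [Fintype ι] [DecidableEq ι] (N A : Matrix ι ι ℝ) (v w x : ι → ℝ) :
    affMap N v (affMap A w x) = affMap (N * A) (N *ᵥ w + v) x := by
  simp only [affMap, mulVec_add, mulVec_mulVec, add_assoc]

theorem convex_image_aff {ι : Type*} [Fintype ι] [DecidableEq ι] (M : Matrix ι ι ℝ) (q : ι → ℝ)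
    {K : Set (ι → ℝ)} (hcv : Convex ℝ K) : Convex ℝ (affMap M q '' K) := by
  rintro _ ⟨x, hx, rfl⟩ _ ⟨y, hy, rfl⟩ a b ha hb hab
  exact ⟨a • x + b • y, hcv hx hy ha hb hab, affMap_comb M q hab x y⟩

/-- matrices and translations -/
abbrev XT (m : ℕ) := (Fin (m + 1) → Fin (m + 1) → ℝ) × (Fin (m + 1) → ℝ)

/-- existence of the optimal position -/
theorem exists_max {K : Set (Fin (m + 1) → ℝ)} (hi : (interior K).Nonempty)
    (hsub : K ⊆ unitSimplex (Fin (m + 1))) :
    ∃ (A : Matrix (Fin (m + 1)) (Fin (m + 1)) ℝ) (w : Fin (m + 1) → ℝ),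
      (∀ x ∈ K, affMap A w x ∈ unitSimplex (Fin (m + 1))) ∧ 1 ≤ |A.det| ∧
      ∀ (N : Matrix (Fin (m + 1)) (Fin (m + 1)) ℝ) (v : Fin (m + 1) → ℝ),
        (∀ x ∈ K, affMap N v (affMap A w x) ∈ unitSimplex (Fin (m + 1))) → |N.det| ≤ 1 := by
  classical
  -- a small star inside `K`
  obtain ⟨x₀, hx₀⟩ := hi
  have hx₀K : x₀ ∈ K := interior_subset hx₀
  have hstar : ∃ ρ : ℝ, 0 < ρ ∧ ∀ k : Fin (m + 1), x₀ + ρ • (Pi.single k (1 : ℝ)) ∈ K := by
    have hev : ∀ᶠ t : ℝ in 𝓝 0, ∀ k : Fin (m + 1), x₀ + t • (Pi.single k (1 : ℝ)) ∈ K := by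
      refine eventually_all.2 (fun k => ?_)
      have hcont : Continuous (fun t : ℝ => x₀ + t • (Pi.single k (1 : ℝ) : Fin (m + 1) → ℝ)) := by
        fun_prop
      have hmem : K ∈ 𝓝 (x₀ + (0 : ℝ) • (Pi.single k (1 : ℝ) : Fin (m + 1) → ℝ)) := by
        simpa using mem_interior_iff_mem_nhds.1 hx₀
      exact hcont.continuousAt.eventually_mem hmem
    have hev2 := (hev.filter_mono (nhdsWithin_le_nhds (s := Ioi (0 : ℝ)))).and self_mem_nhdsWithin
    obtain ⟨ρ, h1, h2⟩ := hev2.exists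
    exact ⟨ρ, h2, h1⟩
  obtain ⟨ρ, hρ, hstar⟩ := hstar
  -- the feasible set
  let feas : Set (XT m) := {p | ∀ x ∈ K, affMap (Matrix.of p.1) p.2 x ∈ unitSimplex (Fin (m + 1))}
  have hfeasclosed : IsClosed feas := by
    have : feas = ⋂ x ∈ K, {p : XT m | affMap (Matrix.of p.1) p.2 x ∈ unitSimplex (Fin (m + 1))} := by
      ext p
      simp [feas]
    rw [this]
    refine isClosed_biInter (fun x _ => ?_)
    refine isCompact_unitSimplex.isClosed.preimage ?_
    refine continuous_pi (fun j => ?_)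
    simp only [affMap, Pi.add_apply, mulVec, dotProduct, Matrix.of_apply]
    fun_prop
  set a : ℝ := 1 / ρ with ha
  have ha0 : 0 ≤ a := by positivity
  set b : ℝ := 1 + a * ∑ k, |x₀ k| with hb
  have hle1 : ∀ y ∈ unitSimplex (Fin (m + 1)), ∀ j, 0 ≤ y j ∧ y j ≤ 1 := by
    intro y hy j
    refine ⟨hy.1 j, ?_⟩
    have h1 := Finset.single_le_sum (f := y) (fun i _ => hy.1 i) (Finset.mem_univ j)
    linarith [hy.2]
  have hbound : feas ⊆ Icc ((fun _ _ => -a, fun _ => -b) : XT m) ((fun _ _ => a, fun _ => b) : XT m) := by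
    intro p hp
    have h0 := hp x₀ hx₀K
    have hA : ∀ j k, |p.1 j k| ≤ a := by
      intro j k
      have h1 := hle1 _ (hp _ (hstar k)) j
      have h2 := hle1 _ h0 j
      have e : affMap (Matrix.of p.1) p.2 (x₀ + ρ • Pi.single k (1 : ℝ)) j -
          affMap (Matrix.of p.1) p.2 x₀ j = ρ * p.1 j k := by
        simp only [affMap, mulVec_add, mulVec_smul, mulVec_single_one, Pi.add_apply,
          Pi.smul_apply, smul_eq_mul, col_apply, Matrix.of_apply]
        ring
      have h6 : |ρ * p.1 j k| ≤ 1 := by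
        rw [← e, abs_le]
        constructor <;> linarith [h1.1, h1.2, h2.1, h2.2]
      rw [abs_mul, abs_of_pos hρ] at h6
      rw [ha, le_div_iff₀ hρ]
      linarith
    have hw : ∀ j, |p.2 j| ≤ b := by
      intro j
      have h2 := hle1 _ h0 j
      have e : p.2 j = affMap (Matrix.of p.1) p.2 x₀ j - ∑ k, p.1 j k * x₀ k := by
        simp only [affMap, Pi.add_apply, mulVec, dotProduct, Matrix.of_apply]
        ring
      rw [e]
      have h3 : |∑ k, p.1 j k * x₀ k| ≤ a * ∑ k, |x₀ k| := by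
        refine (Finset.abs_sum_le_sum_abs _ _).trans ?_
        rw [Finset.mul_sum]
        refine Finset.sum_le_sum (fun k _ => ?_)
        rw [abs_mul]
        exact mul_le_mul_of_nonneg_right (hA j k) (abs_nonneg _)
      have h4 := abs_sub (affMap (Matrix.of p.1) p.2 x₀ j) (∑ k, p.1 j k * x₀ k)
      have h5 : |affMap (Matrix.of p.1) p.2 x₀ j| ≤ 1 := by
        rw [abs_le]
        constructor <;> linarith [h2.1, h2.2]
      rw [hb]
      linarith
    constructor
    · constructor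
      · intro j k
        exact (abs_le.1 (hA j k)).1
      · intro j
        exact (abs_le.1 (hw j)).1
    · constructor
      · intro j k
        exact (abs_le.1 (hA j k)).2
      · intro j
        exact (abs_le.1 (hw j)).2
  have hcomp : IsCompact feas := isCompact_Icc.of_isClosed_subset hfeasclosed hbound
  have hne : feas.Nonempty := by
    refine ⟨(Matrix.of.symm 1, 0), fun x hx => ?_⟩
    simpa [affMap] using hsub hx
  have hcontdet : Continuous (fun p : XT m => |(Matrix.of p.1).det|) := by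
    have h1 : Continuous (fun p : XT m => (Matrix.of p.1 : Matrix (Fin (m + 1)) (Fin (m + 1)) ℝ)) :=
      continuous_fst
    exact (h1.matrix_det).abs
  obtain ⟨p, hp, hmax⟩ := hcomp.exists_isMaxOn hne hcontdet.continuousOn
  rw [isMaxOn_iff] at hmax
  have hone : 1 ≤ |(Matrix.of p.1).det| := by
    have := hmax (Matrix.of.symm 1, 0) (fun x hx => by simpa [affMap] using hsub hx)
    simpa using this
  refine ⟨Matrix.of p.1, p.2, hp, hone, fun N v hNv => ?_⟩
  have h1 := hmax (Matrix.of.symm (N * Matrix.of p.1), N *ᵥ p.2 + v) (fun x hx => by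
    have := hNv x hx
    rw [affMap_comp] at this
    simpa using this)
  simp only [Equiv.apply_symm_apply, det_mul, abs_mul] at h1
  have hpos : 0 < |(Matrix.of p.1).det| := by linarith
  exact le_of_mul_le_mul_right (by rw [one_mul]; exact h1) hpos

/-- a product with positive derivative exceeds one for small positive times -/
theorem exists_prod_gt {ι : Type*} [Fintype ι] (β : ι → ℝ) (hβ : ∑ j, β j < 0) :
    ∀ᶠ t : ℝ in 𝓝[>] 0, 1 < ∏ j, (1 - t * β j) := by
  classical
  set g : ℝ → ℝ := fun t => ∏ j, (1 - t * β j) with hg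
  have hd : HasDerivAt g (∑ j, (∏ i ∈ Finset.univ.erase j, (1 - (0 : ℝ) * β i)) • (-β j)) 0 := by
    have := HasDerivAt.fun_finset_prod (u := Finset.univ) (f := fun j t => 1 - t * β j)
      (f' := fun j => -β j) (x := (0 : ℝ)) (fun j _ => by
        have h1 : HasDerivAt (fun t : ℝ => 1 - t * β j) (0 - 1 * β j) 0 :=
          (hasDerivAt_const (0 : ℝ) (1 : ℝ)).sub ((hasDerivAt_id' (0 : ℝ)).mul_const (β j))
        simpa using h1)
    exact this
  have hd' : HasDerivAt g (-∑ j, β j) 0 := by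
    simpa [Finset.sum_neg_distrib] using hd
  have hg0 : g 0 = 1 := by simp [hg]
  have hpos : 0 < -∑ j, β j := by linarith
  have hs := hasDerivAt_iff_tendsto_slope.1 hd'
  have hev : ∀ᶠ t in 𝓝[≠] (0 : ℝ), 0 < slope g 0 t :=
    hs.eventually (lt_mem_nhds hpos)
  have hle : 𝓝[>] (0 : ℝ) ≤ 𝓝[≠] (0 : ℝ) :=
    nhdsWithin_mono _ (fun t (ht : 0 < t) => ne_of_gt ht)
  filter_upwards [hev.filter_mono hle, self_mem_nhdsWithin] with t ht ht0
  have ht0' : (0 : ℝ) < t := ht0
  rw [slope_def_field, hg0, sub_zero] at ht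
  have := (div_pos_iff_of_pos_right ht0').1 ht
  linarith

/-- the centre of the big facet lies in the body -/
theorem top_centre {K : Set (Fin (m + 1) → ℝ)} (hc : IsClosed K) (hcv : Convex ℝ K)
    (hsub : K ⊆ unitSimplex (Fin (m + 1)))
    (hmax : ∀ (N : Matrix (Fin (m + 1)) (Fin (m + 1)) ℝ) (v : Fin (m + 1) → ℝ),
      (∀ y ∈ K, affMap N v y ∈ unitSimplex (Fin (m + 1))) → |N.det| ≤ 1) : cen m ∈ K := by
  classical
  by_contra hout
  obtain ⟨f, u, hf1, hf2⟩ := geometric_hahn_banach_closed_point hcv hc hout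
  set b : Fin (m + 1) → ℝ := fun j => f (fun i => if j = i then 1 else 0) with hb
  have hfx : ∀ y : Fin (m + 1) → ℝ, f y = ∑ j, y j * b j := by
    intro y
    have := LinearMap.pi_apply_eq_sum_univ (f : (Fin (m + 1) → ℝ) →ₗ[ℝ] ℝ) y
    simpa [smul_eq_mul] using this
  set β : Fin (m + 1) → ℝ := fun j => u - b j with hβ
  have hp : (0 : ℝ) < (m : ℝ) + 1 := by positivity
  have hsumb : ((m : ℝ) + 1) * u < ∑ j, b j := by
    rw [hfx] at hf2
    simp only [cen] at hf2
    rw [← Finset.mul_sum, ← div_eq_inv_mul, lt_div_iff₀ hp] at hf2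
    linarith
  have hsumβ : ∑ j, β j < 0 := by
    simp only [hβ]
    rw [Finset.sum_sub_distrib]
    simp only [Finset.sum_const, Finset.card_univ, Fintype.card_fin, nsmul_eq_mul]
    push_cast
    linarith
  have h1 := exists_prod_gt β hsumβ
  have h2 : ∀ᶠ t : ℝ in 𝓝 0, (∀ j, 0 < 1 - t * β j) ∧ 0 < 1 - t * u := by
    refine Eventually.and (eventually_all.2 (fun j => ?_)) ?_
    · have hcont : Continuous (fun t : ℝ => 1 - t * β j) := by fun_prop
      exact hcont.continuousAt.eventually (lt_mem_nhds (by simp))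
    · have hcont : Continuous (fun t : ℝ => 1 - t * u) := by fun_prop
      exact hcont.continuousAt.eventually (lt_mem_nhds (by simp))
  obtain ⟨t, ht1, ⟨ht2, ht3⟩, ht0⟩ :=
    (h1.and ((h2.filter_mono nhdsWithin_le_nhds).and self_mem_nhdsWithin)).exists
  have ht0' : (0 : ℝ) < t := ht0
  have hdet : |(Matrix.diagonal (fun j => 1 - t * β j)).det| ≤ 1 := by
    refine hmax _ 0 (fun y hy => ?_)
    have hyU := hsub hy
    have hco : ∀ j, affMap (Matrix.diagonal (fun j => 1 - t * β j)) 0 y j =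
        (1 - t * β j) * y j := by
      intro j
      simp [affMap, mulVec_diagonal]
    refine ⟨fun j => ?_, ?_⟩
    · rw [hco]
      exact mul_nonneg (ht2 j).le (hyU.1 j)
    · simp_rw [hco]
      have hfy := hf1 y hy
      rw [hfx] at hfy
      set S := ∑ j, y j
      set L := ∑ j, y j * b j
      have e : ∑ j, (1 - t * β j) * y j = S - t * (u * S - L) := by
        have : ∀ j, (1 - t * β j) * y j = y j - t * (u * y j - y j * b j) := by
          intro j
          simp only [hβ]
          ring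
        simp_rw [this]
        rw [Finset.sum_sub_distrib, ← Finset.mul_sum, Finset.sum_sub_distrib, ← Finset.mul_sum]
      rw [e]
      have hS : S ≤ 1 := hyU.2
      have h5 : 0 ≤ (1 - S) * (1 - t * u) := mul_nonneg (by linarith) ht3.le
      have h6 : 0 ≤ t * (u - L) := mul_nonneg ht0'.le (by linarith)
      nlinarith
  rw [det_diagonal, abs_of_pos (by linarith)] at hdet
  linarith

theorem swap_inv {ι : Type*} [Fintype ι] [DecidableEq ι] (i : ι) (x : ι → ℝ) :
    affMap (swapMat i) (Pi.single i 1) (affMap (swapMat i) (Pi.single i 1) x) = x := by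
  rw [swapMat_apply, swapMat_apply]
  ext k
  by_cases hk : k = i
  · subst hk
    simp only [Function.update_self]
    rw [Finset.sum_update_of_mem (Finset.mem_univ k)]
    have h1 : ∑ j ∈ Finset.univ \ {k}, x j = ∑ j, x j - x k := by
      rw [← Finset.sum_sdiff (Finset.subset_univ {k})]
      simp
    rw [h1]
    ring
  · simp [Function.update_of_ne hk]

theorem swap_mem {ι : Type*} [Fintype ι] [DecidableEq ι] (i : ι) {x : ι → ℝ}
    (hx : x ∈ unitSimplex ι) : affMap (swapMat i) (Pi.single i 1) x ∈ unitSimplex ι := by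
  rw [← swap_image i]
  exact ⟨x, hx, rfl⟩

/-- the centres of all facets lie in the body -/
theorem all_centres {K : Set (Fin (m + 1) → ℝ)} (hc : IsClosed K) (hcv : Convex ℝ K)
    (hsub : K ⊆ unitSimplex (Fin (m + 1)))
    (hmax : ∀ (N : Matrix (Fin (m + 1)) (Fin (m + 1)) ℝ) (v : Fin (m + 1) → ℝ),
      (∀ y ∈ K, affMap N v y ∈ unitSimplex (Fin (m + 1))) → |N.det| ≤ 1)
    (l : Fin (m + 2)) : Fin.tail (ins l (cen m)) ∈ K := by
  classical
  refine Fin.cases ?_ (fun j => ?_) l
  · have e : Fin.tail (ins (0 : Fin (m + 2)) (cen m)) = cen m := by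
      funext i
      have := ins_succAbove (0 : Fin (m + 2)) (cen m) i
      simpa [Fin.tail] using this
    rw [e]
    exact top_centre hc hcv hsub hmax
  · set T := affMap (swapMat j) (Pi.single j 1) with hT
    set K2 : Set (Fin (m + 1) → ℝ) := T ⁻¹' K with hK2
    have hTc : Continuous T := continuous_affMap _ _
    have h1 : IsClosed K2 := hc.preimage hTc
    have h2 : Convex ℝ K2 := by
      intro x hx y hy a b ha hb hab
      change T (a • x + b • y) ∈ K
      rw [hT, affMap_comb _ _ hab]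
      exact hcv hx hy ha hb hab
    have h3 : K2 ⊆ unitSimplex (Fin (m + 1)) := by
      intro y hy
      have := swap_mem j (hsub hy)
      rwa [swap_inv] at this
    have h4 : ∀ (N : Matrix (Fin (m + 1)) (Fin (m + 1)) ℝ) (v : Fin (m + 1) → ℝ),
        (∀ y ∈ K2, affMap N v y ∈ unitSimplex (Fin (m + 1))) → |N.det| ≤ 1 := by
      intro N v hNv
      have h5 := hmax (N * swapMat j) (N *ᵥ Pi.single j 1 + v) (fun y hy => by
        have hmem : T y ∈ K2 := by
          change T (T y) ∈ K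
          rw [hT, swap_inv]
          exact hy
        have := hNv _ hmem
        rw [hT, affMap_comp] at this
        exact this)
      rw [det_mul, swapMat_det, abs_mul, abs_neg, abs_one, mul_one] at h5
      exact h5
    have h6 : T (cen m) ∈ K := top_centre h1 h2 h3 h4
    have e : Fin.tail (ins j.succ (cen m)) = T (cen m) := by
      rw [hT, swapMat_apply]
      funext i
      have hsum : ∑ k, cen m k = 1 := (cen_mem_Sg m).2
      simp only [Fin.tail]
      rw [ins_cen_apply, hsum]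
      by_cases hij : i = j
      · subst hij
        simp
      · rw [if_neg (fun h => hij (Fin.succ_injective _ h.symm)), Function.update_of_ne hij]
        simp [cen]
    rw [e]
    exact h6

theorem Good.interior_nonempty {K : Set (Fin (m + 1) → ℝ)} {ε : ℝ} (h : Good K ε) :
    (interior K).Nonempty := by
  have hε := h.eps
  refine ⟨ctr m, mem_interior_iff_mem_nhds.2 ?_⟩
  have hg : Continuous (fun y : Fin (m + 1) → ℝ => ctr m + (1 + ε) • (y - ctr m)) := by fun_prop
  have h1 : (fun y : Fin (m + 1) → ℝ => ctr m + (1 + ε) • (y - ctr m)) ⁻¹'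
      unitSimplex (Fin (m + 1)) ∈ 𝓝 (ctr m) := by
    refine hg.continuousAt ?_
    simpa using (ctr_nhds (m := m))
  refine mem_of_superset h1 (fun y hy => ?_)
  have := h.shrink _ hy
  have hne : (1 + ε) ≠ 0 := by positivity
  have e : ctr m + (1 + ε)⁻¹ • (ctr m + (1 + ε) • (y - ctr m) - ctr m) = y := by
    rw [add_sub_cancel_left, smul_smul, inv_mul_cancel₀ hne, one_smul, add_sub_cancel]
  rw [e] at this
  exact this

/-- **Normal form.** -/
theorem exists_good {K : Set (Fin (m + 1) → ℝ)} (hK : IsCompact K) (hcv : Convex ℝ K)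
    (hi : (interior K).Nonempty) (hsub : K ⊆ unitSimplex (Fin (m + 1))) {ε δ : ℝ} (hε : 0 < ε)
    (hδ : 2 * δ ≤ ((ε / (1 + ε)) * ((m : ℝ) + 1)⁻¹) ^ (m + 1)) (hδ0 : 0 ≤ δ)
    (hvol : vol (unitSimplex (Fin (m + 1))) ≤ (1 + δ) * vol K) :
    ∃ (A : Matrix (Fin (m + 1)) (Fin (m + 1)) ℝ) (w : Fin (m + 1) → ℝ),
      A.det ≠ 0 ∧ Good (affMap A w '' K) ε := by
  obtain ⟨A, w, h1, h2, h3⟩ := exists_max hi hsub
  have hdet : A.det ≠ 0 := by
    intro h0
    rw [h0, abs_zero] at h2
    linarith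
  set K' := affMap A w '' K with hK'
  have hc' : IsClosed K' := (hK.image (continuous_affMap _ _)).isClosed
  have hcv' : Convex ℝ K' := convex_image_aff A w hcv
  have hsub' : K' ⊆ unitSimplex (Fin (m + 1)) := by
    rintro _ ⟨x, hx, rfl⟩
    exact h1 x hx
  have hmax : ∀ (N : Matrix (Fin (m + 1)) (Fin (m + 1)) ℝ) (v : Fin (m + 1) → ℝ),
      (∀ y ∈ K', affMap N v y ∈ unitSimplex (Fin (m + 1))) → |N.det| ≤ 1 :=
    fun N v hNv => h3 N v (fun x hx => hNv _ ⟨x, hx, rfl⟩)
  have hvol' : vol (unitSimplex (Fin (m + 1))) ≤ (1 + δ) * vol K' := by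
    rw [hK', vol_image_aff hdet w hK.measurableSet]
    refine hvol.trans (mul_le_mul_of_nonneg_left ?_ (by linarith))
    have hW : 0 ≤ vol K := ENNReal.toReal_nonneg
    nlinarith
  exact ⟨A, w, hdet, hc', hcv', hsub', hε,
    fun x hx => shrink_of_vol hc' hcv' hsub' hε hδ hvol' hx,
    fun l => all_centres hc' hcv' hsub' hmax l⟩

/-- **Local maximality for bodies inside the standard simplex.** -/
theorem local_core {K : Set (Fin (m + 1) → ℝ)} (hK : IsCompact K) (hcv : Convex ℝ K)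
    (hi : (interior K).Nonempty) (hsub : K ⊆ unitSimplex (Fin (m + 1))) {δ : ℝ} (hδ0 : 0 ≤ δ)
    (hδ : 2 * δ ≤ (1 / ((2 * ((m : ℝ) + 1) ^ 4 + 1) * ((m : ℝ) + 1))) ^ (m + 1))
    (hvol : vol (unitSimplex (Fin (m + 1))) ≤ (1 + δ) * vol K) :
    isoPower K ≤ isoPower (unitSimplex (Fin (m + 1))) ∧
      (isoPower K = isoPower (unitSimplex (Fin (m + 1))) →
        ∃ (A : Matrix (Fin (m + 1)) (Fin (m + 1)) ℝ) (w : Fin (m + 1) → ℝ),
          A.det ≠ 0 ∧ affMap A w '' K = unitSimplex (Fin (m + 1))) := by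
  have hp : (0 : ℝ) < (m : ℝ) + 1 := by positivity
  set ε : ℝ := 1 / (2 * ((m : ℝ) + 1) ^ 4) with hε
  have hε0 : 0 < ε := by positivity
  have hη : (ε / (1 + ε)) * ((m : ℝ) + 1)⁻¹ = 1 / ((2 * ((m : ℝ) + 1) ^ 4 + 1) * ((m : ℝ) + 1)) := by
    rw [hε]
    field_simp
  rw [← hη] at hδ
  obtain ⟨A, w, hdet, hgood⟩ := exists_good hK hcv hi hsub hε0 hδ hδ0 hvol
  have hcore := core_ineq hgood le_rfl
  obtain ⟨h1, h2⟩ := isoPower_core hgood.closed hgood.sub hgood.interior_nonempty hcore
  have hv : vol K ≠ 0 := (vol_pos hK hi).ne'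
  rw [isoPower_image_aff hdet w hK hv] at h1 h2
  refine ⟨h1, fun heq => ⟨A, w, hdet, ?_⟩⟩
  by_contra hne
  exact absurd heq (h2 hne).ne

end Vale.Agent.Lib.P254L
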