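import Vale.Agent.Lib.P254L.Klee
import Vale.Agent.Lib.P254.Polytope

/-!
Local maximality of the simplex for the isotropic constant: the general statement.
-/

open MeasureTheory Set Function Filter Topology Matrix
open Vale.Agent.Lib.P254

namespace Vale.Agent.Lib.P254L

variable {m : ℕ}

/-- a simplex as an affine image of the standard simplex -/
theorem hull_eq_linAff {ι : Type*} [Fintype ι] (pu : Fin (m + 1) → ℝ)
    (P : ι → (Fin (m + 1) → ℝ)) :
    linAff (fun i => P i - pu) pu '' unitSimplex ι = convexHull ℝ ({pu} ∪ range P) := by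
  classical
  set T : Set (Fin (m + 1) → ℝ) := {pu} ∪ range P with hT
  have hpu : pu ∈ convexHull ℝ T := subset_convexHull ℝ T (Or.inl rfl)
  have hP : ∀ i, P i ∈ convexHull ℝ T := fun i => subset_convexHull ℝ T (Or.inr ⟨i, rfl⟩)
  have hfx : ∀ x, linAff (fun i => P i - pu) pu x = pu + ∑ i, x i • (P i - pu) := by
    intro x
    rw [linAff_apply]
    exact add_comm _ _
  apply Subset.antisymm
  · rintro _ ⟨x, hx, rfl⟩
    rw [hfx]
    exact simplex_comb_mem (convex_convexHull ℝ T) hpu hP hx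
  · apply convexHull_min _ (convex_unitSimplex.affine_image _)
    rintro y (rfl | ⟨i, rfl⟩)
    · exact ⟨0, zero_mem_unitSimplex, by simp [hfx]⟩
    · refine ⟨Pi.single i 1, single_mem_unitSimplex i, ?_⟩
      rw [hfx]
      have : ∑ j, (Pi.single i (1 : ℝ) : ι → ℝ) j • (P j - pu) = P i - pu := by
        rw [Finset.sum_eq_single i]
        · simp
        · intro j _ hj
          simp [hj]
        · simp
      rw [this]
      abel

theorem relabel_refl_image (K : Set (Fin (m + 1) → ℝ)) :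
    relabel (Equiv.refl (Fin (m + 1))) '' K = K := by
  have : ∀ x : Fin (m + 1) → ℝ, relabel (Equiv.refl (Fin (m + 1))) x = x := by
    intro x
    funext i
    simp [relabel_apply']
  simp [this]

theorem range_eq_cons (p : Fin (m + 2) → (Fin (m + 1) → ℝ)) :
    range p = {p 0} ∪ range (fun i : Fin (m + 1) => p i.succ) := by
  ext y
  constructor
  · rintro ⟨j, rfl⟩
    refine Fin.cases (Or.inl rfl) (fun i => Or.inr ⟨i, rfl⟩) j
  · rintro (rfl | ⟨i, rfl⟩)
    · exact ⟨0, rfl⟩
    · exact ⟨i.succ, rfl⟩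

/-- the simplex spanned by `p`, as an affine image of the standard simplex -/
theorem exists_aff_hull (p : Fin (m + 2) → (Fin (m + 1) → ℝ))
    (hp : (interior (convexHull ℝ (range p))).Nonempty) :
    ∃ (A : Matrix (Fin (m + 1)) (Fin (m + 1)) ℝ) (q : Fin (m + 1) → ℝ), A.det ≠ 0 ∧
      affMap A q '' unitSimplex (Fin (m + 1)) = convexHull ℝ (range p) := by
  classical
  have himg := hull_eq_linAff (p 0) (fun i : Fin (m + 1) => p i.succ)
  rw [← range_eq_cons] at himg
  set e := Equiv.refl (Fin (m + 1))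
  set v : Fin (m + 1) → (Fin (m + 1) → ℝ) := fun i => p i.succ - p 0 with hv
  rw [← himg] at hp
  refine ⟨matOf e v, p 0, det_matOf_ne_zero e v (p 0) hp, ?_⟩
  rw [← himg, image_linAff_eq e, relabel_refl_image]

/-- the converse direction: every simplex has the extremal value -/
theorem isoPower_simplex (q : Fin (m + 2) → (Fin (m + 1) → ℝ))
    (hq : (interior (convexHull ℝ (range q))).Nonempty) :
    isoPower (convexHull ℝ (range q)) = isoPower (unitSimplex (Fin (m + 1))) := by
  rw [range_eq_cons] at hq ⊢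
  exact core_simplex (ι := Fin (m + 1)) (by simp) _ _ hq

/-- an invertible affine image of the standard simplex is a simplex -/
theorem image_is_hull {A : Matrix (Fin (m + 1)) (Fin (m + 1)) ℝ} (q : Fin (m + 1) → ℝ) :
    ∃ r : Fin (m + 2) → (Fin (m + 1) → ℝ),
      affMap A q '' unitSimplex (Fin (m + 1)) = convexHull ℝ (range r) := by
  classical
  refine ⟨Fin.cons q (fun i => A *ᵥ Pi.single i 1 + q), ?_⟩
  have h := hull_eq_linAff q (fun i : Fin (m + 1) => A *ᵥ Pi.single i 1 + q)
  have hr := range_eq_cons (Fin.cons q (fun i => A *ᵥ Pi.single i 1 + q) :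
    Fin (m + 2) → (Fin (m + 1) → ℝ))
  simp only [Fin.cons_zero, Fin.cons_succ] at hr
  rw [hr, ← h]
  refine image_congr (fun x _ => ?_)
  rw [linAff_apply]
  funext k
  simp only [affMap, Pi.add_apply, Finset.sum_apply, Pi.smul_apply, smul_eq_mul,
    add_sub_cancel_right, mulVec_single_one, col_apply, mulVec, dotProduct]
  congr 1
  refine Finset.sum_congr rfl (fun i _ => ?_)
  ring

/-- the numerical bound on the admissible volume excess -/
theorem delta_bound (m : ℕ) :
    2 * (1 / (6 * ((m : ℝ) + 1) ^ 5) ^ (m + 1)) ≤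
      (1 / ((2 * ((m : ℝ) + 1) ^ 4 + 1) * ((m : ℝ) + 1))) ^ (m + 1) := by
  have hn : (1 : ℝ) ≤ (m : ℝ) + 1 := by
    have : (0 : ℝ) ≤ m := Nat.cast_nonneg m
    linarith
  set N : ℝ := (m : ℝ) + 1 with hN
  have hN0 : 0 < N := by linarith
  have h1 : (2 * N ^ 4 + 1) * N ≤ 3 * N ^ 5 := by
    have : 1 ≤ N ^ 4 := one_le_pow₀ hn
    nlinarith [pow_pos hN0 4]
  have hpos : 0 < (2 * N ^ 4 + 1) * N := by positivity
  have e1 : (6 * N ^ 5) ^ (m + 1) = 2 ^ (m + 1) * (3 * N ^ 5) ^ (m + 1) := by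
    rw [← mul_pow]
    congr 1
    ring
  have h2 : ((2 * N ^ 4 + 1) * N) ^ (m + 1) ≤ (3 * N ^ 5) ^ (m + 1) :=
    pow_le_pow_left₀ hpos.le h1 _
  have h3 : (2 : ℝ) ≤ 2 ^ (m + 1) := by
    calc (2 : ℝ) = 2 ^ 1 := by norm_num
      _ ≤ 2 ^ (m + 1) := pow_le_pow_right₀ (by norm_num) (by omega)
  rw [_root_.one_div_pow]
  have hpos2 : 0 < ((2 * N ^ 4 + 1) * N) ^ (m + 1) := by positivity
  have hpos3 : 0 < (3 * N ^ 5) ^ (m + 1) := by positivity
  rw [mul_one_div, div_le_div_iff₀ (by positivity) hpos2, e1]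
  nlinarith

/-- **The simplex is a strict local maximizer of the isotropic constant.** -/
theorem local_main {K : Set (Fin (m + 1) → ℝ)} (hK : IsCompact K) (hcv : Convex ℝ K)
    (hi : (interior K).Nonempty) (p : Fin (m + 2) → (Fin (m + 1) → ℝ))
    (hsub : K ⊆ convexHull ℝ (range p))
    (hvol : vol (convexHull ℝ (range p)) ≤
      (1 + 1 / (6 * ((m : ℝ) + 1) ^ 5) ^ (m + 1)) * vol K) :
    isoPower K ≤ isoPower (unitSimplex (Fin (m + 1))) ∧
      (isoPower K = isoPower (unitSimplex (Fin (m + 1))) ↔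
        ∃ q : Fin (m + 2) → (Fin (m + 1) → ℝ), K = convexHull ℝ (range q)) := by
  classical
  have hp : (interior (convexHull ℝ (range p))).Nonempty := hi.mono (interior_mono hsub)
  obtain ⟨A, q, hdet, himg⟩ := exists_aff_hull p hp
  have hu : IsUnit A.det := isUnit_iff_ne_zero.2 hdet
  -- the inverse map
  set S := affMap A q with hS
  set T := affMap A⁻¹ (-(A⁻¹ *ᵥ q)) with hT
  have hTS : ∀ x, T (S x) = x := by
    intro x
    simp only [hT, hS, affMap, mulVec_add, mulVec_mulVec, nonsing_inv_mul _ hu, one_mulVec]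
    abel
  have hST : ∀ x, S (T x) = x := by
    intro x
    simp only [hT, hS, affMap, mulVec_add, mulVec_mulVec, mul_nonsing_inv _ hu, one_mulVec,
      mulVec_neg]
    abel
  set K₁ := T '' K with hK₁
  have hK₁c : IsCompact K₁ := hK.image (continuous_affMap _ _)
  have hK₁v : Convex ℝ K₁ := convex_image_aff _ _ hcv
  have hSK₁ : S '' K₁ = K := by
    rw [hK₁, image_image]
    simp [hST]
  have hK₁i : (interior K₁).Nonempty := by
    obtain ⟨x₀, hx₀⟩ := hi
    refine ⟨T x₀, ?_⟩
    have hopen : IsOpen (S ⁻¹' interior K) := isOpen_interior.preimage (continuous_affMap _ _)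
    have hsubs : S ⁻¹' interior K ⊆ K₁ := by
      intro y hy
      exact ⟨S y, interior_subset hy, hTS y⟩
    refine interior_maximal hsubs hopen ?_
    change S (T x₀) ∈ interior K
    rw [hST]
    exact hx₀
  have hK₁s : K₁ ⊆ unitSimplex (Fin (m + 1)) := by
    rintro _ ⟨x, hx, rfl⟩
    have := hsub hx
    rw [← himg] at this
    obtain ⟨y, hy, rfl⟩ := this
    rw [hTS]
    exact hy
  have hdetpos : 0 < |A.det| := abs_pos.2 hdet
  have hvol₁ : vol (unitSimplex (Fin (m + 1))) ≤
      (1 + 1 / (6 * ((m : ℝ) + 1) ^ 5) ^ (m + 1)) * vol K₁ := by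
    rw [← himg, vol_image_aff hdet q isCompact_unitSimplex.measurableSet, ← hSK₁,
      vol_image_aff hdet q hK₁c.measurableSet] at hvol
    have h1 : |A.det| * vol (unitSimplex (Fin (m + 1))) ≤ |A.det| *
        ((1 + 1 / (6 * ((m : ℝ) + 1) ^ 5) ^ (m + 1)) * vol K₁) := by
      calc _ ≤ _ := hvol
        _ = _ := by ring
    exact le_of_mul_le_mul_left h1 hdetpos
  obtain ⟨h1, h2⟩ := local_core hK₁c hK₁v hK₁i hK₁s (by positivity) (delta_bound m) hvol₁
  have hv₁ : vol K₁ ≠ 0 := (vol_pos hK₁c hK₁i).ne'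
  have hiso : isoPower K = isoPower K₁ := by
    conv_lhs => rw [← hSK₁]
    exact isoPower_image_aff hdet q hK₁c hv₁
  rw [hiso]
  refine ⟨h1, ?_, ?_⟩
  · intro heq
    obtain ⟨B, w, hB, hBimg⟩ := h2 heq
    have hBu : IsUnit B.det := isUnit_iff_ne_zero.2 hB
    -- write `K` as an image of the standard simplex
    set T' := affMap B⁻¹ (-(B⁻¹ *ᵥ w)) with hT'
    have hT'B : ∀ x, T' (affMap B w x) = x := by
      intro x
      simp only [hT', affMap, mulVec_add, mulVec_mulVec, nonsing_inv_mul _ hBu, one_mulVec]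
      abel
    have e1 : K₁ = T' '' unitSimplex (Fin (m + 1)) := by
      rw [← hBimg, image_image]
      simp [hT'B]
    have e2 : K = affMap (A * B⁻¹) (A *ᵥ (-(B⁻¹ *ᵥ w)) + q) ''
        unitSimplex (Fin (m + 1)) := by
      rw [← hSK₁, e1, image_image]
      refine image_congr (fun x _ => ?_)
      rw [hS, hT', affMap_comp]
    obtain ⟨r, hr⟩ := image_is_hull (A := A * B⁻¹) (A *ᵥ (-(B⁻¹ *ᵥ w)) + q)
    exact ⟨r, e2.trans hr⟩
  · rintro ⟨r, hr⟩
    rw [← hiso, hr]
    refine isoPower_simplex r ?_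
    rw [← hr]
    exact hi

end Vale.Agent.Lib.P254L
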