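import Vale.Agent.Lib.P254.Simplex

/-!
Barycentric integration over simplices: the polar formula over the orthant.
-/

open MeasureTheory Set Function
open Vale.Agent.Lib.P254

namespace Vale.Agent.Lib.P254L

/-- barycentric lift `x ↦ (1 - ∑ x, x)` -/
def bary {n : ℕ} (x : Fin n → ℝ) : Fin (n + 1) → ℝ := Fin.cons (1 - ∑ i, x i) x

/-- integral over the `n`-dimensional simplex in `n + 1` barycentric coordinates -/
noncomputable def Bm (n : ℕ) (f : (Fin (n + 1) → ℝ) → ℝ) : ℝ :=
  ∫ x in unitSimplex (Fin n), f (bary x)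

theorem sum_bary {n : ℕ} (x : Fin n → ℝ) : ∑ j, bary x j = 1 := by
  simp [bary, Fin.sum_univ_succ]

theorem measurable_bary {n : ℕ} : Measurable (bary (n := n)) := by
  unfold bary
  refine measurable_pi_iff.2 (fun j => ?_)
  refine Fin.cases ?_ (fun i => ?_) j
  · simp only [Fin.cons_zero]
    fun_prop
  · simp only [Fin.cons_succ]
    fun_prop

/-- the sheared splitting-off of the first coordinate is measure preserving -/
theorem mp_shear (n : ℕ) : MeasurePreserving
    (fun p : (Fin n → ℝ) × ℝ => (Fin.cons (p.2 - ∑ i, p.1 i) p.1 : Fin (n + 1) → ℝ))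
    ((volume : Measure (Fin n → ℝ)).prod (volume : Measure ℝ)) volume := by
  have h1 : MeasurePreserving (fun p : (Fin n → ℝ) × ℝ => (p.1, p.2 - ∑ i, p.1 i))
      ((volume : Measure (Fin n → ℝ)).prod (volume : Measure ℝ))
      ((volume : Measure (Fin n → ℝ)).prod (volume : Measure ℝ)) := by
    refine (MeasurePreserving.id (volume : Measure (Fin n → ℝ))).skew_product
      (g := fun w ρ => ρ - ∑ i, w i) (by
        unfold uncurry
        fun_prop) (Filter.Eventually.of_forall fun w => ?_)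
    exact (measurePreserving_sub_right volume (∑ i, w i)).map_eq
  have h2 := Measure.measurePreserving_swap (μ := (volume : Measure (Fin n → ℝ)))
    (ν := (volume : Measure ℝ))
  have h3 := (volume_preserving_piFinSuccAbove (fun _ : Fin (n + 1) => ℝ) 0).symm
  have h4 := h3.comp (h2.comp h1)
  have heq : (fun p : (Fin n → ℝ) × ℝ => (Fin.cons (p.2 - ∑ i, p.1 i) p.1 : Fin (n + 1) → ℝ)) =
      (⇑(MeasurableEquiv.piFinSuccAbove (fun _ : Fin (n + 1) => ℝ) 0).symm ∘ Prod.swap ∘
        fun p : (Fin n → ℝ) × ℝ => (p.1, p.2 - ∑ i, p.1 i)) := by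
    funext p
    show _ = (Fin.insertNthEquiv (fun _ => ℝ) 0) (p.2 - ∑ i, p.1 i, p.1)
    simp [Fin.insertNthEquiv, Fin.insertNth_zero']
  rw [heq]
  exact h4

theorem integral_shear {n : ℕ} {G : (Fin (n + 1) → ℝ) → ℝ} (hG : Integrable G) :
    ∫ v, G v = ∫ ρ : ℝ, ∫ w : Fin n → ℝ, G (Fin.cons (ρ - ∑ i, w i) w) := by
  have hp := mp_shear n
  have h1 : Integrable (fun p : (Fin n → ℝ) × ℝ => G (Fin.cons (p.2 - ∑ i, p.1 i) p.1))
      ((volume : Measure (Fin n → ℝ)).prod (volume : Measure ℝ)) :=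
    (hp.integrable_comp hG.aestronglyMeasurable).2 hG
  have h2 : ∫ v, G v = ∫ p : (Fin n → ℝ) × ℝ, G (Fin.cons (p.2 - ∑ i, p.1 i) p.1)
      ∂((volume : Measure (Fin n → ℝ)).prod (volume : Measure ℝ)) := by
    conv_lhs => rw [← hp.map_eq]
    exact integral_map hp.aemeasurable (by rw [hp.map_eq]; exact hG.aestronglyMeasurable)
  rw [h2, integral_prod_symm _ h1]

/-- the closed orthant -/
def Orth (n : ℕ) : Set (Fin n → ℝ) := {v | ∀ j, 0 ≤ v j}

theorem measurableSet_orth (n : ℕ) : MeasurableSet (Orth n) := by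
  have : Orth n = ⋂ j, {v : Fin n → ℝ | 0 ≤ v j} := by
    ext v
    simp [Orth]
  rw [this]
  exact MeasurableSet.iInter (fun j => measurableSet_le measurable_const (measurable_pi_apply j))

theorem integrable_of_bdd_support {n : ℕ} {G : (Fin n → ℝ) → ℝ} (hG : Measurable G) {M C : ℝ}
    (hb : ∀ v, |G v| ≤ M)
    (hs : ∀ v, G v ≠ 0 → ∀ j, 0 ≤ v j ∧ v j ≤ C) : Integrable G := by
  have hbox : MeasurableSet (Set.pi univ (fun _ : Fin n => Icc (0 : ℝ) C)) :=
    MeasurableSet.univ_pi (fun _ => measurableSet_Icc)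
  have hfin : volume (Set.pi univ (fun _ : Fin n => Icc (0 : ℝ) C)) ≠ ⊤ := by
    have : IsCompact (Set.pi univ (fun _ : Fin n => Icc (0 : ℝ) C)) :=
      isCompact_univ_pi (fun _ => isCompact_Icc)
    exact this.measure_lt_top.ne
  have hi : Integrable ((Set.pi univ (fun _ : Fin n => Icc (0 : ℝ) C)).indicator (fun _ => M)) :=
    (integrable_indicator_iff hbox).2 (integrableOn_const hfin)
  refine hi.mono' hG.aestronglyMeasurable (Filter.Eventually.of_forall fun v => ?_)
  by_cases hv : v ∈ Set.pi univ (fun _ : Fin n => Icc (0 : ℝ) C)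
  · rw [indicator_of_mem hv]
    simpa using hb v
  · rw [indicator_of_notMem hv]
    have : G v = 0 := by
      by_contra h
      exact hv (fun j _ => hs v h j)
    simp [this]

/-- **Polar formula over the orthant.** -/
theorem polar {n : ℕ} {h : ℝ → (Fin (n + 1) → ℝ) → ℝ} (hm : Measurable (uncurry h)) {M C : ℝ}
    (hb : ∀ ρ θ, |h ρ θ| ≤ M) (hs : ∀ ρ θ, C < ρ → h ρ θ = 0) :
    ∫ v in Orth (n + 1), h (∑ j, v j) ((∑ j, v j)⁻¹ • v) = ∫ ρ in Ioi (0 : ℝ), ρ ^ n * Bm n (h ρ) := by
  classical
  set g : (Fin (n + 1) → ℝ) → ℝ := fun v => h (∑ j, v j) ((∑ j, v j)⁻¹ • v) with hg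
  have hgm : Measurable g := by
    have h1 : Measurable (fun v : Fin (n + 1) → ℝ => ((∑ j, v j), (∑ j, v j)⁻¹ • v)) := by
      refine Measurable.prodMk (by fun_prop) ?_
      have h0 : Measurable (fun v : Fin (n + 1) → ℝ => (∑ j, v j)⁻¹) :=
        Measurable.inv (by fun_prop)
      refine measurable_pi_iff.2 (fun j => ?_)
      simp only [Pi.smul_apply, smul_eq_mul]
      exact h0.mul (measurable_pi_apply j)
    exact hm.comp h1
  set G : (Fin (n + 1) → ℝ) → ℝ := (Orth (n + 1)).indicator g with hGdef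
  have hGm : Measurable G := hgm.indicator (measurableSet_orth _)
  have hGb : ∀ v, |G v| ≤ M := by
    intro v
    have hM : 0 ≤ M := (abs_nonneg _).trans (hb 0 0)
    by_cases hv : v ∈ Orth (n + 1)
    · rw [hGdef, indicator_of_mem hv]
      exact hb _ _
    · rw [hGdef, indicator_of_notMem hv]
      simpa using hM
  have hGs : ∀ v, G v ≠ 0 → ∀ j, 0 ≤ v j ∧ v j ≤ C := by
    intro v hv j
    have hv0 : v ∈ Orth (n + 1) := by
      by_contra hn
      exact hv (by rw [hGdef, indicator_of_notMem hn])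
    refine ⟨hv0 j, ?_⟩
    have h1 : v j ≤ ∑ i, v i := Finset.single_le_sum (fun i _ => hv0 i) (Finset.mem_univ j)
    by_contra hc
    push Not at hc
    have : g v = 0 := hs _ _ (lt_of_lt_of_le hc h1)
    exact hv (by rw [hGdef, indicator_of_mem hv0, this])
  have hGi : Integrable G := integrable_of_bdd_support hGm hGb hGs
  rw [← integral_indicator (measurableSet_orth _), integral_shear hGi]
  -- the slice integrals
  have hslice : ∀ ρ : ℝ, 0 < ρ →
      ∫ w : Fin n → ℝ, G (Fin.cons (ρ - ∑ i, w i) w) = ρ ^ n * Bm n (h ρ) := by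
    intro ρ hρ
    have hsm := Measure.integral_comp_smul (volume : Measure (Fin n → ℝ))
      (fun w : Fin n → ℝ => G (Fin.cons (ρ - ∑ i, w i) w)) ρ
    have hfr : Module.finrank ℝ (Fin n → ℝ) = n := by simp
    rw [hfr] at hsm
    have hρn : 0 < ρ ^ n := pow_pos hρ n
    rw [abs_of_pos (inv_pos.2 hρn), smul_eq_mul] at hsm
    have key : ∀ x : Fin n → ℝ, G (Fin.cons (ρ - ∑ i, (ρ • x) i) (ρ • x)) =
        (unitSimplex (Fin n)).indicator (fun x => h ρ (bary x)) x := by
      intro x
      have hv : (Fin.cons (ρ - ∑ i, (ρ • x) i) (ρ • x) : Fin (n + 1) → ℝ) = ρ • bary x := by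
        ext j
        refine Fin.cases ?_ (fun i => ?_) j
        · simp [bary, Finset.mul_sum, mul_sub]
        · simp [bary]
      rw [hv]
      have hsum : ∑ j, (ρ • bary x) j = ρ := by
        simp only [Pi.smul_apply, smul_eq_mul, ← Finset.mul_sum, sum_bary, mul_one]
      have hmem : ρ • bary x ∈ Orth (n + 1) ↔ x ∈ unitSimplex (Fin n) := by
        constructor
        · intro hx
          refine ⟨fun i => ?_, ?_⟩
          · have := hx i.succ
            simp only [Pi.smul_apply, smul_eq_mul, bary, Fin.cons_succ] at this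
            exact nonneg_of_mul_nonneg_right this hρ
          · have := hx 0
            simp only [Pi.smul_apply, smul_eq_mul, bary, Fin.cons_zero] at this
            have h2 := nonneg_of_mul_nonneg_right this hρ
            linarith
        · intro hx j
          refine Fin.cases ?_ (fun i => ?_) j
          · simp only [Pi.smul_apply, smul_eq_mul, bary, Fin.cons_zero]
            exact mul_nonneg hρ.le (by linarith [hx.2])
          · simp only [Pi.smul_apply, smul_eq_mul, bary, Fin.cons_succ]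
            exact mul_nonneg hρ.le (hx.1 i)
      by_cases hx : x ∈ unitSimplex (Fin n)
      · rw [indicator_of_mem hx, hGdef, indicator_of_mem (hmem.2 hx), hg]
        simp only [hsum]
        rw [smul_smul, inv_mul_cancel₀ hρ.ne', one_smul]
      · rw [indicator_of_notMem hx, hGdef, indicator_of_notMem (fun h => hx (hmem.1 h))]
    simp_rw [key] at hsm
    rw [integral_indicator isCompact_unitSimplex.isClosed.measurableSet] at hsm
    unfold Bm
    rw [hsm]
    field_simp
  -- negative levels vanish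
  have hneg : ∀ ρ : ℝ, ρ < 0 → ∫ w : Fin n → ℝ, G (Fin.cons (ρ - ∑ i, w i) w) = 0 := by
    intro ρ hρ
    have : (fun w : Fin n → ℝ => G (Fin.cons (ρ - ∑ i, w i) w)) = fun _ => 0 := by
      ext w
      rw [hGdef, indicator_of_notMem]
      intro hv
      have h0 := hv 0
      simp only [Fin.cons_zero] at h0
      have h1 : 0 ≤ ∑ i, w i := Finset.sum_nonneg (fun i _ => by simpa using hv i.succ)
      linarith
    rw [this, integral_zero]
  have hae : ∀ᵐ ρ : ℝ, ρ ∉ Ioi (0 : ℝ) →
      ∫ w : Fin n → ℝ, G (Fin.cons (ρ - ∑ i, w i) w) = 0 := by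
    have : ∀ᵐ ρ : ℝ, ρ ≠ 0 := by
      simp [ae_iff]
    filter_upwards [this] with ρ hρ hρ2
    exact hneg ρ (lt_of_le_of_ne (not_lt.1 hρ2) hρ)
  rw [← setIntegral_eq_integral_of_ae_compl_eq_zero hae]
  exact setIntegral_congr_fun measurableSet_Ioi (fun ρ hρ => hslice ρ hρ)

end Vale.Agent.Lib.P254L
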