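import Vale.Agent.Lib.P254L.Polar

/-!
The cone decomposition of the simplex around its centre, in barycentric coordinates.
-/

open MeasureTheory Set Function
open Vale.Agent.Lib.P254

namespace Vale.Agent.Lib.P254L

theorem integrable_prod_of_bdd {F : ℝ × ℝ → ℝ} (hF : Measurable F) {M a b c d : ℝ}
    (hb : ∀ p, |F p| ≤ M) (hs : ∀ p, F p ≠ 0 → p ∈ Icc a b ×ˢ Icc c d) :
    Integrable F ((volume : Measure ℝ).prod (volume : Measure ℝ)) := by
  have hK : IsCompact (Icc a b ×ˢ Icc c d) := isCompact_Icc.prod isCompact_Icc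
  have hm : MeasurableSet (Icc a b ×ˢ Icc c d) := measurableSet_Icc.prod measurableSet_Icc
  have hfin : ((volume : Measure ℝ).prod (volume : Measure ℝ)) (Icc a b ×ˢ Icc c d) ≠ ⊤ :=
    hK.measure_lt_top.ne
  have hi : Integrable ((Icc a b ×ˢ Icc c d).indicator (fun _ => M))
      ((volume : Measure ℝ).prod (volume : Measure ℝ)) :=
    (integrable_indicator_iff hm).2 (integrableOn_const hfin)
  refine hi.mono' hF.aestronglyMeasurable (Filter.Eventually.of_forall fun p => ?_)
  by_cases hp : p ∈ Icc a b ×ˢ Icc c d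
  · rw [indicator_of_mem hp]
    simpa using hb p
  · rw [indicator_of_notMem hp]
    have : F p = 0 := by
      by_contra h
      exact hp (hs p h)
    simp [this]

/-- scaling on the line -/
theorem integral_comp_mul_add_line {g : ℝ → ℝ} {N : ℝ} (hN : 0 < N) (ρ : ℝ) :
    ∫ t : ℝ, g (N * t + ρ) = (1 / N) * ∫ τ : ℝ, g τ := by
  have h1 := Measure.integral_comp_mul_left (fun x : ℝ => g (x + ρ)) N
  rw [integral_add_right_eq_self g ρ] at h1
  rw [h1, abs_of_pos (inv_pos.2 hN), smul_eq_mul, one_div]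

theorem integral_comp_mul_line {g : ℝ → ℝ} {τ : ℝ} (hτ : 0 < τ) :
    ∫ ρ : ℝ, g ρ = τ * ∫ r : ℝ, g (τ * r) := by
  have h1 := Measure.integral_comp_mul_left g τ
  rw [h1, abs_of_pos (inv_pos.2 hτ), smul_eq_mul, ← mul_assoc, mul_inv_cancel₀ hτ.ne', one_mul]

/-- the two-dimensional change of variables behind the cone decomposition -/
theorem two_var (n : ℕ) {Ξ : ℝ → ℝ} (hΞ : Measurable Ξ) {M : ℝ} (hb : ∀ r, |Ξ r| ≤ M) {N : ℝ}
    (hN : 0 < N) :
    ∫ t in Ici (0 : ℝ), ∫ ρ in Ioi (0 : ℝ),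
        (if N * t + ρ ≤ 1 then ρ ^ n * Ξ (ρ / (N * t + ρ)) else 0) =
      (1 / N) * (1 / ((n : ℝ) + 2)) * ∫ r in Ioc (0 : ℝ) 1, r ^ n * Ξ r := by
  classical
  have hM : 0 ≤ M := (abs_nonneg _).trans (hb 0)
  -- first function
  set A : ℝ → ℝ → ℝ := fun t ρ =>
    if 0 ≤ t ∧ 0 < ρ ∧ N * t + ρ ≤ 1 then ρ ^ n * Ξ (ρ / (N * t + ρ)) else 0 with hA
  have hLHS : ∫ t in Ici (0 : ℝ), ∫ ρ in Ioi (0 : ℝ),
      (if N * t + ρ ≤ 1 then ρ ^ n * Ξ (ρ / (N * t + ρ)) else 0) = ∫ t : ℝ, ∫ ρ : ℝ, A t ρ := by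
    rw [← integral_indicator measurableSet_Ici]
    congr 1
    ext t
    by_cases ht : 0 ≤ t
    · rw [indicator_of_mem (show t ∈ Ici (0 : ℝ) from ht), ← integral_indicator measurableSet_Ioi]
      congr 1
      ext ρ
      by_cases hρ : 0 < ρ
      · rw [indicator_of_mem (show ρ ∈ Ioi (0 : ℝ) from hρ)]
        simp [hA, ht, hρ]
      · rw [indicator_of_notMem (show ρ ∉ Ioi (0 : ℝ) from hρ)]
        simp [hA, hρ]
    · rw [indicator_of_notMem (show t ∉ Ici (0 : ℝ) from ht)]
      simp [hA, ht]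
  have hAb : ∀ t ρ, |A t ρ| ≤ M := by
    intro t ρ
    simp only [hA]
    split_ifs with h
    · obtain ⟨h0, h1, h2⟩ := h
      have h3 : ρ ≤ 1 := by
        have := mul_nonneg hN.le h0
        linarith
      rw [abs_mul, abs_of_nonneg (pow_nonneg h1.le n)]
      calc ρ ^ n * |Ξ (ρ / (N * t + ρ))| ≤ 1 * M :=
            mul_le_mul (pow_le_one₀ h1.le h3) (hb _) (abs_nonneg _) zero_le_one
        _ = M := one_mul M
    · simpa using hM
  have hAm : Measurable (uncurry A) := by
    have hset : MeasurableSet {p : ℝ × ℝ | 0 ≤ p.1 ∧ 0 < p.2 ∧ N * p.1 + p.2 ≤ 1} := by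
      refine (measurableSet_le measurable_const measurable_fst).inter
        ((measurableSet_lt measurable_const measurable_snd).inter
          (measurableSet_le (f := fun p : ℝ × ℝ => N * p.1 + p.2) (by fun_prop) measurable_const))
    refine Measurable.ite hset ?_ measurable_const
    have h1 : Measurable (fun p : ℝ × ℝ => p.2 / (N * p.1 + p.2)) := by fun_prop
    exact (measurable_snd.pow_const n).mul (hΞ.comp h1)
  have hAi : Integrable (uncurry A) ((volume : Measure ℝ).prod (volume : Measure ℝ)) := by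
    refine integrable_prod_of_bdd hAm (M := M) (a := 0) (b := 1 / N) (c := 0) (d := 1)
      (fun p => hAb _ _) ?_
    intro p hp
    simp only [uncurry, hA] at hp
    by_cases h : 0 ≤ p.1 ∧ 0 < p.2 ∧ N * p.1 + p.2 ≤ 1
    · obtain ⟨h0, h1, h2⟩ := h
      have h3 : 0 ≤ N * p.1 := mul_nonneg hN.le h0
      refine ⟨⟨h0, ?_⟩, ⟨h1.le, by linarith⟩⟩
      rw [le_div_iff₀ hN]
      linarith
    · simp [h] at hp
  rw [hLHS, integral_integral_swap hAi]
  -- second function
  set B : ℝ → ℝ → ℝ := fun ρ τ =>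
    if 0 < ρ ∧ ρ ≤ τ ∧ τ ≤ 1 then ρ ^ n * Ξ (ρ / τ) else 0 with hB
  have hstep : ∀ ρ : ℝ, ∫ t : ℝ, A t ρ = (1 / N) * ∫ τ : ℝ, B ρ τ := by
    intro ρ
    rw [← integral_comp_mul_add_line hN ρ]
    congr 1
    ext t
    simp only [hA, hB]
    by_cases hρ : 0 < ρ
    · have e1 : (0 ≤ t ∧ 0 < ρ ∧ N * t + ρ ≤ 1) ↔ (0 < ρ ∧ ρ ≤ N * t + ρ ∧ N * t + ρ ≤ 1) := by
        constructor
        · rintro ⟨h0, h1, h2⟩
          exact ⟨h1, by have := mul_nonneg hN.le h0; linarith, h2⟩
        · rintro ⟨h1, h2, h3⟩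
          refine ⟨?_, h1, h3⟩
          by_contra hc
          push Not at hc
          have := mul_neg_of_pos_of_neg hN hc
          linarith
      simp only [e1]
    · simp [hρ]
  simp_rw [hstep]
  rw [integral_const_mul]
  have hBb : ∀ ρ τ, |B ρ τ| ≤ M := by
    intro ρ τ
    simp only [hB]
    split_ifs with h
    · obtain ⟨h1, h2, h3⟩ := h
      have h4 : ρ ≤ 1 := h2.trans h3
      rw [abs_mul, abs_of_nonneg (pow_nonneg h1.le n)]
      calc ρ ^ n * |Ξ (ρ / τ)| ≤ 1 * M :=
            mul_le_mul (pow_le_one₀ h1.le h4) (hb _) (abs_nonneg _) zero_le_one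
        _ = M := one_mul M
    · simpa using hM
  have hBm : Measurable (uncurry B) := by
    have hset : MeasurableSet {p : ℝ × ℝ | 0 < p.1 ∧ p.1 ≤ p.2 ∧ p.2 ≤ 1} := by
      refine (measurableSet_lt measurable_const measurable_fst).inter
        ((measurableSet_le measurable_fst measurable_snd).inter
          (measurableSet_le measurable_snd measurable_const))
    refine Measurable.ite hset ?_ measurable_const
    have h1 : Measurable (fun p : ℝ × ℝ => p.1 / p.2) := by fun_prop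
    exact (measurable_fst.pow_const n).mul (hΞ.comp h1)
  have hBi : Integrable (uncurry B) ((volume : Measure ℝ).prod (volume : Measure ℝ)) := by
    refine integrable_prod_of_bdd hBm (M := M) (a := 0) (b := 1) (c := 0) (d := 1)
      (fun p => hBb _ _) ?_
    intro p hp
    simp only [uncurry, hB] at hp
    by_cases h : 0 < p.1 ∧ p.1 ≤ p.2 ∧ p.2 ≤ 1
    · obtain ⟨h1, h2, h3⟩ := h
      exact ⟨⟨h1.le, h2.trans h3⟩, ⟨h1.le.trans h2, h3⟩⟩
    · simp [h] at hp
  rw [integral_integral_swap hBi]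
  set J : ℝ := ∫ r in Ioc (0 : ℝ) 1, r ^ n * Ξ r with hJ
  have hinner : ∀ τ : ℝ, ∫ ρ : ℝ, B ρ τ = (Ioc (0 : ℝ) 1).indicator (fun τ => τ ^ (n + 1) * J) τ := by
    intro τ
    by_cases hτ : τ ∈ Ioc (0 : ℝ) 1
    · rw [indicator_of_mem hτ, integral_comp_mul_line hτ.1, hJ, ← integral_indicator measurableSet_Ioc]
      have : ∀ r : ℝ, B (τ * r) τ = τ ^ n * (Ioc (0 : ℝ) 1).indicator (fun r => r ^ n * Ξ r) r := by
        intro r
        simp only [hB]
        by_cases hr : r ∈ Ioc (0 : ℝ) 1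
        · rw [indicator_of_mem hr]
          have c1 : 0 < τ * r := mul_pos hτ.1 hr.1
          have c2 : τ * r ≤ τ := by nlinarith [hτ.1, hr.2]
          rw [if_pos ⟨c1, c2, hτ.2⟩, mul_div_cancel_left₀ _ hτ.1.ne', mul_pow]
          ring
        · rw [indicator_of_notMem hr, if_neg, mul_zero]
          rintro ⟨c1, c2, _⟩
          apply hr
          refine ⟨(mul_pos_iff_of_pos_left hτ.1).1 c1, ?_⟩
          by_contra hc
          push Not at hc
          nlinarith [hτ.1]
      simp_rw [this]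
      rw [integral_const_mul]
      ring
    · rw [indicator_of_notMem hτ]
      have : (fun ρ : ℝ => B ρ τ) = fun _ => 0 := by
        ext ρ
        simp only [hB]
        rw [if_neg]
        rintro ⟨c1, c2, c3⟩
        exact hτ ⟨lt_of_lt_of_le c1 c2, c3⟩
      rw [this, integral_zero]
  simp_rw [hinner]
  rw [integral_indicator measurableSet_Ioc, integral_mul_const]
  have hpow : ∫ τ in Ioc (0 : ℝ) 1, τ ^ (n + 1) = 1 / ((n : ℝ) + 2) := by
    rw [← intervalIntegral.integral_of_le zero_le_one, integral_pow]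
    push_cast
    simp
    ring_nf
  rw [hpow]
  ring

end Vale.Agent.Lib.P254L
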