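import Mathlib

/-!
Matrices with stochastic columns and determinant close to one are close to permutation matrices,
and the corresponding linear systems have nonnegative solutions.
-/

open Matrix

namespace Vale.Agent.Lib.P254L

variable {N : ℕ}

/-- The determinant of a matrix whose columns are all stochastic, with one exception, is bounded
by the largest entry of the exceptional column. -/
theorem abs_det_le_col (A : Matrix (Fin N) (Fin N) ℝ) (j : Fin N) {M : ℝ}
    (hcol : ∀ k, |A k j| ≤ M) (hpos : ∀ l, l ≠ j → ∀ k, 0 ≤ A k l)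
    (hsum : ∀ l, l ≠ j → ∑ k, A k l = 1) : |A.det| ≤ M := by
  classical
  have hM : 0 ≤ M := (abs_nonneg _).trans (hcol j)
  set A' : Matrix (Fin N) (Fin N) ℝ := A.updateCol j (Pi.single j 1) with hA'
  have hne : ∀ k i, i ≠ j → A' k i = A k i := by
    intro k i hi
    simp [hA', updateCol_ne hi]
  have hself : ∀ k, A' k j = (Pi.single j (1 : ℝ) : Fin N → ℝ) k := by
    intro k
    simp [hA']
  have hnn : ∀ k i, 0 ≤ A' k i := by
    intro k i
    by_cases hi : i = j
    · subst hi
      rw [hself]
      by_cases hk : k = i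
      · subst hk
        simp
      · simp [Pi.single_eq_of_ne hk]
    · rw [hne k i hi]
      exact hpos i hi k
  have hs : ∀ i, ∑ k, A' k i = 1 := by
    intro i
    by_cases hi : i = j
    · subst hi
      simp_rw [hself]
      simp
    · simp_rw [hne _ i hi]
      exact hsum i hi
  set f : Equiv.Perm (Fin N) → (Fin N → Fin N) := fun σ => Function.update σ j j with hf
  have hinj : Function.Injective f := by
    intro σ τ hστ
    have h1 : ∀ i, i ≠ j → σ i = τ i := by
      intro i hi
      have := congrFun hστ i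
      simpa [hf, Function.update_of_ne hi] using this
    have h2 : σ j = τ j := by
      by_contra hc
      set x := τ.symm (σ j) with hx
      have h3 : τ x = σ j := by simp [hx]
      by_cases hxj : x = j
      · rw [hxj] at h3
        exact hc h3.symm
      · have h4 := h1 x hxj
        rw [h3] at h4
        exact hxj (σ.injective h4)
    ext i
    by_cases hi : i = j
    · subst hi
      rw [h2]
    · rw [h1 i hi]
  have htotal : ∑ g : Fin N → Fin N, ∏ i, A' (g i) i = 1 := by
    have := Finset.prod_univ_sum (fun _ : Fin N => (Finset.univ : Finset (Fin N)))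
      (fun i k => A' k i)
    rw [Fintype.piFinset_univ] at this
    rw [← this]
    simp [hs]
  have hterm : ∀ σ : Equiv.Perm (Fin N), |∏ i, A (σ i) i| ≤ M * ∏ i, A' (f σ i) i := by
    intro σ
    rw [Finset.abs_prod, ← Finset.mul_prod_erase _ _ (Finset.mem_univ j),
      ← Finset.mul_prod_erase Finset.univ _ (Finset.mem_univ j)]
    have e1 : A' (f σ j) j = 1 := by
      rw [hself]
      simp [hf]
    rw [e1, one_mul]
    refine mul_le_mul (hcol _) ?_ (Finset.prod_nonneg (fun _ _ => abs_nonneg _)) hM
    refine le_of_eq (Finset.prod_congr rfl (fun i hi => ?_))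
    have hij : i ≠ j := Finset.ne_of_mem_erase hi
    simp only [hf, Function.update_of_ne hij]
    rw [hne _ i hij, abs_of_nonneg (hpos i hij _)]
  have hgnn : ∀ g : Fin N → Fin N, 0 ≤ ∏ i, A' (g i) i :=
    fun g => Finset.prod_nonneg (fun i _ => hnn _ _)
  calc |A.det| ≤ ∑ σ : Equiv.Perm (Fin N), |∏ i, A (σ i) i| := by
        rw [det_apply']
        refine (Finset.abs_sum_le_sum_abs _ _).trans (Finset.sum_le_sum (fun σ _ => ?_))
        rw [abs_mul]
        rcases Int.units_eq_one_or (Equiv.Perm.sign σ) with h | h <;> simp [h]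
    _ ≤ ∑ σ : Equiv.Perm (Fin N), M * ∏ i, A' (f σ i) i :=
        Finset.sum_le_sum (fun σ _ => hterm σ)
    _ = M * ∑ σ : Equiv.Perm (Fin N), ∏ i, A' (f σ i) i := by
        rw [Finset.mul_sum]
    _ ≤ M * 1 := by
        refine mul_le_mul_of_nonneg_left ?_ hM
        rw [← htotal, ← Finset.sum_image (s := Finset.univ) (g := f)
          (f := fun g => ∏ i, A' (g i) i) (fun x _ y _ h => hinj h)]
        exact Finset.sum_le_sum_of_subset_of_nonneg (Finset.subset_univ _)
          (fun g _ _ => hgnn g)
    _ = M := mul_one M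

/-- the data of a stochastic matrix -/
structure Stoch (B : Matrix (Fin N) (Fin N) ℝ) : Prop where
  nonneg : ∀ k j, 0 ≤ B k j
  sum : ∀ j, ∑ k, B k j = 1

theorem Stoch.le_one {B : Matrix (Fin N) (Fin N) ℝ} (h : Stoch B) (k j : Fin N) : B k j ≤ 1 := by
  have := Finset.single_le_sum (f := fun k => B k j) (fun i _ => h.nonneg i j) (Finset.mem_univ k)
  simpa [h.sum j] using this

theorem Stoch.exists_large {B : Matrix (Fin N) (Fin N) ℝ} (h : Stoch B) (j : Fin N) :
    ∃ k, |B.det| ≤ B k j := by
  obtain ⟨k, -, hk⟩ := Finset.exists_max_image Finset.univ (fun k => B k j) ⟨j, Finset.mem_univ j⟩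
  refine ⟨k, abs_det_le_col B j (fun i => ?_) (fun l _ i => h.nonneg i l) (fun l _ => h.sum l)⟩
  rw [abs_of_nonneg (h.nonneg i j)]
  exact hk i (Finset.mem_univ i)

theorem Stoch.off_le {B : Matrix (Fin N) (Fin N) ℝ} (h : Stoch B) {k k' : Fin N} (hne : k ≠ k')
    (j : Fin N) : B k j ≤ 1 - B k' j := by
  classical
  have h1 : B k j + B k' j ≤ ∑ i, B i j := by
    have : ∑ i ∈ ({k, k'} : Finset (Fin N)), B i j ≤ ∑ i, B i j :=
      Finset.sum_le_sum_of_subset_of_nonneg (Finset.subset_univ _)
        (fun i _ _ => h.nonneg i j)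
    rwa [Finset.sum_pair hne] at this
  rw [h.sum j] at h1
  linarith

/-- The columns of a nearly unimodular stochastic matrix are nearly unit vectors for distinct
units. -/
theorem Stoch.large_inj {B : Matrix (Fin N) (Fin N) ℝ} (h : Stoch B) {θ : ℝ} (hθ : θ < 1 / 2)
    (hdet : 1 - θ ≤ |B.det|) {π : Fin N → Fin N} (hπ : ∀ j, 1 - θ ≤ B (π j) j) :
    Function.Injective π := by
  classical
  intro j j' hjj
  by_contra hne
  have hne' : j' ≠ j := fun h' => hne h'.symm
  set col : Fin N → ℝ := fun k => B k j' + (-1 : ℝ) • B k j with hcol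
  have e := det_updateCol_add_smul_self B hne' (-1 : ℝ)
  have hb : |(updateCol B j' col).det| ≤ θ := by
    refine abs_det_le_col _ j' (fun k => ?_) (fun l hl i => ?_) (fun l hl => ?_)
    · rw [updateCol_self]
      simp only [hcol, smul_eq_mul, neg_mul, one_mul]
      have h1 := hπ j
      have h2 := hπ j'
      rw [← hjj] at h2
      by_cases hk : k = π j
      · subst hk
        have h3 := h.le_one (π j) j
        have h4 := h.le_one (π j) j'
        rw [abs_le]
        constructor <;> linarith
      · have h3 := h.off_le hk j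
        have h4 := h.off_le hk j'
        have h5 := h.nonneg k j
        have h6 := h.nonneg k j'
        rw [abs_le]
        constructor <;> linarith
    · rw [updateCol_ne hl]
      exact h.nonneg i l
    · simp_rw [updateCol_ne hl]
      exact h.sum l
  rw [e] at hb
  linarith

/-- Solving a nearly unimodular stochastic system: a vector with large coordinates has a
nonnegative solution. -/
theorem Stoch.exists_solution {B : Matrix (Fin N) (Fin N) ℝ} (h : Stoch B) {θ : ℝ} (hθ0 : 0 ≤ θ)
    (hθ : θ < 1 / 2) (hdet : 1 - θ ≤ |B.det|) {p : Fin N → ℝ} (hp1 : ∑ k, p k = 1)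
    (hp : ∀ k, 2 * θ / (1 - 2 * θ) ≤ p k) :
    ∃ l : Fin N → ℝ, (∀ j, 0 ≤ l j) ∧ ∑ j, l j = 1 ∧ B *ᵥ l = p := by
  classical
  have hdet0 : B.det ≠ 0 := by
    intro h0
    rw [h0, abs_zero] at hdet
    linarith
  have hu : IsUnit B.det := isUnit_iff_ne_zero.2 hdet0
  have h12 : 0 < 1 - 2 * θ := by linarith
  have hpnn : ∀ k, 0 ≤ p k := fun k => le_trans (by positivity) (hp k)
  -- the permutation
  have hex : ∀ j, ∃ k, 1 - θ ≤ B k j := by
    intro j
    obtain ⟨k, hk⟩ := h.exists_large j
    exact ⟨k, hdet.trans hk⟩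
  choose π hπ using hex
  have hinj : Function.Injective π := h.large_inj hθ hdet hπ
  have hbij : Function.Bijective π := Finite.injective_iff_bijective.1 hinj
  set l : Fin N → ℝ := B⁻¹ *ᵥ p with hl
  have hBl : B *ᵥ l = p := by
    rw [hl, mulVec_mulVec, mul_nonsing_inv _ hu, one_mulVec]
  have hsum : ∑ j, l j = 1 := by
    have e : ∑ k, p k = ∑ j, l j := by
      rw [← hBl]
      simp only [mulVec, dotProduct]
      rw [Finset.sum_comm]
      refine Finset.sum_congr rfl (fun j _ => ?_)
      rw [← Finset.sum_mul, h.sum j, one_mul]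
    rw [← e, hp1]
  -- the error bound
  set L : ℝ := ∑ j, |l j| with hL
  set e : Fin N → ℝ := fun j => l j - p (π j) with he
  have hew : ∀ j, |e j| ≤ ∑ i, |(if j = i then (1 : ℝ) else 0) - B (π j) i| * |l i| := by
    intro j
    have e1 : e j = ∑ i, ((if j = i then (1 : ℝ) else 0) - B (π j) i) * l i := by
      have e2 : p (π j) = ∑ i, B (π j) i * l i := by
        rw [← hBl]
        rfl
      simp only [he, e2, sub_mul, Finset.sum_sub_distrib, ite_mul, one_mul, zero_mul,
        Finset.sum_ite_eq, Finset.mem_univ, if_true]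
    rw [e1]
    refine (Finset.abs_sum_le_sum_abs _ _).trans (le_of_eq ?_)
    refine Finset.sum_congr rfl (fun i _ => ?_)
    rw [abs_mul]
  have hcol : ∀ i, ∑ j, |(if j = i then (1 : ℝ) else 0) - B (π j) i| ≤ 2 * θ := by
    intro i
    have e1 : ∀ j, |(if j = i then (1 : ℝ) else 0) - B (π j) i| =
        B (π j) i + (if j = i then 1 - 2 * B (π i) i else 0) := by
      intro j
      by_cases hj : j = i
      · subst hj
        have := h.le_one (π j) j
        rw [if_pos rfl, if_pos rfl, abs_of_nonneg (by linarith)]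
        ring
      · rw [if_neg hj, if_neg hj, zero_sub, abs_neg, abs_of_nonneg (h.nonneg _ _)]
        ring
    simp_rw [e1]
    have e2 : ∑ j, B (π j) i = 1 := by
      have := hbij.sum_comp (fun k => B k i)
      rw [this, h.sum i]
    simp only [Finset.sum_add_distrib, Finset.sum_ite_eq', Finset.mem_univ, if_true, e2]
    have := hπ i
    linarith
  have hEsum : ∑ j, |e j| ≤ 2 * θ * L := by
    calc ∑ j, |e j| ≤ ∑ j, ∑ i, |(if j = i then (1 : ℝ) else 0) - B (π j) i| * |l i| :=
          Finset.sum_le_sum (fun j _ => hew j)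
      _ = ∑ i, (∑ j, |(if j = i then (1 : ℝ) else 0) - B (π j) i|) * |l i| := by
          rw [Finset.sum_comm]
          refine Finset.sum_congr rfl (fun i _ => ?_)
          rw [Finset.sum_mul]
      _ ≤ ∑ i, (2 * θ) * |l i| :=
          Finset.sum_le_sum (fun i _ => mul_le_mul_of_nonneg_right (hcol i) (abs_nonneg _))
      _ = 2 * θ * L := by
          rw [hL, Finset.mul_sum]
  have hpsum : ∑ j, p (π j) = 1 := by
    have := hbij.sum_comp p
    rw [this, hp1]
  have hLle : L ≤ 1 + 2 * θ * L := by
    have h1 : ∀ j, |l j| ≤ p (π j) + |e j| := by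
      intro j
      have : l j = p (π j) + e j := by
        simp only [he]
        ring
      rw [this]
      refine (abs_add_le _ _).trans ?_
      rw [abs_of_nonneg (hpnn _)]
    calc L ≤ ∑ j, (p (π j) + |e j|) := Finset.sum_le_sum (fun j _ => h1 j)
      _ = 1 + ∑ j, |e j| := by rw [Finset.sum_add_distrib, hpsum]
      _ ≤ 1 + 2 * θ * L := by linarith
  have hLb : L ≤ 1 / (1 - 2 * θ) := by
    rw [le_div_iff₀ h12]
    linarith
  refine ⟨l, fun j => ?_, hsum, hBl⟩
  have h1 : |e j| ≤ ∑ j, |e j| :=
    Finset.single_le_sum (f := fun j => |e j|) (fun _ _ => abs_nonneg _) (Finset.mem_univ j)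
  have h2 : |e j| ≤ 2 * θ / (1 - 2 * θ) := by
    refine h1.trans (hEsum.trans ?_)
    have : 2 * θ * L ≤ 2 * θ * (1 / (1 - 2 * θ)) :=
      mul_le_mul_of_nonneg_left hLb (by positivity)
    calc _ ≤ _ := this
      _ = _ := by ring
  have h3 := (abs_le.1 h2).1
  have h4 : l j = p (π j) + e j := by
    simp only [he]
    ring
  rw [h4]
  have := hp (π j)
  linarith

end Vale.Agent.Lib.P254L
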