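import Vale.Agent.Lib.P254L.LocMain
import Vale.Agent.Lib.P254L.Stochastic

/-!
Bodies sandwiched between two simplices of nearly equal volume.
-/

open MeasureTheory Set Function Filter Topology Matrix
open Vale.Agent.Lib.P254

namespace Vale.Agent.Lib.P254L

variable {m : ℕ}

/-- the vertices of the standard simplex -/
noncomputable def vtx (j : Fin (m + 2)) : Fin (m + 1) → ℝ :=
  Fin.tail (Pi.single j (1 : ℝ) : Fin (m + 2) → ℝ)

theorem vtx_mem (j : Fin (m + 2)) : vtx j ∈ unitSimplex (Fin (m + 1)) := by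
  have h1 : ∑ k, (Pi.single j (1 : ℝ) : Fin (m + 2) → ℝ) k = 1 := by simp
  refine (tail_mem_iff h1).2 ⟨fun k => ?_, h1⟩
  by_cases hk : k = j
  · subst hk
    simp
  · simp [Pi.single_eq_of_ne hk]

theorem tail_eq_sum (σ : Fin (m + 2) → ℝ) : Fin.tail σ = ∑ j, σ j • vtx j := by
  funext i
  simp only [Finset.sum_apply, Pi.smul_apply, smul_eq_mul, vtx, Fin.tail]
  simp [Pi.single_apply]

/-- the matrix of an affine map in barycentric coordinates -/
noncomputable def baryMat (A : Matrix (Fin (m + 1)) (Fin (m + 1)) ℝ) (q : Fin (m + 1) → ℝ) :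
    Matrix (Fin (m + 2)) (Fin (m + 2)) ℝ :=
  Matrix.of fun k j => bary (affMap A q (vtx j)) k

theorem baryMat_mulVec (A : Matrix (Fin (m + 1)) (Fin (m + 1)) ℝ) (q : Fin (m + 1) → ℝ)
    {σ : Fin (m + 2) → ℝ} (hσ : ∑ j, σ j = 1) :
    baryMat A q *ᵥ σ = bary (affMap A q (Fin.tail σ)) := by
  have hcomb : affMap A q (Fin.tail σ) = ∑ j, σ j • affMap A q (vtx j) := by
    rw [tail_eq_sum]
    simp only [affMap, mulVec_sum, mulVec_smul, smul_add, Finset.sum_add_distrib]
    congr 1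
    rw [← Finset.sum_smul, hσ, one_smul]
  funext k
  refine Fin.cases ?_ (fun i => ?_) k
  · simp only [mulVec, dotProduct, baryMat, Matrix.of_apply, bary, Fin.cons_zero]
    rw [hcomb]
    have e : ∀ j, (1 - ∑ i, affMap A q (vtx j) i) * σ j =
        σ j - σ j * ∑ i, affMap A q (vtx j) i := by
      intro j
      ring
    simp_rw [e]
    rw [Finset.sum_sub_distrib, hσ]
    congr 1
    simp only [Finset.sum_apply, Pi.smul_apply, smul_eq_mul, Finset.mul_sum]
    rw [Finset.sum_comm]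
  · simp only [mulVec, dotProduct, baryMat, Matrix.of_apply, bary, Fin.cons_succ]
    rw [hcomb]
    simp only [Finset.sum_apply, Pi.smul_apply, smul_eq_mul]
    refine Finset.sum_congr rfl (fun j _ => ?_)
    ring

theorem baryMat_det (A : Matrix (Fin (m + 1)) (Fin (m + 1)) ℝ) (q : Fin (m + 1) → ℝ) :
    (baryMat A q).det = A.det := by
  classical
  -- first row of ones
  set H₁ : Matrix (Fin (m + 2)) (Fin (m + 2)) ℝ :=
    (baryMat A q).updateRow 0 (∑ k, (1 : ℝ) • baryMat A q k) with hH₁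
  have h1 : H₁.det = (baryMat A q).det := by
    have := det_updateRow_sum (baryMat A q) (0 : Fin (m + 2)) (fun _ => (1 : ℝ))
    rw [hH₁]
    simpa using this
  -- simplified form
  set H₂ : Matrix (Fin (m + 2)) (Fin (m + 2)) ℝ := Matrix.of fun k j =>
    Fin.cases (if j = 0 then 1 else 0) (fun i => Fin.cases (q i) (fun l => A i l) j) k with hH₂
  have hvtx0 : ∀ i, affMap A q (vtx (0 : Fin (m + 2))) i = q i := by
    intro i
    have : vtx (0 : Fin (m + 2)) = (0 : Fin (m + 1) → ℝ) := by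
      funext a
      simp [vtx, Fin.tail, Pi.single_apply, Fin.succ_ne_zero]
    simp [affMap, this]
  have hvtxs : ∀ l i, affMap A q (vtx (Fin.succ l : Fin (m + 2))) i = A i l + q i := by
    intro l i
    have : vtx (Fin.succ l : Fin (m + 2)) = (Pi.single l (1 : ℝ) : Fin (m + 1) → ℝ) := by
      funext a
      simp only [vtx, Fin.tail, Pi.single_apply, Fin.succ_inj]
    simp [affMap, this]
  have h2 : H₁.det = H₂.det := by
    rw [← det_transpose H₁, ← det_transpose H₂]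
    refine det_eq_of_forall_row_eq_smul_add_const
      (fun j : Fin (m + 2) => if j = 0 then (0 : ℝ) else 1) (0 : Fin (m + 2)) (by simp) ?_
    intro j k
    simp only [transpose_apply]
    refine Fin.cases ?_ (fun i => ?_) k
    · -- first row of `H₁`
      have e1 : H₁ 0 j = 1 := by
        rw [hH₁, updateRow_self]
        simp only [Finset.sum_apply, Pi.smul_apply, smul_eq_mul, one_mul]
        have := sum_bary (affMap A q (vtx j))
        simpa [baryMat] using this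
      rw [e1]
      refine Fin.cases ?_ (fun l => ?_) j
      · simp [hH₂]
      · simp [hH₂, Fin.succ_ne_zero]
    · have e1 : H₁ i.succ j = baryMat A q i.succ j := by
        rw [hH₁, updateRow_ne (Fin.succ_ne_zero i)]
      rw [e1]
      refine Fin.cases ?_ (fun l => ?_) j
      · simp [hH₂, baryMat, bary, hvtx0]
      · simp [hH₂, baryMat, bary, hvtxs, Fin.succ_ne_zero]
  have h3 : H₂.det = A.det := by
    rw [det_succ_row_zero, Fin.sum_univ_succ]
    have e1 : ∀ j : Fin (m + 1), H₂ 0 j.succ = 0 := by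
      intro j
      simp [hH₂, Fin.succ_ne_zero]
    simp only [e1, mul_zero, zero_mul, Finset.sum_const_zero, add_zero]
    have e2 : H₂ 0 0 = 1 := by simp [hH₂]
    rw [e2]
    have e3 : H₂.submatrix Fin.succ (Fin.succAbove 0) = A := by
      ext i l
      simp [hH₂]
    rw [e3]
    simp
  rw [← h1, h2, h3]

theorem baryMat_stoch {A : Matrix (Fin (m + 1)) (Fin (m + 1)) ℝ} {q : Fin (m + 1) → ℝ}
    (hself : ∀ x ∈ unitSimplex (Fin (m + 1)), affMap A q x ∈ unitSimplex (Fin (m + 1))) :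
    Stoch (baryMat A q) := by
  constructor
  · intro k j
    exact (bary_mem_Sg (hself _ (vtx_mem j))).1 k
  · intro j
    exact sum_bary _

/-- **A nearly volume preserving affine self-map of the simplex covers a shrunk simplex.** -/
theorem self_map_shrink {A : Matrix (Fin (m + 1)) (Fin (m + 1)) ℝ} {q : Fin (m + 1) → ℝ}
    (hself : ∀ x ∈ unitSimplex (Fin (m + 1)), affMap A q x ∈ unitSimplex (Fin (m + 1)))
    {θ η : ℝ} (hθ0 : 0 ≤ θ) (hθ : θ < 1 / 2) (hdet : 1 - θ ≤ |A.det|) (hη0 : 0 ≤ η) (hη1 : η ≤ 1)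
    (hθη : 2 * θ / (1 - 2 * θ) ≤ η * ((m : ℝ) + 2)⁻¹)
    {x : Fin (m + 1) → ℝ} (hx : x ∈ unitSimplex (Fin (m + 1))) :
    ∃ y ∈ unitSimplex (Fin (m + 1)), affMap A q y = ctr m + (1 - η) • (x - ctr m) := by
  have hst := baryMat_stoch hself
  have hdetB : 1 - θ ≤ |(baryMat A q).det| := by rwa [baryMat_det]
  set t : Fin (m + 1) → ℝ := ctr m + (1 - η) • (x - ctr m) with ht
  have hp2 : ((m : ℝ) + 2) ≠ 0 := by positivity
  have hbary : ∀ k, bary t k = (1 - η) * bary x k + η * ((m : ℝ) + 2)⁻¹ := by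
    intro k
    refine Fin.cases ?_ (fun i => ?_) k
    · simp only [bary, Fin.cons_zero, ht, Pi.add_apply, Pi.smul_apply, Pi.sub_apply, smul_eq_mul,
        ctr]
      rw [Finset.sum_add_distrib, ← Finset.mul_sum, Finset.sum_sub_distrib]
      simp only [Finset.sum_const, Finset.card_univ, Fintype.card_fin, nsmul_eq_mul]
      push_cast
      field_simp
      ring
    · simp only [bary, Fin.cons_succ, ht, Pi.add_apply, Pi.smul_apply, Pi.sub_apply, smul_eq_mul,
        ctr]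
      ring
  have hσ := bary_mem_Sg hx
  obtain ⟨l, hl0, hl1, hl2⟩ := hst.exists_solution (p := bary t) hθ0 hθ hdetB (sum_bary t)
    (fun k => by
      rw [hbary]
      have : 0 ≤ (1 - η) * bary x k := mul_nonneg (by linarith) (hσ.1 k)
      linarith)
  have hy : Fin.tail l ∈ unitSimplex (Fin (m + 1)) := (tail_mem_iff hl1).2 ⟨hl0, hl1⟩
  refine ⟨Fin.tail l, hy, ?_⟩
  have h1 := baryMat_mulVec A q hl1
  rw [hl2] at h1
  have h2 := congrArg Fin.tail h1
  rw [tail_bary, tail_bary] at h2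
  exact h2.symm

/-- a sharper lower bound for the radial integral -/
theorem Tf_lb2 (m : ℕ) {a Q ε : ℝ} (ha : 0 ≤ a) (haε : a ≤ ε) (hQ : 0 ≤ Q + 1) :
    (Q + 1) * ((1 - ((m : ℝ) + 4) * ε / 2) * a) - a ≤ Tf m a Q := by
  have ha1 : 0 < 1 + a := by linarith
  set r0 : ℝ := (1 + a)⁻¹ with hr0
  have hr0pos : 0 < r0 := inv_pos.2 ha1
  have hr0le : r0 ≤ 1 := inv_le_one_of_one_le₀ (by linarith)
  set h : ℝ → ℝ := fun r => r ^ m * (r ^ 2 * (Q + 1) - 1) with hh
  have hhc : Continuous h := by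
    rw [hh]
    fun_prop
  have e1 : Tf m a Q = ∫ r in Ioc r0 1, h r := by
    unfold Tf
    have e2 : ∀ r ∈ Ioc (0 : ℝ) 1, r ^ m * (if r * (1 + a) ≤ 1 then 0 else r ^ 2 * (Q + 1) - 1) =
        (Ioi r0).indicator h r := by
      intro r hr
      by_cases hc : r * (1 + a) ≤ 1
      · have : r ≤ r0 := by
          rw [hr0, le_inv_comm₀ hr.1 ha1, ← one_div, le_div_iff₀ hr.1]
          linarith
        rw [if_pos hc, indicator_of_notMem (by simpa using this)]
        simp
      · have : r0 < r := by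
          by_contra hle
          push Not at hle
          apply hc
          have := mul_le_mul_of_nonneg_right hle ha1.le
          rwa [hr0, inv_mul_cancel₀ ha1.ne'] at this
        rw [if_neg hc, indicator_of_mem (by simpa using this)]
    rw [setIntegral_congr_fun measurableSet_Ioc e2, setIntegral_indicator measurableSet_Ioi]
    congr 2
    ext r
    simp only [mem_inter_iff, mem_Ioc, mem_Ioi]
    constructor
    · rintro ⟨⟨_, h2⟩, h3⟩
      exact ⟨h3, h2⟩
    · rintro ⟨h1, h2⟩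
      exact ⟨⟨hr0pos.trans h1, h2⟩, h1⟩
  have hint : ∀ α β : ℝ, ∫ r in Ioc r0 1, (α - β * (1 - r)) = α * (1 - r0) - β * (1 - r0) ^ 2 / 2 := by
    intro α β
    rw [← intervalIntegral.integral_of_le hr0le]
    have hd : ∀ r ∈ uIcc r0 1, HasDerivAt (fun r : ℝ => α * r - β * (r - r ^ 2 / 2))
        (α - β * (1 - r)) r := by
      intro r _
      have h1 : HasDerivAt (fun r : ℝ => r ^ 2 / 2) r r := by
        have := (hasDerivAt_pow 2 r).div_const 2
        simpa using this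
      have h3 : HasDerivAt (fun r : ℝ => α * r - β * (r - r ^ 2 / 2)) (α * 1 - β * (1 - r)) r :=
        ((hasDerivAt_id' r).const_mul α).sub (((hasDerivAt_id' r).sub h1).const_mul β)
      simpa using h3
    rw [intervalIntegral.integral_eq_sub_of_hasDerivAt hd
      (Continuous.intervalIntegrable (by fun_prop) _ _)]
    ring
  have hb : Q * (1 - r0) - ((Q + 1) * ((m : ℝ) + 2)) * (1 - r0) ^ 2 / 2 ≤ Tf m a Q := by
    rw [e1, ← hint]
    refine setIntegral_mono_on ?_ ?_ measurableSet_Ioc ?_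
    · exact (Continuous.continuousOn (by fun_prop)).integrableOn_compact isCompact_Icc
        |>.mono_set Ioc_subset_Icc_self
    · exact (hhc.continuousOn.integrableOn_compact isCompact_Icc).mono_set Ioc_subset_Icc_self
    · intro r hr
      have hr0' : 0 < r := hr0pos.trans hr.1
      have hber : 1 + ((m + 2 : ℕ) : ℝ) * (r - 1) ≤ (1 + (r - 1)) ^ (m + 2) :=
        one_add_mul_le_pow (by linarith) _
      have e3 : (1 + (r - 1)) = r := by ring
      rw [e3] at hber
      push_cast at hber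
      have hp1 : r ^ m ≤ 1 := pow_le_one₀ hr0'.le hr.2
      have e4 : h r = (Q + 1) * r ^ (m + 2) - r ^ m := by
        simp only [hh]
        ring
      rw [e4]
      have h6 := mul_le_mul_of_nonneg_left hber hQ
      nlinarith
  have hu1 : (1 - r0) ≤ a := by
    have : r0 * (1 + a) = 1 := inv_mul_cancel₀ ha1.ne'
    nlinarith
  have hu0 : 0 ≤ 1 - r0 := by linarith
  have hu2 : a - a ^ 2 ≤ 1 - r0 := by
    have h6 : r0 * (1 + a) = 1 := inv_mul_cancel₀ ha1.ne'
    have h7 : (1 - r0 - (a - a ^ 2)) * (1 + a) = a ^ 3 := by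
      have : (1 - r0 - (a - a ^ 2)) * (1 + a) = (1 + a) - r0 * (1 + a) - (a - a ^ 2) * (1 + a) := by
        ring
      rw [this, h6]
      ring
    by_contra hlt
    push Not at hlt
    have h8 : (1 - r0 - (a - a ^ 2)) * (1 + a) < 0 :=
      mul_neg_of_neg_of_pos (by linarith) ha1
    rw [h7] at h8
    have : 0 ≤ a ^ 3 := by positivity
    linarith
  have huu : (1 - r0) ^ 2 ≤ a ^ 2 := by nlinarith
  refine le_trans ?_ hb
  have hm0 : (0 : ℝ) ≤ m := Nat.cast_nonneg m
  -- reorganise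
  have e5 : Q * (1 - r0) - ((Q + 1) * ((m : ℝ) + 2)) * (1 - r0) ^ 2 / 2 =
      (Q + 1) * ((1 - r0) - ((m : ℝ) + 2) * (1 - r0) ^ 2 / 2) - (1 - r0) := by
    ring
  rw [e5]
  have h1 : (1 - ((m : ℝ) + 4) * ε / 2) * a ≤ (1 - r0) - ((m : ℝ) + 2) * (1 - r0) ^ 2 / 2 := by
    have h2 : ((m : ℝ) + 2) * (1 - r0) ^ 2 ≤ ((m : ℝ) + 2) * a ^ 2 :=
      mul_le_mul_of_nonneg_left huu (by positivity)
    have h3 : a ^ 2 ≤ ε * a := by nlinarith
    have h4 : ((m : ℝ) + 4) * a ^ 2 ≤ ((m : ℝ) + 4) * (ε * a) :=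
      mul_le_mul_of_nonneg_left h3 (by positivity)
    nlinarith
  have h2 := mul_le_mul_of_nonneg_left h1 hQ
  linarith

theorem Qf_add_one_nonneg {θ : Fin (m + 1) → ℝ} (hθ : θ ∈ Sg (m + 1)) : 0 ≤ Qf m θ + 1 := by
  have h1 : (∑ j, θ j) ^ 2 ≤ ((m : ℝ) + 1) * ∑ j, θ j ^ 2 := by
    have := sq_sum_le_card_mul_sum_sq (s := (Finset.univ : Finset (Fin (m + 1)))) (f := θ)
    simpa using this
  rw [hθ.2] at h1
  simp only [Qf]
  have hp : (0 : ℝ) < (m : ℝ) + 1 := by positivity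
  have h2 : (1 : ℝ) / ((m : ℝ) + 1) ≤ ∑ j, θ j ^ 2 := by
    rw [div_le_iff₀ hp]
    linarith
  have h3 : ((m : ℝ) + 2) * (1 / ((m : ℝ) + 1)) ≤ ((m : ℝ) + 2) * ∑ j, θ j ^ 2 :=
    mul_le_mul_of_nonneg_left h2 (by positivity)
  have h4 : 1 ≤ ((m : ℝ) + 2) * (1 / ((m : ℝ) + 1)) := by
    rw [mul_one_div, le_div_iff₀ hp]
    linarith
  linarith

theorem const_le2 (m : ℕ) {ε : ℝ} (hε : ε ≤ 1 / (5 * ((m : ℝ) + 1) ^ 3)) :
    1 ≤ (1 - ((m : ℝ) + 4) * ε / 2) * (1 + 2 / (((m : ℝ) + 1) * ((m : ℝ) + 3))) := by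
  have hm : (0 : ℝ) ≤ m := Nat.cast_nonneg m
  have hp : (0 : ℝ) < (m : ℝ) + 1 := by positivity
  set N : ℝ := (m : ℝ) + 1 with hN
  have hN1 : 1 ≤ N := by linarith
  have e1 : (m : ℝ) + 4 = N + 3 := by rw [hN]; ring
  have e2 : (m : ℝ) + 3 = N + 2 := by rw [hN]; ring
  rw [e1, e2]
  have h1 : (N + 3) * ε / 2 ≤ (N + 3) * (1 / (5 * N ^ 3)) / 2 := by
    have := mul_le_mul_of_nonneg_left hε (by positivity : 0 ≤ N + 3)
    linarith
  have hc : 0 ≤ 1 + 2 / (N * (N + 2)) := by positivity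
  have h2 : (1 - (N + 3) * (1 / (5 * N ^ 3)) / 2) * (1 + 2 / (N * (N + 2))) ≤
      (1 - (N + 3) * ε / 2) * (1 + 2 / (N * (N + 2))) :=
    mul_le_mul_of_nonneg_right (by linarith) hc
  refine le_trans ?_ h2
  have h3 : (N + 3) * (N * (N + 2) + 2) ≤ 20 * N ^ 3 := by
    have h4 : N ≤ N ^ 3 := by nlinarith [sq_nonneg N, mul_pos hp hp]
    have h5 : N ^ 2 ≤ N ^ 3 := by nlinarith [sq_nonneg N]
    have h6 : 1 ≤ N ^ 3 := one_le_pow₀ hN1
    nlinarith
  have e3 : (1 - (N + 3) * (1 / (5 * N ^ 3)) / 2) * (1 + 2 / (N * (N + 2))) - 1 =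
      (20 * N ^ 3 - (N + 3) * (N * (N + 2) + 2)) / (10 * N ^ 3 * (N * (N + 2))) := by
    field_simp
    ring
  have h7 : 0 ≤ (20 * N ^ 3 - (N + 3) * (N * (N + 2) + 2)) / (10 * N ^ 3 * (N * (N + 2))) :=
    div_nonneg (by linarith) (by positivity)
  linarith

section

variable {K : Set (Fin (m + 1) → ℝ)} {ε : ℝ}

theorem piece_nonneg2 (h : Good K ε) (hε : ε ≤ 1 / (5 * ((m : ℝ) + 1) ^ 3)) (l : Fin (m + 2)) :
    0 ≤ ∫ r in Ioc (0 : ℝ) 1, r ^ m * Bm m (fun θ => Hf K (ray l r θ)) := by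
  rw [piece_swap h l]
  set κ : ℝ := 1 - ((m : ℝ) + 4) * ε / 2 with hκ
  have hcal := h.continuous_al l
  have hcQ := continuous_Qf m
  have hint1 : IntegrableOn (fun x => Tf m (al K l (bary x)) (Qf m (bary x)))
      (unitSimplex (Fin m)) := (integrable_PhiF h l).integral_prod_right
  have hpt : ∀ x ∈ unitSimplex (Fin m),
      κ * (al K l (bary x) * Qf m (bary x)) + (κ - 1) * al K l (bary x) ≤
        Tf m (al K l (bary x)) (Qf m (bary x)) := by
    intro x hx
    have hS := bary_mem_Sg hx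
    have hb := Tf_lb2 m (h.al_nonneg l hS) (h.al_le l hS) (Qf_add_one_nonneg hS)
    rw [← hκ] at hb
    refine le_trans (le_of_eq ?_) hb
    ring
  have hA : Continuous (fun θ => κ * (al K l θ * Qf m θ)) := continuous_const.mul (hcal.mul hcQ)
  have hB : Continuous (fun θ => (κ - 1) * al K l θ) := continuous_const.mul hcal
  have hlb : κ * Bm m (fun θ => al K l θ * Qf m θ) + (κ - 1) * Bm m (al K l) ≤
      ∫ x in unitSimplex (Fin m), Tf m (al K l (bary x)) (Qf m (bary x)) := by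
    have e : κ * Bm m (fun θ => al K l θ * Qf m θ) + (κ - 1) * Bm m (al K l) =
        ∫ x in unitSimplex (Fin m), (κ * (al K l (bary x) * Qf m (bary x)) +
          (κ - 1) * al K l (bary x)) := by
      rw [integral_add (integrableOn_bary hA) (integrableOn_bary hB), integral_const_mul,
        integral_const_mul]
      rfl
    rw [e]
    exact setIntegral_mono_on ((integrableOn_bary hA).add (integrableOn_bary hB)) hint1
      isCompact_unitSimplex.isClosed.measurableSet hpt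
  refine le_trans ?_ hlb
  obtain ⟨_, hK⟩ := KL m (al K l) hcal (h.convexOn_al l)
  rw [h.al_cen l, zero_mul, sub_zero] at hK
  have hBa : 0 ≤ Bm m (al K l) :=
    setIntegral_nonneg isCompact_unitSimplex.isClosed.measurableSet
      (fun x hx => h.al_nonneg l (bary_mem_Sg hx))
  have hc := const_le2 m hε
  rw [← hκ] at hc
  have hκ0 : 0 ≤ κ := by
    by_contra hneg
    push Not at hneg
    have : κ * (1 + 2 / (((m : ℝ) + 1) * ((m : ℝ) + 3))) < 0 :=
      mul_neg_of_neg_of_pos hneg (by positivity)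
    linarith
  have h1 := mul_le_mul_of_nonneg_left hK hκ0
  have h2 : 0 ≤ (κ * (1 + 2 / (((m : ℝ) + 1) * ((m : ℝ) + 3))) - 1) * Bm m (al K l) :=
    mul_nonneg (by linarith) hBa
  nlinarith

theorem core_ineq2 (h : Good K ε) (hε : ε ≤ 1 / (5 * ((m : ℝ) + 1) ^ 3)) :
    0 ≤ Bm (m + 1) (Hf K) := by
  have hmeas : Measurable (Hf K) := by
    unfold Hf
    refine Measurable.ite ?_ measurable_const (by fun_prop)
    have hct : Measurable (fun σ : Fin (m + 2) → ℝ => (Fin.tail σ : Fin (m + 1) → ℝ)) := by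
      refine measurable_pi_iff.2 (fun i => ?_)
      exact measurable_pi_apply i.succ
    exact hct h.closed.measurableSet
  have hc : Continuous (fun σ : Fin (m + 2) → ℝ => ((m : ℝ) + 2) * ∑ j, σ j ^ 2 - 2) := by fun_prop
  obtain ⟨M, hM⟩ := exists_bound_Sg hc
  have hM0 : ∀ σ ∈ Sg (m + 2), |Hf K σ| ≤ M := by
    intro σ hσ
    have h0 : 0 ≤ M := (abs_nonneg _).trans (hM σ hσ)
    unfold Hf
    split_ifs
    · simpa using h0
    · exact hM σ hσ
  rw [recursion hmeas hM0]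
  exact mul_nonneg (by positivity) (Finset.sum_nonneg (fun l _ => piece_nonneg2 h hε l))

end

/-- the numerical bound on the volume defect -/
theorem theta_bound (m : ℕ) :
    2 * (1 / (26 * ((m : ℝ) + 1) ^ 4)) / (1 - 2 * (1 / (26 * ((m : ℝ) + 1) ^ 4))) ≤
      (1 / (5 * ((m : ℝ) + 1) ^ 3)) / (1 + 1 / (5 * ((m : ℝ) + 1) ^ 3)) * ((m : ℝ) + 2)⁻¹ := by
  have hm : (0 : ℝ) ≤ m := Nat.cast_nonneg m
  set N : ℝ := (m : ℝ) + 1 with hN
  have hN1 : 1 ≤ N := by linarith
  have hN0 : 0 < N := by linarith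
  have e2 : (m : ℝ) + 2 = N + 1 := by rw [hN]; ring
  rw [e2]
  have e3 : (1 / (5 * N ^ 3)) / (1 + 1 / (5 * N ^ 3)) * (N + 1)⁻¹ =
      1 / ((5 * N ^ 3 + 1) * (N + 1)) := by
    field_simp
  have h3 : 1 ≤ N ^ 3 := one_le_pow₀ hN1
  have h4 : 1 ≤ N ^ 4 := one_le_pow₀ hN1
  have e4 : 2 * (1 / (26 * N ^ 4)) / (1 - 2 * (1 / (26 * N ^ 4))) = 1 / (13 * N ^ 4 - 1) := by
    have : 13 * N ^ 4 - 1 ≠ 0 := by
      have : 0 < 13 * N ^ 4 - 1 := by linarith
      exact this.ne'
    have hN4 : N ^ 4 ≠ 0 := by positivity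
    have e1 : 2 * (1 / (26 * N ^ 4)) = 1 / (13 * N ^ 4) := by
      field_simp
      norm_num
    rw [e1]
    have e : 1 - 1 / (13 * N ^ 4) = (13 * N ^ 4 - 1) / (13 * N ^ 4) := by
      field_simp
    rw [e, div_div_div_cancel_right₀ (by positivity)]
  rw [e3, e4]
  have hpos : 0 < (5 * N ^ 3 + 1) * (N + 1) := by positivity
  refine one_div_le_one_div_of_le hpos ?_
  have h5 : N ^ 3 ≤ N ^ 4 := by
    calc N ^ 3 = N ^ 3 * 1 := by ring
      _ ≤ N ^ 3 * N := mul_le_mul_of_nonneg_left hN1 (by positivity)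
      _ = N ^ 4 := by ring
  have h6 : N ≤ N ^ 4 := by
    calc N = N * 1 := by ring
      _ ≤ N * N ^ 3 := mul_le_mul_of_nonneg_left h3 hN0.le
      _ = N ^ 4 := by ring
  nlinarith

/-- **Bodies containing a large affine copy of the simplex, inside the standard simplex.** -/
theorem sandwich_core {K : Set (Fin (m + 1) → ℝ)} (hK : IsCompact K) (hcv : Convex ℝ K)
    (hi : (interior K).Nonempty) (hsub : K ⊆ unitSimplex (Fin (m + 1)))
    {A : Matrix (Fin (m + 1)) (Fin (m + 1)) ℝ} {q : Fin (m + 1) → ℝ}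
    (himg : ∀ x ∈ unitSimplex (Fin (m + 1)), affMap A q x ∈ K)
    (hdet : 1 - 1 / (26 * ((m : ℝ) + 1) ^ 4) ≤ |A.det|) :
    isoPower K ≤ isoPower (unitSimplex (Fin (m + 1))) ∧
      (isoPower K = isoPower (unitSimplex (Fin (m + 1))) →
        ∃ (B : Matrix (Fin (m + 1)) (Fin (m + 1)) ℝ) (w : Fin (m + 1) → ℝ),
          B.det ≠ 0 ∧ affMap B w '' K = unitSimplex (Fin (m + 1))) := by
  have hm : (0 : ℝ) ≤ m := Nat.cast_nonneg m
  have hp : (0 : ℝ) < (m : ℝ) + 1 := by positivity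
  set ε : ℝ := 1 / (5 * ((m : ℝ) + 1) ^ 3) with hε
  have hε0 : 0 < ε := by positivity
  set θ : ℝ := 1 / (26 * ((m : ℝ) + 1) ^ 4) with hθ
  have hθ0 : 0 ≤ θ := by positivity
  have hN4 : 1 ≤ ((m : ℝ) + 1) ^ 4 := one_le_pow₀ (by linarith)
  have hθ1 : θ < 1 / 2 := by
    rw [hθ]
    refine one_div_lt_one_div_of_lt (by norm_num) ?_
    linarith
  obtain ⟨B, w, h1, h2, h3⟩ := exists_max hi hsub
  have hB : B.det ≠ 0 := by
    intro h0
    rw [h0, abs_zero] at h2
    linarith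
  set K' := affMap B w '' K with hK'
  have hc' : IsClosed K' := (hK.image (continuous_affMap _ _)).isClosed
  have hcv' : Convex ℝ K' := convex_image_aff B w hcv
  have hsub' : K' ⊆ unitSimplex (Fin (m + 1)) := by
    rintro _ ⟨x, hx, rfl⟩
    exact h1 x hx
  have hmax : ∀ (N : Matrix (Fin (m + 1)) (Fin (m + 1)) ℝ) (v : Fin (m + 1) → ℝ),
      (∀ y ∈ K', affMap N v y ∈ unitSimplex (Fin (m + 1))) → |N.det| ≤ 1 :=
    fun N v hNv => h3 N v (fun x hx => hNv _ ⟨x, hx, rfl⟩)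
  -- the shrink condition
  have hself : ∀ x ∈ unitSimplex (Fin (m + 1)),
      affMap (B * A) (B *ᵥ q + w) x ∈ unitSimplex (Fin (m + 1)) := by
    intro x hx
    rw [← affMap_comp]
    exact h1 _ (himg x hx)
  have hdet' : 1 - θ ≤ |(B * A).det| := by
    rw [det_mul, abs_mul]
    have h5 : 0 ≤ |A.det| := abs_nonneg _
    nlinarith
  have hη : (1 + ε)⁻¹ = 1 - ε / (1 + ε) := by
    have : 1 + ε ≠ 0 := by positivity
    field_simp
    ring
  have hshrink : ∀ x ∈ unitSimplex (Fin (m + 1)), ctr m + (1 + ε)⁻¹ • (x - ctr m) ∈ K' := by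
    intro x hx
    have hη0 : 0 ≤ ε / (1 + ε) := by positivity
    have hη1 : ε / (1 + ε) ≤ 1 := by
      rw [div_le_one (by positivity)]
      linarith
    obtain ⟨y, hy, hy2⟩ := self_map_shrink hself hθ0 hθ1 hdet' hη0 hη1
      (by simpa only [hε, hθ] using theta_bound m) hx
    rw [hη, ← hy2, ← affMap_comp]
    exact ⟨_, himg y hy, rfl⟩
  have hgood : Good K' ε := ⟨hc', hcv', hsub', hε0, hshrink, fun l => all_centres hc' hcv' hsub' hmax l⟩
  have hcore := core_ineq2 hgood le_rfl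
  obtain ⟨h4, h5⟩ := isoPower_core hgood.closed hgood.sub hgood.interior_nonempty hcore
  have hv : vol K ≠ 0 := (vol_pos hK hi).ne'
  rw [isoPower_image_aff hB w hK hv] at h4 h5
  refine ⟨h4, fun heq => ⟨B, w, hB, ?_⟩⟩
  by_contra hne
  exact absurd heq (h5 hne).ne

/-- **The sandwich theorem.** -/
theorem sandwich_main {K : Set (Fin (m + 1) → ℝ)} (hK : IsCompact K) (hcv : Convex ℝ K)
    (p q : Fin (m + 2) → (Fin (m + 1) → ℝ)) (hp : (interior (convexHull ℝ (range p))).Nonempty)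
    (hpK : convexHull ℝ (range p) ⊆ K) (hKq : K ⊆ convexHull ℝ (range q))
    (hvol : (1 - 1 / (26 * ((m : ℝ) + 1) ^ 4)) * vol (convexHull ℝ (range q)) ≤
      vol (convexHull ℝ (range p))) :
    isoPower K ≤ isoPower (unitSimplex (Fin (m + 1))) ∧
      (isoPower K = isoPower (unitSimplex (Fin (m + 1))) ↔
        ∃ r : Fin (m + 2) → (Fin (m + 1) → ℝ), K = convexHull ℝ (range r)) := by
  classical
  have hi : (interior K).Nonempty := hp.mono (interior_mono hpK)
  have hq : (interior (convexHull ℝ (range q))).Nonempty := hi.mono (interior_mono hKq)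
  obtain ⟨A, a, hdet, himg⟩ := exists_aff_hull q hq
  obtain ⟨Ap, ap, hdetp, himgp⟩ := exists_aff_hull p hp
  have hu : IsUnit A.det := isUnit_iff_ne_zero.2 hdet
  set S := affMap A a with hS
  set T := affMap A⁻¹ (-(A⁻¹ *ᵥ a)) with hT
  have hTS : ∀ x, T (S x) = x := by
    intro x
    simp only [hT, hS, affMap, mulVec_add, mulVec_mulVec, nonsing_inv_mul _ hu, one_mulVec]
    abel
  have hST : ∀ x, S (T x) = x := by
    intro x
    simp only [hT, hS, affMap, mulVec_add, mulVec_mulVec, mul_nonsing_inv _ hu, one_mulVec,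
      mulVec_neg]
    abel
  set K₁ := T '' K with hK₁
  have hK₁c : IsCompact K₁ := hK.image (continuous_affMap _ _)
  have hK₁v : Convex ℝ K₁ := convex_image_aff _ _ hcv
  have hSK₁ : S '' K₁ = K := by
    rw [hK₁, image_image]
    simp [hST]
  have hK₁i : (interior K₁).Nonempty := by
    obtain ⟨x₀, hx₀⟩ := hi
    refine ⟨T x₀, ?_⟩
    have hopen : IsOpen (S ⁻¹' interior K) := isOpen_interior.preimage (continuous_affMap _ _)
    have hsubs : S ⁻¹' interior K ⊆ K₁ := by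
      intro y hy
      exact ⟨S y, interior_subset hy, hTS y⟩
    refine interior_maximal hsubs hopen ?_
    change S (T x₀) ∈ interior K
    rw [hST]
    exact hx₀
  have hK₁s : K₁ ⊆ unitSimplex (Fin (m + 1)) := by
    rintro _ ⟨x, hx, rfl⟩
    have := hKq hx
    rw [← himg] at this
    obtain ⟨y, hy, rfl⟩ := this
    rw [hTS]
    exact hy
  -- the inner simplex in the normalised picture
  have hin : ∀ x ∈ unitSimplex (Fin (m + 1)),
      affMap (A⁻¹ * Ap) (A⁻¹ *ᵥ ap + -(A⁻¹ *ᵥ a)) x ∈ K₁ := by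
    intro x hx
    rw [← affMap_comp]
    refine ⟨_, hpK ?_, rfl⟩
    rw [← himgp]
    exact ⟨x, hx, rfl⟩
  have hV := vol_unitSimplex_pos (ι := Fin (m + 1))
  have hdetpos : 0 < |A.det| := abs_pos.2 hdet
  have hdet2 : 1 - 1 / (26 * ((m : ℝ) + 1) ^ 4) ≤ |(A⁻¹ * Ap).det| := by
    rw [← himg, ← himgp, vol_image_aff hdet a isCompact_unitSimplex.measurableSet,
      vol_image_aff hdetp ap isCompact_unitSimplex.measurableSet] at hvol
    have h1 : (1 - 1 / (26 * ((m : ℝ) + 1) ^ 4)) * |A.det| ≤ |Ap.det| := by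
      have : ((1 - 1 / (26 * ((m : ℝ) + 1) ^ 4)) * |A.det|) * vol (unitSimplex (Fin (m + 1))) ≤
          |Ap.det| * vol (unitSimplex (Fin (m + 1))) := by
        calc _ = _ := by ring
          _ ≤ _ := hvol
      exact le_of_mul_le_mul_right this hV
    rw [det_mul, abs_mul, det_nonsing_inv, Ring.inverse_eq_inv', abs_inv]
    rw [inv_mul_eq_div, le_div_iff₀ hdetpos]
    exact h1
  obtain ⟨h1, h2⟩ := sandwich_core hK₁c hK₁v hK₁i hK₁s hin hdet2
  have hv₁ : vol K₁ ≠ 0 := (vol_pos hK₁c hK₁i).ne'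
  have hiso : isoPower K = isoPower K₁ := by
    conv_lhs => rw [← hSK₁]
    exact isoPower_image_aff hdet a hK₁c hv₁
  rw [hiso]
  refine ⟨h1, ?_, ?_⟩
  · intro heq
    obtain ⟨B, w, hB, hBimg⟩ := h2 heq
    have hBu : IsUnit B.det := isUnit_iff_ne_zero.2 hB
    set T' := affMap B⁻¹ (-(B⁻¹ *ᵥ w)) with hT'
    have hT'B : ∀ x, T' (affMap B w x) = x := by
      intro x
      simp only [hT', affMap, mulVec_add, mulVec_mulVec, nonsing_inv_mul _ hBu, one_mulVec]
      abel
    have e1 : K₁ = T' '' unitSimplex (Fin (m + 1)) := by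
      rw [← hBimg, image_image]
      simp [hT'B]
    have e2 : K = affMap (A * B⁻¹) (A *ᵥ (-(B⁻¹ *ᵥ w)) + a) ''
        unitSimplex (Fin (m + 1)) := by
      rw [← hSK₁, e1, image_image]
      refine image_congr (fun x _ => ?_)
      rw [hS, hT', affMap_comp]
    obtain ⟨r, hr⟩ := image_is_hull (A := A * B⁻¹) (A *ᵥ (-(B⁻¹ *ᵥ w)) + a)
    exact ⟨r, e2.trans hr⟩
  · rintro ⟨r, hr⟩
    rw [← hiso, hr]
    refine isoPower_simplex r ?_
    rw [← hr]
    exact hi

end Vale.Agent.Lib.P254L
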